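import Vale.Agent.P207.N3.H12.HalfJ
import Vale.Agent.P207.N3.H12.DivIn1
import Vale.Agent.P207.N3.H391.Jet

/-!
# P207, line N3 (DIVIN): the jets of order one and two in terms of derivatives
-/

open Set Filter Topology Metric MeasureTheory InnerProductSpace
open scoped ContDiff RealInnerProductSpace Gradient

noncomputable section

namespace Vale.Agent.P207.N3.H684

open Jet (D1 D2 jet e1 e2)

theorem inner_bas' (v : E2) (i : Fin 2) : ⟪v, bas i⟫ = v i := by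
  unfold bas
  rw [EuclideanSpace.inner_single_right]
  simp

theorem jet_10 (f : E2 → ℝ) : jet f 1 0 = fderiv ℝ f 0 (bas 0) := rfl

theorem jet_01 (f : E2 → ℝ) : jet f 0 1 = fderiv ℝ f 0 (bas 1) := rfl

theorem fderiv_apply_at {f : E2 → ℝ} {q : E2} (hf : ContDiffAt ℝ ∞ f q) (v w : E2) :
    fderiv ℝ (fun x => fderiv ℝ f x v) q w = fderiv ℝ (fderiv ℝ f) q w v := by
  have h1 : HasFDerivAt (fderiv ℝ f) (fderiv ℝ (fderiv ℝ f) q) q :=
    ((hf.fderiv_right (m := 1) (by norm_cast)).differentiableAt (by simp)).hasFDerivAt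
  have h2 : HasFDerivAt (fun x => fderiv ℝ f x v) _ q :=
    (ContinuousLinearMap.apply ℝ ℝ v).hasFDerivAt.comp q h1
  rw [h2.fderiv]
  rfl

/-- all jets of order two -/
theorem jet_hess {f : E2 → ℝ} (hf : ContDiffAt ℝ ∞ f 0) :
    jet f 2 0 = fderiv ℝ (∇ f) 0 (bas 0) 0 ∧ jet f 1 1 = fderiv ℝ (∇ f) 0 (bas 0) 1 ∧
      jet f 1 1 = fderiv ℝ (∇ f) 0 (bas 1) 0 ∧ jet f 0 2 = fderiv ℝ (∇ f) 0 (bas 1) 1 := by
  have h : ∀ i j, fderiv ℝ (∇ f) 0 (bas i) j = fderiv ℝ (fderiv ℝ f) 0 (bas i) (bas j) := by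
    intro i j
    rw [← inner_bas', H12.inner_hess hf]
  have hs : ∀ i j, fderiv ℝ (∇ f) 0 (bas i) j = fderiv ℝ (∇ f) 0 (bas j) i := by
    intro i j
    rw [← inner_bas', ← inner_bas', H12.hess_symm hf, real_inner_comm]
  have e20 : jet f 2 0 = fderiv ℝ (fun x => fderiv ℝ f x (bas 0)) 0 (bas 0) := rfl
  have e11 : jet f 1 1 = fderiv ℝ (fun x => fderiv ℝ f x (bas 1)) 0 (bas 0) := rfl
  have e02 : jet f 0 2 = fderiv ℝ (fun x => fderiv ℝ f x (bas 1)) 0 (bas 1) := rfl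
  refine ⟨?_, ?_, ?_, ?_⟩
  · rw [e20, fderiv_apply_at hf, h]
  · rw [e11, fderiv_apply_at hf, h]
  · rw [e11, fderiv_apply_at hf, hs 1 0, h]
  · rw [e02, fderiv_apply_at hf, h]

theorem smNear_congr_on {g g' : E2 → ℝ} {r : ℝ} (hr : 0 < r)
    (h : ∀ x ∈ ball (0 : E2) r, g' x = g x) : SmNear g' ↔ SmNear g := by
  have h1 : ∀ᶠ x in 𝓝 (0 : E2), g' x = g x := by
    filter_upwards [ball_mem_nhds (0 : E2) hr] with x hx using h x hx
  refine ⟨fun h2 => H12.SmNear.congr h2 ?_, fun h2 => H12.SmNear.congr h2 h1⟩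
  filter_upwards [h1] with x hx using hx.symm

variable (H : Half)

theorem jet_X (i : Fin 2) (x : E2) :
    jet (H.X x) (if i = 0 then 1 else 0) (if i = 1 then 1 else 0) =
      fderiv ℝ (H.X x) 0 (bas i) := by
  fin_cases i <;> rfl

/-- the entries of the second derivative of the leaf are the second jets -/
theorem TH_entries {x : E2} (hx : x ∈ ball (0 : E2) H.r) :
    jet (H.S x) 2 0 = fderiv ℝ (∇ (H.S x)) 0 (bas 0) 0 ∧
      jet (H.S x) 1 1 = fderiv ℝ (∇ (H.S x)) 0 (bas 0) 1 ∧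
      jet (H.S x) 1 1 = fderiv ℝ (∇ (H.S x)) 0 (bas 1) 0 ∧
      jet (H.S x) 0 2 = fderiv ℝ (∇ (H.S x)) 0 (bas 1) 1 :=
  jet_hess (H12.S_at H hx)

theorem smNear_T22 : SmNear (fun x => fderiv ℝ (∇ (H.S x)) 0 (bas 1) 1) ↔
    SmNear fun x => jet (H.S x) 0 2 :=
  smNear_congr_on H.r_pos fun _ hx => (TH_entries H hx).2.2.2.symm

theorem smNear_T12 : SmNear (fun x => fderiv ℝ (∇ (H.S x)) 0 (bas 0) 1) ↔
    SmNear fun x => jet (H.S x) 1 1 :=
  smNear_congr_on H.r_pos fun _ hx => (TH_entries H hx).2.1.symm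

theorem smNear_T11 : SmNear (fun x => fderiv ℝ (∇ (H.S x)) 0 (bas 0) 0) ↔
    SmNear fun x => jet (H.S x) 2 0 :=
  smNear_congr_on H.r_pos fun _ hx => (TH_entries H hx).1.symm

theorem smNear_X1 : SmNear (fun x => fderiv ℝ (H.X x) 0 (bas 0)) ↔
    SmNear fun x => jet (H.X x) 1 0 := Iff.rfl

theorem smNear_X2 : SmNear (fun x => fderiv ℝ (H.X x) 0 (bas 1)) ↔
    SmNear fun x => jet (H.X x) 0 1 := Iff.rfl

end Vale.Agent.P207.N3.H684
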