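import Vale.Agent.P207.N3.H684.Types
import Vale.Agent.P207.N3.H250.PF

/-!
# P207, line N3, P10W: the form of the tensor from the weak divergence equation (3.4 and 4.2)

`t11`, `t12`, `t22` are the entries of the symmetric tensor, `x1`, `x2` the first jets of the
density. All functions are only continuous; `SmN` means smooth on some ball around `0`.
-/

open Set Filter Topology Metric MeasureTheory
open scoped ContDiff

noncomputable section

namespace Vale.Agent.P207.N3.H684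

/-- smooth near the origin -/
def SmN (u : E2 → ℝ) : Prop := ∃ d > 0, ContDiffOn ℝ ∞ u (ball 0 d)

variable {R : ℝ} {t11 t12 t22 x1 x2 : E2 → ℝ}

/-- `t22`, `x2` smooth: `t12` is smooth up to a function of the second variable -/
theorem off_diag (hR : 0 < R) (c12 : ContinuousOn t12 (ball 0 R))
    (hW : WDiv R t12 t22 x2) (s22 : SmN t22) (sx : SmN x2) :
    ∃ ρ > 0, ∃ A : ℝ → ℝ, ContinuousOn A (Ioo (-ρ) ρ) ∧ ∃ P : E2 → ℝ,
      ContDiffOn ℝ ∞ P (ball 0 ρ) ∧ ∀ y ∈ ball (0 : E2) ρ, t12 y = A (y 1) + P y := by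
  obtain ⟨r1, h1, s22⟩ := s22
  obtain ⟨r2, h2, sx⟩ := sx
  set r : ℝ := min R (min r1 r2) with hr
  have hr0 : 0 < r := lt_min hR (lt_min h1 h2)
  have hrR : r ≤ R := min_le_left _ _
  have hr1 : r ≤ r1 := (min_le_right _ _).trans (min_le_left _ _)
  have hr2 : r ≤ r2 := (min_le_right _ _).trans (min_le_right _ _)
  have s22' : ContDiffOn ℝ ∞ t22 (ball 0 r) := s22.mono (ball_subset_ball hr1)
  have sx' : ContDiffOn ℝ ∞ x2 (ball 0 r) := sx.mono (ball_subset_ball hr2)
  have c12' : ContinuousOn t12 (ball 0 r) := c12.mono (ball_subset_ball hrR)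
  have hg : ContDiffOn ℝ ∞ (fun y => x2 y - fderiv ℝ t22 y b1) (ball 0 r) :=
    sx'.sub ((s22'.fderiv_of_isOpen isOpen_ball (by norm_num)).clm_apply contDiffOn_const)
  obtain ⟨G, hG, hGd⟩ := exists_prim0 hg
  have hρ : 2 * (r / 4) < r := by linarith
  have R1 : Rect (r / 4) t12 t22 x2 :=
    rect_of_weak (by linarith) hρ c12' s22'.continuousOn sx'.continuousOn (hW.mono hrR)
  have R2 : Rect (r / 4) G t22 x2 :=
    rect_of_contDiff hρ (hG.of_le (by norm_num)) (s22'.of_le (by norm_num)) fun y hy => by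
      rw [hGd y hy]; ring
  refine ⟨r / 4, by linarith, fun s => t12 (pt 0 s) - G (pt 0 s), ?_, G,
    hG.mono (ball_subset_ball (by linarith)), fun y hy => ?_⟩
  · exact (cont1 hρ c12' (by rw [abs_zero]; linarith)).sub
      (cont1 hρ hG.continuousOn (by rw [abs_zero]; linarith))
  · rw [mem_ball_zero_iff] at hy
    have h := dir0 hρ c12' hG.continuousOn R1 R2 (a := 0) (b := y 0) (s := y 1)
      (by rw [abs_zero]; linarith) ((abs_coord_le y 0).trans hy.le)
      ((abs_coord_le y 1).trans_lt hy)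
    rw [pt_self] at h
    linarith

/-- (3.4): `t22`, `x1`, `x2` smooth -/
theorem type34 (hR : 0 < R) (c11 : ContinuousOn t11 (ball 0 R))
    (c12 : ContinuousOn t12 (ball 0 R))
    (hW1 : WDiv R t11 t12 x1) (hW2 : WDiv R t12 t22 x2) (s22 : SmN t22) (sx1 : SmN x1)
    (sx2 : SmN x2) :
    ∃ d > 0, ∃ a a' B : ℝ → ℝ, Continuous a ∧ Continuous a' ∧ Continuous B ∧
      (∀ s, |s| < d → HasDerivAt a (a' s) s) ∧ ∃ P Q : E2 → ℝ,
      ContDiffOn ℝ ∞ P (ball 0 d) ∧ ContDiffOn ℝ ∞ Q (ball 0 d) ∧ ∀ y ∈ ball (0 : E2) d,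
        t12 y = -a (y 1) + P y ∧ t11 y = a' (y 1) * y 0 + B (y 1) + Q y := by
  obtain ⟨r1, h1, A, hA, P, hP, hAP⟩ := off_diag hR c12 hW2 s22 sx2
  obtain ⟨r2, h2, sx⟩ := sx1
  set r : ℝ := min R (min r1 r2) with hr
  have hr0 : 0 < r := lt_min hR (lt_min h1 h2)
  have hrR : r ≤ R := min_le_left _ _
  have hr1 : r ≤ r1 := (min_le_right _ _).trans (min_le_left _ _)
  have hr2 : r ≤ r2 := (min_le_right _ _).trans (min_le_right _ _)
  have sx' : ContDiffOn ℝ ∞ x1 (ball 0 r) := sx.mono (ball_subset_ball hr2)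
  have c11' : ContinuousOn t11 (ball 0 r) := c11.mono (ball_subset_ball hrR)
  have c12' : ContinuousOn t12 (ball 0 r) := c12.mono (ball_subset_ball hrR)
  have hP' : ContDiffOn ℝ ∞ P (ball 0 r) := hP.mono (ball_subset_ball hr1)
  have hg : ContDiffOn ℝ ∞ (fun y => x1 y - fderiv ℝ P y b1) (ball 0 r) :=
    sx'.sub ((hP'.fderiv_of_isOpen isOpen_ball (by norm_num)).clm_apply contDiffOn_const)
  obtain ⟨G, hG, hGd⟩ := exists_prim0 hg
  set ρ : ℝ := r / 4 with hρd
  have hρ0 : 0 < ρ := by rw [hρd]; linarith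
  have hρ : 2 * ρ < r := by rw [hρd]; linarith
  have hρr1 : 2 * ρ < r1 := hρ.trans_le hr1
  have R1 : Rect ρ t11 t12 x1 :=
    rect_of_weak hρ0 hρ c11' c12' sx'.continuousOn (hW1.mono hrR)
  have R2 : Rect ρ G P x1 :=
    rect_of_contDiff hρ (hG.of_le (by norm_num)) (hP'.of_le (by norm_num)) fun y hy => by
      rw [hGd y hy]; ring
  set U : E2 → ℝ := fun y => t11 y - G y with hU
  have cU : ContinuousOn U (ball 0 r) := c11'.sub hG.continuousOn
  -- increments
  have hinc : ∀ b c d : ℝ, |b| ≤ ρ → |c| < ρ → |d| < ρ →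
      ∫ s in c..d, (U (pt b s) - U (pt 0 s)) = - (b * (A d - A c)) := by
    intro b c d hb hc hd
    have h0 : |(0 : ℝ)| ≤ ρ := by rw [abs_zero]; exact hρ0.le
    have e1 := R1 0 b c d h0 hb hc.le hd.le
    have e2 := R2 0 b c d h0 hb hc.le hd.le
    have i1 := (cont_sec1 hρ c11' hb hc.le hd.le).intervalIntegrable (μ := volume)
    have i2 := (cont_sec1 hρ c11' h0 hc.le hd.le).intervalIntegrable (μ := volume)
    have i3 := (cont_sec1 hρ hG.continuousOn hb hc.le hd.le).intervalIntegrable (μ := volume)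
    have i4 := (cont_sec1 hρ hG.continuousOn h0 hc.le hd.le).intervalIntegrable (μ := volume)
    have e3 : (∫ s in c..d, (U (pt b s) - U (pt 0 s)))
        = (∫ s in c..d, (t11 (pt b s) - t11 (pt 0 s)))
          - ∫ s in c..d, (G (pt b s) - G (pt 0 s)) := by
      rw [← intervalIntegral.integral_sub (i1.sub i2) (i3.sub i4)]
      refine intervalIntegral.integral_congr fun s _ => ?_
      simp only [hU]; ring
    have e4 : (∫ t in (0 : ℝ)..b, (t12 (pt t d) - t12 (pt t c)))
        = (∫ t in (0 : ℝ)..b, (P (pt t d) - P (pt t c))) + b * (A d - A c) := by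
      have i5 := (cont_sec0 hρ hP'.continuousOn hd.le h0 hb).intervalIntegrable (μ := volume)
      have i6 := (cont_sec0 hρ hP'.continuousOn hc.le h0 hb).intervalIntegrable (μ := volume)
      have e5 : b * (A d - A c) = ∫ _ in (0 : ℝ)..b, (A d - A c) := by
        rw [intervalIntegral.integral_const, smul_eq_mul, sub_zero]
      rw [e5, ← intervalIntegral.integral_add (i5.sub i6) intervalIntegrable_const]
      refine intervalIntegral.integral_congr fun t ht => ?_
      have ht' := abs_le_of_uIcc h0 hb ht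
      have m1 := hAP _ (pt_mem hρr1 ht' hd.le)
      have m2 := hAP _ (pt_mem hρr1 ht' hc.le)
      simp only [pt_one] at m1 m2
      simp only [m1, m2]; ring
    rw [e3]
    linarith
  have hb0 : |ρ / 2| ≤ ρ := by rw [abs_of_pos (by linarith)]; linarith
  have h00 : |(0 : ℝ)| ≤ ρ := by rw [abs_zero]; exact hρ0.le
  set A' : ℝ → ℝ := fun s => -(U (pt (ρ / 2) s) - U (pt 0 s)) / (ρ / 2) with hA'
  have cA' : ContinuousOn A' (Ioo (-ρ) ρ) :=
    (((cont1 hρ cU hb0).sub (cont1 hρ cU h00)).neg).div_const _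
  have hder : ∀ s, |s| < ρ → HasDerivAt A (A' s) s := by
    intro s hs
    refine hasDerivAt_of_increment cA' (fun c d hc hd => ?_) hs
    have h3 : (∫ s in c..d, A' s) = (∫ s in c..d, (U (pt (ρ / 2) s) - U (pt 0 s))) * (-(2 / ρ)) := by
      rw [← intervalIntegral.integral_mul_const]
      refine intervalIntegral.integral_congr fun s _ => ?_
      simp only [hA']; field_simp
    rw [h3, hinc _ c d hb0 hc hd]
    field_simp
  -- linearity in the first variable
  have hlin : ∀ t s : ℝ, |t| ≤ ρ → |s| < ρ → U (pt t s) = U (pt 0 s) - t * A' s := by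
    intro t s ht hs
    have h4 : HasDerivAt (fun s => -(t * A s)) (U (pt t s) - U (pt 0 s)) s := by
      refine hasDerivAt_of_increment (F := fun s => U (pt t s) - U (pt 0 s))
        ((cont1 hρ cU ht).sub (cont1 hρ cU h00)) (fun c d hc hd => ?_) hs
      rw [hinc t c d ht hc hd]; ring
    have h5 : HasDerivAt (fun s => -(t * A s)) (-(t * A' s)) s := ((hder s hs).const_mul t).neg
    have h6 := h4.unique h5
    linarith
  have cA : ContinuousOn A (Ioo (-ρ) ρ) := fun s hs =>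
    (hder s (abs_lt.2 hs)).continuousAt.continuousWithinAt
  have hd0 : 0 ≤ ρ / 2 := by linarith
  have hdρ : ρ / 2 < ρ := by linarith
  have cB : ContinuousOn (fun s => U (pt 0 s)) (Ioo (-ρ) ρ) := cont1 hρ cU h00
  refine ⟨ρ / 2, by linarith, fun s => -A (clampTo (ρ / 2) s), fun s => -A' (clampTo (ρ / 2) s),
    fun s => U (pt 0 (clampTo (ρ / 2) s)), (continuous_clamp cA hd0 hdρ).neg,
    (continuous_clamp cA' hd0 hdρ).neg, continuous_clamp cB hd0 hdρ, ?_, P, G,
    hP'.mono (ball_subset_ball (by linarith)), hG.mono (ball_subset_ball (by linarith)), ?_⟩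
  · intro s hs
    have h1 : (fun s => -A (clampTo (ρ / 2) s)) =ᶠ[𝓝 s] fun s => -A s := by
      have h2 : Ioo (-(ρ / 2)) (ρ / 2) ∈ 𝓝 s := isOpen_Ioo.mem_nhds (abs_lt.1 hs)
      filter_upwards [h2] with x hx
      rw [clampTo_eq (abs_lt.2 hx).le]
    show HasDerivAt _ (-A' (clampTo (ρ / 2) s)) s
    rw [clampTo_eq hs.le]
    exact ((hder s (hs.trans hdρ)).neg).congr_of_eventuallyEq h1
  · intro y hy
    rw [mem_ball_zero_iff] at hy
    have hy0 : |y 0| < ρ / 2 := (abs_coord_le y 0).trans_lt hy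
    have hy1 : |y 1| < ρ / 2 := (abs_coord_le y 1).trans_lt hy
    simp only [clampTo_eq hy1.le]
    refine ⟨?_, ?_⟩
    · have := hAP y (by rw [mem_ball_zero_iff]; linarith)
      rw [this]; ring
    · have := hlin (y 0) (y 1) (hy0.trans hdρ).le (hy1.trans hdρ)
      rw [pt_self] at this
      simp only [hU] at this ⊢
      linarith

/-- type F: `t12`, `x1` smooth: `t11` is smooth up to a function of the second variable -/
theorem typeF (hR : 0 < R) (c11 : ContinuousOn t11 (ball 0 R)) (hW1 : WDiv R t11 t12 x1)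
    (s12 : SmN t12) (sx1 : SmN x1) :
    ∃ d > 0, ∃ b : ℝ → ℝ, Continuous b ∧ ∃ Q : E2 → ℝ, ContDiffOn ℝ ∞ Q (ball 0 d) ∧
      ∀ y ∈ ball (0 : E2) d, t11 y = b (y 1) + Q y := by
  obtain ⟨r1, h1, s12⟩ := s12
  obtain ⟨r2, h2, sx⟩ := sx1
  set r : ℝ := min R (min r1 r2) with hr
  have hr0 : 0 < r := lt_min hR (lt_min h1 h2)
  have hrR : r ≤ R := min_le_left _ _
  have s12' : ContDiffOn ℝ ∞ t12 (ball 0 r) :=
    s12.mono (ball_subset_ball ((min_le_right _ _).trans (min_le_left _ _)))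
  have sx' : ContDiffOn ℝ ∞ x1 (ball 0 r) :=
    sx.mono (ball_subset_ball ((min_le_right _ _).trans (min_le_right _ _)))
  have c11' : ContinuousOn t11 (ball 0 r) := c11.mono (ball_subset_ball hrR)
  have hg : ContDiffOn ℝ ∞ (fun y => x1 y - fderiv ℝ t12 y b1) (ball 0 r) :=
    sx'.sub ((s12'.fderiv_of_isOpen isOpen_ball (by norm_num)).clm_apply contDiffOn_const)
  obtain ⟨G, hG, hGd⟩ := exists_prim0 hg
  have hρ : 2 * (r / 4) < r := by linarith
  have R1 : Rect (r / 4) t11 t12 x1 :=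
    rect_of_weak (by linarith) hρ c11' s12'.continuousOn sx'.continuousOn (hW1.mono hrR)
  have R2 : Rect (r / 4) G t12 x1 :=
    rect_of_contDiff hρ (hG.of_le (by norm_num)) (s12'.of_le (by norm_num)) fun y hy => by
      rw [hGd y hy]; ring
  have h0 : |(0 : ℝ)| ≤ r / 4 := by rw [abs_zero]; linarith
  have cB : ContinuousOn (fun s => t11 (pt 0 s) - G (pt 0 s)) (Ioo (-(r / 4)) (r / 4)) :=
    (cont1 hρ c11' h0).sub (cont1 hρ hG.continuousOn h0)
  refine ⟨r / 8, by linarith, fun s => t11 (pt 0 (clampTo (r / 8) s)) - G (pt 0 (clampTo (r / 8) s)),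
    continuous_clamp cB (by linarith) (by linarith), G,
    hG.mono (ball_subset_ball (by linarith)), fun y hy => ?_⟩
  rw [mem_ball_zero_iff] at hy
  have hy1 : |y 1| < r / 8 := (abs_coord_le y 1).trans_lt hy
  have h := dir0 hρ c11' hG.continuousOn R1 R2 (a := 0) (b := y 0) (s := y 1) h0
    ((abs_coord_le y 0).trans (by linarith)) (by linarith)
  rw [pt_self] at h
  simp only [clampTo_eq hy1.le]
  linarith

/-- type S: `t12`, `x2` smooth: `t22` is smooth up to a function of the first variable -/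
theorem typeS (hR : 0 < R) (c22 : ContinuousOn t22 (ball 0 R)) (hW2 : WDiv R t12 t22 x2)
    (s12 : SmN t12) (sx2 : SmN x2) :
    ∃ d > 0, ∃ b : ℝ → ℝ, Continuous b ∧ ∃ Q : E2 → ℝ, ContDiffOn ℝ ∞ Q (ball 0 d) ∧
      ∀ y ∈ ball (0 : E2) d, t22 y = b (y 0) + Q y := by
  obtain ⟨r1, h1, s12⟩ := s12
  obtain ⟨r2, h2, sx⟩ := sx2
  set r : ℝ := min R (min r1 r2) with hr
  have hr0 : 0 < r := lt_min hR (lt_min h1 h2)
  have hrR : r ≤ R := min_le_left _ _
  have s12' : ContDiffOn ℝ ∞ t12 (ball 0 r) :=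
    s12.mono (ball_subset_ball ((min_le_right _ _).trans (min_le_left _ _)))
  have sx' : ContDiffOn ℝ ∞ x2 (ball 0 r) :=
    sx.mono (ball_subset_ball ((min_le_right _ _).trans (min_le_right _ _)))
  have c22' : ContinuousOn t22 (ball 0 r) := c22.mono (ball_subset_ball hrR)
  have hg : ContDiffOn ℝ ∞ (fun y => x2 y - fderiv ℝ t12 y b0) (ball 0 r) :=
    sx'.sub ((s12'.fderiv_of_isOpen isOpen_ball (by norm_num)).clm_apply contDiffOn_const)
  obtain ⟨G, hG, hGd⟩ := exists_prim1 hg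
  have hρ : 2 * (r / 4) < r := by linarith
  have R1 : Rect (r / 4) t12 t22 x2 :=
    rect_of_weak (by linarith) hρ s12'.continuousOn c22' sx'.continuousOn (hW2.mono hrR)
  have R2 : Rect (r / 4) t12 G x2 :=
    rect_of_contDiff hρ (s12'.of_le (by norm_num)) (hG.of_le (by norm_num)) fun y hy => by
      rw [hGd y hy]; ring
  have h0 : |(0 : ℝ)| ≤ r / 4 := by rw [abs_zero]; linarith
  have cB : ContinuousOn (fun t => t22 (pt t 0) - G (pt t 0)) (Ioo (-(r / 4)) (r / 4)) :=
    (cont0 hρ c22' h0).sub (cont0 hρ hG.continuousOn h0)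
  refine ⟨r / 8, by linarith, fun t => t22 (pt (clampTo (r / 8) t) 0) - G (pt (clampTo (r / 8) t) 0),
    continuous_clamp cB (by linarith) (by linarith), G,
    hG.mono (ball_subset_ball (by linarith)), fun y hy => ?_⟩
  rw [mem_ball_zero_iff] at hy
  have hy0 : |y 0| < r / 8 := (abs_coord_le y 0).trans_lt hy
  have h := dir1 hρ c22' hG.continuousOn R1 R2 (c := 0) (d := y 1) (t := y 0) h0
    ((abs_coord_le y 1).trans (by linarith)) (by linarith)
  rw [pt_self] at h
  simp only [clampTo_eq hy0.le]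
  linarith

/-! ### The entries of a leaf family -/

/-- the basis vector with index `i` -/
def bv (i : Fin 2) : E2 := EuclideanSpace.single i 1

theorem bv_zero : bv 0 = b0 := rfl
theorem bv_one : bv 1 = b1 := rfl

/-- `T_{ij}(y)` -/
def ent (S : E2 → E2 → ℝ) (i j : Fin 2) (y : E2) : ℝ := inner ℝ (hess (S y) 0 (bv i)) (bv j)

/-- `X_j(y)` -/
def den (X : E2 → E2 → ℝ) (j : Fin 2) (y : E2) : ℝ := inner ℝ (gradient (X y) 0) (bv j)

theorem gradient_eq_sum {f : E2 → ℝ} (y : E2) :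
    gradient f y = fderiv ℝ f y b0 • b0 + fderiv ℝ f y b1 • b1 := by
  have h : ∀ v : E2, inner ℝ (gradient f y) v = fderiv ℝ f y v := fun v => by
    rw [gradient, InnerProductSpace.toDual_symm_apply]
  have h0 : gradient f y 0 = fderiv ℝ f y b0 := by
    have h2 := h b0
    rw [b0, EuclideanSpace.inner_single_right] at h2
    rw [b0, ← h2]; simp
  have h1 : gradient f y 1 = fderiv ℝ f y b1 := by
    have h2 := h b1
    rw [b1, EuclideanSpace.inner_single_right] at h2
    rw [b1, ← h2]; simp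
  ext i
  fin_cases i
  · simpa [b0, b1] using h0
  · simpa [b0, b1] using h1

theorem wdiv_of_leafFam {S X : E2 → E2 → ℝ} (F : LeafFam R S X) (j : Fin 2) :
    WDiv R (ent S 0 j) (ent S 1 j) (den X j) := by
  intro f hf hc hs
  have key := F.div f hf hc hs (bv j)
  have e1 : (∫ y, inner ℝ (hess (S y) 0 (gradient f y)) (bv j))
      = ∫ y, (fderiv ℝ f y b0 * ent S 0 j y + fderiv ℝ f y b1 * ent S 1 j y) := by
    refine integral_congr_ae (Eventually.of_forall fun y => ?_)
    simp only [ent, bv_zero, bv_one]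
    rw [gradient_eq_sum, map_add, map_smul, map_smul, inner_add_left, real_inner_smul_left,
      real_inner_smul_left]
  rw [← e1, key]
  rfl

theorem inner_gradient' (f : E2 → ℝ) (y v : E2) : inner ℝ (gradient f y) v = fderiv ℝ f y v := by
  rw [gradient, InnerProductSpace.toDual_symm_apply]

theorem inner_hess {f : E2 → ℝ} {q : E2} (hf : DifferentiableAt ℝ (fderiv ℝ f) q) (v w : E2) :
    inner ℝ (hess f q v) w = fderiv ℝ (fderiv ℝ f) q v w := by
  have h0 : ∀ w : E2, HasFDerivAt (fun x => fderiv ℝ f x w)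
      ((ContinuousLinearMap.apply ℝ ℝ w).comp (fderiv ℝ (fderiv ℝ f) q)) q := fun w =>
    (ContinuousLinearMap.apply ℝ ℝ w).hasFDerivAt.comp q hf.hasFDerivAt
  have h1 : DifferentiableAt ℝ (gradient f) q := by
    have h2 : gradient f = fun x => fderiv ℝ f x b0 • b0 + fderiv ℝ f x b1 • b1 := by
      funext x; exact gradient_eq_sum x
    rw [h2]
    exact ((h0 b0).differentiableAt.smul_const b0).add ((h0 b1).differentiableAt.smul_const b1)
  have h3 : HasFDerivAt (fun x => inner ℝ w (gradient f x))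
      ((innerSL ℝ w).comp (fderiv ℝ (gradient f) q)) q :=
    (innerSL ℝ w).hasFDerivAt.comp q h1.hasFDerivAt
  have h4 : (fun x => inner ℝ w (gradient f x)) = fun x => fderiv ℝ f x w := by
    funext x
    rw [real_inner_comm, inner_gradient']
  rw [h4] at h3
  have h5 := h3.unique (h0 w)
  have h6 := congrArg (fun L : E2 →L[ℝ] ℝ => L v) h5
  simp only [ContinuousLinearMap.comp_apply, innerSL_apply_apply,
    ContinuousLinearMap.apply_apply] at h6
  rw [hess, real_inner_comm]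
  exact h6

section

variable {S X : E2 → E2 → ℝ}

theorem two_le_infty : (1 : WithTop ℕ∞) + 1 ≤ ∞ := by
  rw [one_add_one_eq_two]
  exact (by exact_mod_cast le_top : ((2 : ℕ∞) : WithTop ℕ∞) ≤ ∞)

theorem LeafFam.diff_fderiv (F : LeafFam R S X) {y : E2} (hy : y ∈ ball (0 : E2) R) :
    ContDiffAt ℝ ∞ (S y) 0 := by
  have hR : 0 < R := by
    rw [mem_ball_zero_iff] at hy
    exact (norm_nonneg y).trans_lt hy
  exact (F.S_smooth y hy).contDiffAt (isOpen_ball.mem_nhds (mem_ball_self hR))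

theorem ent_eq (F : LeafFam R S X) {y : E2} (hy : y ∈ ball (0 : E2) R) (i j : Fin 2) :
    ent S i j y = iteratedFDeriv ℝ 2 (S y) 0 ![bv i, bv j] := by
  have h1 := (LeafFam.diff_fderiv F hy).fderiv_right (m := 1) two_le_infty
  rw [ent, inner_hess (h1.differentiableAt one_ne_zero), iteratedFDeriv_two_apply]
  rfl

theorem ent_symm (F : LeafFam R S X) {y : E2} (hy : y ∈ ball (0 : E2) R) (i j : Fin 2) :
    ent S i j y = ent S j i y := by
  have h0 := LeafFam.diff_fderiv F hy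
  have h1 := h0.fderiv_right (m := 1) two_le_infty
  have h2 := h0.isSymmSndFDerivAt (by
    rw [minSmoothness_of_isRCLikeNormedField]
    exact (by exact_mod_cast le_top : ((2 : ℕ∞) : WithTop ℕ∞) ≤ ∞))
  simp only [ent]
  rw [inner_hess (h1.differentiableAt one_ne_zero), inner_hess (h1.differentiableAt one_ne_zero)]
  exact h2 (bv i) (bv j)

theorem ent_cont (hR : 0 < R) (F : LeafFam R S X) (i j : Fin 2) :
    ContinuousOn (ent S i j) (ball 0 R) := by
  have h1 := (F.S_cont 2).comp (f := fun y : E2 => (y, (0 : E2)))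
    (by fun_prop : Continuous fun y : E2 => (y, (0 : E2))).continuousOn
    (fun y hy => ⟨hy, mem_ball_self hR⟩)
  have h2 : ContinuousOn (fun y => iteratedFDeriv ℝ 2 (S y) 0 ![bv i, bv j]) (ball 0 R) := by
    have h3 : Continuous fun L : E2 [×2]→L[ℝ] ℝ => L ![bv i, bv j] :=
      (ContinuousMultilinearMap.apply ℝ (fun _ : Fin 2 => E2) ℝ ![bv i, bv j]).continuous
    exact h3.comp_continuousOn h1
  exact h2.congr fun y hy => ent_eq F hy i j

theorem den_cont (hR : 0 < R) (F : LeafFam R S X) (j : Fin 2) :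
    ContinuousOn (den X j) (ball 0 R) := by
  have h1 := (F.X_cont 1).comp (f := fun y : E2 => (y, (0 : E2)))
    (by fun_prop : Continuous fun y : E2 => (y, (0 : E2))).continuousOn
    (fun y hy => ⟨hy, mem_ball_self hR⟩)
  have h2 : ContinuousOn (fun y => iteratedFDeriv ℝ 1 (X y) 0 ![bv j]) (ball 0 R) := by
    have h3 : Continuous fun L : E2 [×1]→L[ℝ] ℝ => L ![bv j] :=
      (ContinuousMultilinearMap.apply ℝ (fun _ : Fin 1 => E2) ℝ ![bv j]).continuous
    exact h3.comp_continuousOn h1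
  refine h2.congr fun y hy => ?_
  show _ = iteratedFDeriv ℝ 1 (X y) 0 ![bv j]
  rw [den, inner_gradient', iteratedFDeriv_one_apply]
  rfl

/-- (3.4) for a leaf family -/
theorem leaf34 (hR : 0 < R) (F : LeafFam R S X) (s22 : SmN (ent S 1 1)) (sx1 : SmN (den X 0))
    (sx2 : SmN (den X 1)) :
    ∃ d > 0, ∃ a a' B : ℝ → ℝ, Continuous a ∧ Continuous a' ∧ Continuous B ∧
      (∀ s, |s| < d → HasDerivAt a (a' s) s) ∧ ∃ P Q : E2 → ℝ,
      ContDiffOn ℝ ∞ P (ball 0 d) ∧ ContDiffOn ℝ ∞ Q (ball 0 d) ∧ ∀ y ∈ ball (0 : E2) d,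
        ent S 0 1 y = -a (y 1) + P y ∧ ent S 0 0 y = a' (y 1) * y 0 + B (y 1) + Q y := by
  refine type34 (R := R) (t11 := ent S 0 0) (t12 := ent S 0 1) (t22 := ent S 1 1) (x1 := den X 0)
    (x2 := den X 1) hR (ent_cont hR F 0 0) (ent_cont hR F 0 1) ?_ (wdiv_of_leafFam F 1) s22 sx1 sx2
  intro f hf hc hs
  rw [← wdiv_of_leafFam F 0 f hf hc hs]
  refine integral_congr_ae (Eventually.of_forall fun y => ?_)
  by_cases hy : y ∈ ball (0 : E2) R
  · simp only [ent_symm F hy 0 1]
  · have h2 : y ∉ tsupport (fderiv ℝ f) := fun h => hy (hs (tsupport_fderiv_subset ℝ h))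
    have h3 := image_eq_zero_of_notMem_tsupport h2
    simp only [h3, zero_apply]; ring

/-- type F for a leaf family -/
theorem leafF (hR : 0 < R) (F : LeafFam R S X) (s12 : SmN (ent S 1 0)) (sx1 : SmN (den X 0)) :
    ∃ d > 0, ∃ b : ℝ → ℝ, Continuous b ∧ ∃ Q : E2 → ℝ, ContDiffOn ℝ ∞ Q (ball 0 d) ∧
      ∀ y ∈ ball (0 : E2) d, ent S 0 0 y = b (y 1) + Q y :=
  typeF hR (ent_cont hR F 0 0) (wdiv_of_leafFam F 0) s12 sx1

/-- type S for a leaf family -/
theorem leafS (hR : 0 < R) (F : LeafFam R S X) (s12 : SmN (ent S 0 1)) (sx2 : SmN (den X 1)) :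
    ∃ d > 0, ∃ b : ℝ → ℝ, Continuous b ∧ ∃ Q : E2 → ℝ, ContDiffOn ℝ ∞ Q (ball 0 d) ∧
      ∀ y ∈ ball (0 : E2) d, ent S 1 1 y = b (y 0) + Q y :=
  typeS hR (ent_cont hR F 1 1) (wdiv_of_leafFam F 1) s12 sx2

end

end Vale.Agent.P207.N3.H684
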