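import Vale.Agent.P207.N3.H684.DivT

/-!
# P207, line N3, P10W: division by a power of the second coordinate
-/

open Set Filter Topology Metric MeasureTheory
open scoped ContDiff

noncomputable section

namespace Vale.Agent.P207.N3.H684

/-- Hadamard: a smooth function which vanishes on `{y₁ = 0}` (index `1`) is divisible by `y 1` -/
theorem exists_div1 {R : ℝ} {w : E2 → ℝ} (hw : ContDiffOn ℝ ∞ w (ball 0 R))
    (h0 : ∀ y ∈ ball (0 : E2) R, y 1 = 0 → w y = 0) :
    ∃ v : E2 → ℝ, ContDiffOn ℝ ∞ v (ball 0 R) ∧ ∀ y ∈ ball (0 : E2) R, w y = y 1 * v y := by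
  have hg : ContDiffOn ℝ ∞ (fun y => fderiv ℝ w y b1) (ball 0 R) :=
    (hw.fderiv_of_isOpen isOpen_ball (by norm_num)).clm_apply contDiffOn_const
  set g : E2 → ℝ := fun y => fderiv ℝ w y b1 with hgd
  set F : E2 × ℝ → ℝ := fun z => g (pt (z.1 0) (z.2 * z.1 1)) with hF
  set W : Set (E2 × ℝ) := {z | pt (z.1 0) (z.2 * z.1 1) ∈ ball (0 : E2) R} with hWd
  have hm : ContDiff ℝ ∞ fun z : E2 × ℝ => pt (z.1 0) (z.2 * z.1 1) := by
    refine contDiff_pt.comp (g := fun w : ℝ × ℝ => pt w.1 w.2)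
      (f := fun z : E2 × ℝ => ((z.1 0, z.2 * z.1 1) : ℝ × ℝ)) ?_
    exact ((contDiff_coord 0).comp contDiff_fst).prodMk
      (contDiff_snd.mul ((contDiff_coord 1).comp contDiff_fst))
  have hWo : IsOpen W := isOpen_ball.preimage hm.continuous
  have hFs : ContDiffOn ℝ ∞ F W := hg.comp hm.contDiffOn fun z hz => hz
  have hmem : ∀ y ∈ ball (0 : E2) R, ∀ t ∈ Icc (0 : ℝ) 1, pt (y 0) (t * y 1) ∈ ball (0 : E2) R := by
    intro y hy t ht
    have := pt_scale_mem hy (t := 1) (by norm_num) ht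
    rw [one_mul] at this
    exact this
  have hv : ContDiffOn ℝ ∞ (fun y => ∫ t in (0 : ℝ)..1, F (y, t)) (ball 0 R) :=
    P267.H734.contDiffOn_integral hWo isOpen_ball (fun y hy t ht => hmem y hy t ht) hFs
  refine ⟨_, hv, fun y hy => ?_⟩
  simp only [hF]
  -- fundamental theorem of calculus along the segment
  have hder : ∀ t ∈ uIcc (0 : ℝ) 1,
      HasDerivAt (fun t : ℝ => w (pt (y 0) (t * y 1))) (y 1 * g (pt (y 0) (t * y 1))) t := by
    intro t ht
    rw [uIcc_of_le zero_le_one] at ht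
    have hm1 := hmem y hy t ht
    have h1 : HasFDerivAt w (fderiv ℝ w (pt (y 0) (t * y 1))) (pt (y 0) (t * y 1)) :=
      ((hw.contDiffAt (isOpen_ball.mem_nhds hm1)).differentiableAt (by norm_num)).hasFDerivAt
    have h2 : HasDerivAt (fun t : ℝ => pt (y 0) (t * y 1)) (y 1 • b1) t := by
      have h3 : (fun t : ℝ => pt (y 0) (t * y 1)) = fun t => pt (y 0) 0 + t • (y 1 • b1) := by
        funext t
        simp only [pt, ptL]
        simp [smul_smul]
      rw [h3]
      have h4 := ((hasDerivAt_id t).smul_const (y 1 • b1)).const_add (pt (y 0) 0)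
      simpa using h4
    have h5 := h1.comp_hasDerivAt t h2
    rw [map_smul, smul_eq_mul] at h5
    exact h5
  have hint : IntervalIntegrable (fun t => y 1 * g (pt (y 0) (t * y 1))) volume 0 1 := by
    refine ContinuousOn.intervalIntegrable ?_
    rw [uIcc_of_le zero_le_one]
    refine continuousOn_const.mul ?_
    refine hg.continuousOn.comp (f := fun t : ℝ => pt (y 0) (t * y 1)) ?_ fun t ht => hmem y hy t ht
    exact (continuous_pt.comp (by fun_prop : Continuous fun t : ℝ => (y 0, t * y 1))).continuousOn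
  have h6 := intervalIntegral.integral_eq_sub_of_hasDerivAt hder hint
  rw [intervalIntegral.integral_const_mul] at h6
  simp only [one_mul, zero_mul, pt_self] at h6
  have h7 : w (pt (y 0) 0) = 0 := by
    refine h0 _ ?_ (pt_one _ _)
    have := hmem y hy 0 (by norm_num)
    rwa [zero_mul] at this
  rw [h6, h7, sub_zero]

/-- points with nonzero second coordinate are dense -/
theorem dense_ne : Dense {y : E2 | y 1 ≠ 0} := by
  rw [Metric.dense_iff]
  intro y r hr
  by_cases hy : y 1 = 0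
  · refine ⟨y + (r / 2) • b1, ?_, ?_⟩
    · rw [mem_ball, dist_eq_norm]
      simp only [add_sub_cancel_left, norm_smul, b1, PiLp.norm_single, norm_one, mul_one]
      rw [Real.norm_eq_abs, abs_of_pos (by linarith)]; linarith
    · show (y + (r / 2) • b1) 1 ≠ 0
      simp [b1, hy]; linarith
  · exact ⟨y, mem_ball_self hr, hy⟩

theorem smooth_of_mul_one {R : ℝ} {u : E2 → ℝ} (hu : ContinuousOn u (ball 0 R))
    (h : ContDiffOn ℝ ∞ (fun y => u y * y 1) (ball 0 R)) : ContDiffOn ℝ ∞ u (ball 0 R) := by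
  obtain ⟨v, hv, he⟩ := exists_div1 h fun y _ hy => by simp [hy]
  have h1 : EqOn u v (ball 0 R) := by
    have h2 : EqOn u v (ball 0 R ∩ {y : E2 | y 1 ≠ 0}) := by
      rintro y ⟨hy, hy1⟩
      have := he y hy
      simp only at this
      have h3 : (u y - v y) * y 1 = 0 := by linarith
      rcases mul_eq_zero.1 h3 with h4 | h4
      · linarith
      · exact absurd h4 hy1
    intro y hy
    have hcl : y ∈ closure (ball (0 : E2) R ∩ {y : E2 | y 1 ≠ 0}) := by
      have := dense_ne.open_subset_closure_inter (isOpen_ball (x := (0 : E2)) (ε := R))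
      exact this hy
    have hne : (𝓝[ball (0 : E2) R ∩ {y : E2 | y 1 ≠ 0}] y).NeBot := mem_closure_iff_nhdsWithin_neBot.1 hcl
    have t1 : Tendsto u (𝓝[ball (0 : E2) R ∩ {y : E2 | y 1 ≠ 0}] y) (𝓝 (u y)) :=
      (hu y hy).mono_left (nhdsWithin_mono _ inter_subset_left)
    have t2 : Tendsto v (𝓝[ball (0 : E2) R ∩ {y : E2 | y 1 ≠ 0}] y) (𝓝 (v y)) :=
      (hv.continuousOn y hy).mono_left (nhdsWithin_mono _ inter_subset_left)
    have t3 : Tendsto u (𝓝[ball (0 : E2) R ∩ {y : E2 | y 1 ≠ 0}] y) (𝓝 (v y)) :=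
      t2.congr' (by
        filter_upwards [self_mem_nhdsWithin] with z hz
        exact (h2 hz).symm)
    exact tendsto_nhds_unique t1 t3
  exact hv.congr fun y hy => h1 hy

/-- (A2): `u` continuous, `u y₁^j` smooth ⟹ `u` smooth -/
theorem smooth_of_mul_pow {R : ℝ} {u : E2 → ℝ} (hu : ContinuousOn u (ball 0 R)) (j : ℕ)
    (h : ContDiffOn ℝ ∞ (fun y => u y * y 1 ^ j) (ball 0 R)) : ContDiffOn ℝ ∞ u (ball 0 R) := by
  induction j with
  | zero => simpa using h
  | succ j ih =>
    refine ih ?_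
    refine smooth_of_mul_one ?_ ?_
    · exact hu.mul ((continuous_coord 1).pow j).continuousOn
    · refine h.congr fun y _ => ?_
      simp only [pow_succ]; ring

/-- (A2) for both coordinates -/
theorem smooth_of_pow_mul (i : Fin 2) {R : ℝ} {u : E2 → ℝ} (hu : ContinuousOn u (ball 0 R)) (j : ℕ)
    (h : ContDiffOn ℝ ∞ (fun y => y i ^ j * u y) (ball 0 R)) : ContDiffOn ℝ ∞ u (ball 0 R) := by
  fin_cases i
  · have h1 : ContDiffOn ℝ ∞ (fun y => u (sw y)) (ball 0 R) := by
      refine smooth_of_mul_pow ?_ j ?_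
      · exact hu.comp sw.continuous.continuousOn fun y hy => sw_mem hy
      · have h2 : ContDiffOn ℝ ∞ (fun y => (sw y) 0 ^ j * u (sw y)) (ball 0 R) :=
          h.comp (f := fun y => sw y) sw.contDiff.contDiffOn fun y hy => sw_mem hy
        refine h2.congr fun y _ => ?_
        simp only [sw_zero]; ring
    have h2 : ContDiffOn ℝ ∞ (fun y => u (sw (sw y))) (ball 0 R) :=
      h1.comp (f := fun y => sw y) sw.contDiff.contDiffOn fun y hy => sw_mem hy
    refine h2.congr fun y _ => ?_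
    simp only [sw_sw]
  · refine smooth_of_mul_pow hu j (h.congr fun y _ => ?_)
    simp only [mul_comm]; rfl

/-- (A2), `SmN` form -/
theorem SmN_of_pow_mul (i : Fin 2) {R : ℝ} (hR : 0 < R) {u : E2 → ℝ}
    (hu : ContinuousOn u (ball 0 R)) (j : ℕ) (h : SmN fun y => y i ^ j * u y) : SmN u := by
  obtain ⟨d, hd, h⟩ := h
  refine ⟨min d R, lt_min hd hR, smooth_of_pow_mul i ?_ j ?_⟩
  · exact hu.mono (ball_subset_ball (min_le_right _ _))
  · exact h.mono (ball_subset_ball (min_le_left _ _))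

theorem SmN_iff {u : E2 → ℝ} : SmN u ↔ ∀ᶠ z in 𝓝 (0 : E2), ContDiffAt ℝ ∞ u z := by
  constructor
  · rintro ⟨d, hd, h⟩
    filter_upwards [ball_mem_nhds (0 : E2) hd] with z hz
    exact h.contDiffAt (isOpen_ball.mem_nhds hz)
  · intro h
    obtain ⟨d, hd, h⟩ := Metric.eventually_nhds_iff_ball.1 h
    exact ⟨d, hd, fun z hz => (h z hz).contDiffWithinAt⟩

/-- (A2), filter form (for 503's `SN`) -/
theorem ev_smooth_of_pow_mul (i : Fin 2) {u : E2 → ℝ} (hu : ∀ᶠ z in 𝓝 (0 : E2), ContinuousAt u z)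
    (j : ℕ) (h : ∀ᶠ z in 𝓝 (0 : E2), ContDiffAt ℝ ∞ (fun y => y i ^ j * u y) z) :
    ∀ᶠ z in 𝓝 (0 : E2), ContDiffAt ℝ ∞ u z := by
  obtain ⟨R, hR, hu⟩ := Metric.eventually_nhds_iff_ball.1 hu
  exact SmN_iff.1 (SmN_of_pow_mul i hR (fun z hz => (hu z hz).continuousWithinAt) j (SmN_iff.2 h))

end Vale.Agent.P207.N3.H684
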