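import Vale.Agent.P207.N3.H684.Divi
import Vale.Agent.P207.N3.H391.Jet
import Vale.Agent.P207.N3.H790.NF

/-!
# P207, line N3, P10W: eigenfunctions of the normal form are polynomials

`u` smooth near `0`, `u (N y) = μ u y + v y` near `0` with `v` a polynomial near `0`: then `u` is a
polynomial near `0`.  Proof: `u y = lim (μ^n T (f^n y) + ∑ μ^j v (f^{j+1} y))` with `f = N⁻¹` and `T`
a Taylor polynomial; the polynomials of bounded degree are a finite dimensional, hence closed,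
subspace of the space of functions with the topology of pointwise convergence.
-/

open Set Filter Topology Metric Asymptotics
open scoped ContDiff

noncomputable section

namespace Vale.Agent.P207.N3.H684

open H790 (NF)

/-- a contraction near `0`, with respect to the gauge `p` -/
structure CT (f : E2 → E2) (p : E2 → ℝ) (θ A : ℝ) : Prop where
  θ0 : 0 ≤ θ
  θ1 : θ < 1
  A0 : 0 ≤ A
  le : ∀ y, ‖y‖ ≤ p y
  ge : ∀ y, p y ≤ A * ‖y‖
  map : ∀ y, p y < 1 → p (f y) ≤ θ * p y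

namespace CT

variable {f : E2 → E2} {p : E2 → ℝ} {θ A : ℝ}

theorem p_nonneg (h : CT f p θ A) (y : E2) : 0 ≤ p y := (norm_nonneg y).trans (h.le y)

theorem iter (h : CT f p θ A) (n : ℕ) : ∀ y, p y < 1 → p (f^[n] y) ≤ θ ^ n * p y := by
  induction n with
  | zero => intro y _; simp
  | succ n ih =>
    intro y hy
    rw [Function.iterate_succ_apply]
    have h1 := h.map y hy
    have h2 : p (f y) < 1 := by
      refine h1.trans_lt ?_
      have := mul_le_of_le_one_left (h.p_nonneg y) h.θ1.le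
      linarith
    refine (ih (f y) h2).trans ?_
    rw [pow_succ, mul_assoc]
    exact mul_le_mul_of_nonneg_left h1 (pow_nonneg h.θ0 n)

theorem iter_lt (h : CT f p θ A) {r : ℝ} (hr : r ≤ 1) (n : ℕ) {y : E2} (hy : p y < r) :
    p (f^[n] y) < r := by
  refine (h.iter n y (hy.trans_le hr)).trans_lt ?_
  exact (mul_le_of_le_one_left (h.p_nonneg y) (pow_le_one₀ h.θ0 h.θ1.le)).trans_lt hy

theorem nhds (h : CT f p θ A) {r : ℝ} (hr : 0 < r) : ∀ᶠ y in 𝓝 (0 : E2), p y < r := by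
  have h1 : Tendsto (fun y : E2 => A * ‖y‖) (𝓝 0) (𝓝 (A * ‖(0 : E2)‖)) :=
    (continuous_const.mul continuous_norm).tendsto 0
  rw [norm_zero, mul_zero] at h1
  filter_upwards [h1 (Iio_mem_nhds hr)] with y hy
  exact (h.ge y).trans_lt hy

theorem exists_r (h : CT f p θ A) {V : Set E2} (hV : V ∈ 𝓝 (0 : E2)) :
    ∃ r : ℝ, 0 < r ∧ r ≤ 1 ∧ ∀ y, p y < r → y ∈ V := by
  obtain ⟨δ, hδ, hb⟩ := Metric.mem_nhds_iff.1 hV
  refine ⟨min δ 1, by positivity, min_le_right _ _, fun y hy => hb ?_⟩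
  rw [mem_ball_zero_iff]
  exact (h.le y).trans_lt (hy.trans_le (min_le_left _ _))

/-- a bounded solution of `u y = μ u (f y)` with `|μ| < 1` vanishes -/
theorem eq_zero (h : CT f p θ A) {u : E2 → ℝ} {M μ : ℝ} (hM : ∀ᶠ y in 𝓝 (0 : E2), |u y| ≤ M)
    (hμ : |μ| < 1) (hu : ∀ᶠ y in 𝓝 (0 : E2), u y = μ * u (f y)) :
    ∀ᶠ y in 𝓝 (0 : E2), u y = 0 := by
  obtain ⟨r, hr, hr1, hV⟩ := h.exists_r (hM.and hu)
  filter_upwards [h.nhds hr] with y hy
  have h1 : ∀ n : ℕ, u y = μ ^ n * u (f^[n] y) := by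
    intro n
    induction n with
    | zero => simp
    | succ n ih =>
      have h2 := (hV _ (h.iter_lt hr1 n hy)).2
      rw [ih, h2, ← Function.iterate_succ_apply' f n y]
      ring
  have h2 : ∀ n : ℕ, |u y| ≤ |μ| ^ n * M := by
    intro n
    rw [h1 n, abs_mul, abs_pow]
    exact mul_le_mul_of_nonneg_left (hV _ (h.iter_lt hr1 n hy)).1 (by positivity)
  have h3 : Tendsto (fun n : ℕ => |μ| ^ n * M) atTop (𝓝 (0 * M)) :=
    (tendsto_pow_atTop_nhds_zero_of_lt_one (abs_nonneg _) hμ).mul_const M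
  rw [zero_mul] at h3
  have h4 : |u y| ≤ 0 := ge_of_tendsto' h3 h2
  exact abs_nonpos_iff.1 h4

theorem iter_coh (h : CT f p θ A) {u v : E2 → ℝ} {μ r : ℝ} (hr1 : r ≤ 1)
    (hu : ∀ y, p y < r → u y = μ * u (f y) + v y) (n : ℕ) {y : E2} (hy : p y < r) :
    u y = μ ^ n * u (f^[n] y) + ∑ j ∈ Finset.range n, μ ^ j * v (f^[j] y) := by
  induction n with
  | zero => simp
  | succ n ih =>
    rw [Finset.sum_range_succ, ih, hu _ (h.iter_lt hr1 n hy), ← Function.iterate_succ_apply' f n y]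
    ring

/-- the limit argument -/
theorem mem_of_coh (h : CT f p θ A) {u v : E2 → ℝ} {μ : ℝ} (hu : ContDiffAt ℝ ∞ u 0)
    (he : ∀ᶠ y in 𝓝 (0 : E2), u y = μ * u (f y) + v y) {K : ℕ} (hK : |μ| * θ ^ K < 1)
    (S : Submodule ℝ (E2 → ℝ)) [FiniteDimensional ℝ S]
    (hT : ∀ n : ℕ, (fun y => Jet.tay K (Jet.jet u) (f^[n] y)) ∈ S)
    (w : E2 → ℝ) (hw : ∀ᶠ y in 𝓝 (0 : E2), v y = w y)
    (hv : ∀ n : ℕ, (fun y => w (f^[n] y)) ∈ S) :
    ∃ g ∈ S, ∀ᶠ y in 𝓝 (0 : E2), u y = g y := by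
  obtain ⟨C, hC⟩ := (Jet.taylor hu K).bound
  obtain ⟨r, hr, hr1, hV⟩ := h.exists_r ((he.and hw).and hC)
  set W : Set E2 := {y | p y < r} with hW
  set res : (E2 → ℝ) →ₗ[ℝ] (W → ℝ) := LinearMap.funLeft ℝ ℝ (fun y : W => (y : E2)) with hres
  have hcl : IsClosed ((S.map res : Submodule ℝ (W → ℝ)) : Set (W → ℝ)) :=
    Submodule.closed_of_finiteDimensional _
  set G : ℕ → E2 → ℝ := fun n y => μ ^ n * Jet.tay K (Jet.jet u) (f^[n] y) +
    ∑ j ∈ Finset.range n, μ ^ j * w (f^[j] y) with hG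
  have hGS : ∀ n, G n ∈ S := by
    intro n
    have h1 : G n = μ ^ n • (fun y => Jet.tay K (Jet.jet u) (f^[n] y)) +
        ∑ j ∈ Finset.range n, μ ^ j • (fun y => w (f^[j] y)) := by
      funext y
      simp [hG, Finset.sum_apply]
    rw [h1]
    exact S.add_mem (S.smul_mem _ (hT n)) (S.sum_mem fun j _ => S.smul_mem _ (hv j))
  have hlim : Tendsto (fun n => res (G n)) atTop (𝓝 (res u)) := by
    rw [tendsto_pi_nhds]
    rintro ⟨y, hy⟩
    show Tendsto (fun n => G n y) atTop (𝓝 (u y))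
    have h1 : ∀ n, ‖G n y - u y‖ ≤ (|μ| * θ ^ K) ^ n * (|C| * p y ^ K) := by
      intro n
      have h2 := h.iter_coh hr1 (fun y hy => (hV y hy).1.1) n hy
      have h3 : ∑ j ∈ Finset.range n, μ ^ j * v (f^[j] y) =
          ∑ j ∈ Finset.range n, μ ^ j * w (f^[j] y) := by
        refine Finset.sum_congr rfl fun j _ => ?_
        rw [(hV _ (h.iter_lt hr1 j hy)).1.2]
      have h4 : G n y - u y = -(μ ^ n * (u (f^[n] y) - Jet.tay K (Jet.jet u) (f^[n] y))) := by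
        rw [h2, h3, hG]; ring
      have h5 := (hV _ (h.iter_lt hr1 n hy)).2
      have hy' : p y < r := hy
      rw [h4, norm_neg, norm_mul, norm_pow, Real.norm_eq_abs]
      have h6 : ‖u (f^[n] y) - Jet.tay K (Jet.jet u) (f^[n] y)‖ ≤ |C| * (θ ^ n * p y) ^ K := by
        refine h5.trans ?_
        rw [norm_pow, norm_norm]
        refine mul_le_mul (le_abs_self _) ?_ (by positivity) (abs_nonneg _)
        exact pow_le_pow_left₀ (norm_nonneg _) ((h.le _).trans (h.iter n y (hy'.trans_le hr1))) K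
      calc |μ| ^ n * ‖u (f^[n] y) - Jet.tay K (Jet.jet u) (f^[n] y)‖
          ≤ |μ| ^ n * (|C| * (θ ^ n * p y) ^ K) :=
            mul_le_mul_of_nonneg_left h6 (by positivity)
        _ = (|μ| * θ ^ K) ^ n * (|C| * p y ^ K) := by
            rw [mul_pow, mul_pow, ← pow_mul, ← pow_mul, mul_comm n K]; ring
    have h7 : Tendsto (fun n : ℕ => (|μ| * θ ^ K) ^ n * (|C| * p y ^ K)) atTop
        (𝓝 (0 * (|C| * p y ^ K))) :=
      (tendsto_pow_atTop_nhds_zero_of_lt_one (by have := h.θ0; positivity) hK).mul_const _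
    rw [zero_mul] at h7
    exact tendsto_iff_norm_sub_tendsto_zero.2 (squeeze_zero (fun _ => norm_nonneg _) h1 h7)
  have hmem : res u ∈ (S.map res : Submodule ℝ (W → ℝ)) :=
    hcl.mem_of_tendsto hlim (Eventually.of_forall fun n => Submodule.mem_map_of_mem (hGS n))
  obtain ⟨g, hg, hgu⟩ := Submodule.mem_map.1 hmem
  refine ⟨g, hg, ?_⟩
  filter_upwards [h.nhds hr] with y hy
  have := congrFun hgu ⟨y, hy⟩
  exact this.symm

end CT

/-! ### The normal forms are contractions -/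

theorem norm_le_sum (y : E2) : ‖y‖ ≤ |y 0| + |y 1| := by
  rw [EuclideanSpace.norm_eq]
  refine Real.sqrt_le_iff.2 ⟨by positivity, ?_⟩
  simp only [Fin.sum_univ_two, Real.norm_eq_abs]
  nlinarith [abs_nonneg (y 0), abs_nonneg (y 1)]

theorem exists_CT {N : NF} (ok : N.OK) : ∃ p : E2 → ℝ, ∃ θ A : ℝ, CT N.inv p θ A := by
  cases N with
  | tri μ₁ μ₂ a k =>
    obtain ⟨h1, h2, h3⟩ := ok
    have hμ2 : 0 < |μ₂| := by linarith
    have hμ1 : 0 < |μ₁| := by linarith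
    set β : ℝ := |μ₂|⁻¹ with hβ
    have hβ0 : 0 < β := inv_pos.2 hμ2
    have hβ1 : β < 1 := inv_lt_one_of_one_lt₀ h1
    have hα : |μ₁⁻¹| ≤ β := by
      rw [abs_inv, hβ]
      exact inv_anti₀ hμ2 h2
    have hα1 : |μ₁⁻¹| ≤ 1 := hα.trans hβ1.le
    set M : ℝ := 2 * |a| / (1 - β) + 1 with hM
    have hb : 0 < 1 - β := by linarith
    have hM1 : 1 ≤ M := by
      have : 0 ≤ 2 * |a| / (1 - β) := by positivity
      linarith
    refine ⟨fun y => |y 0| + M * |y 1|, (1 + β) / 2, 1 + M, by positivity, by linarith,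
      by positivity, fun y => ?_, fun y => ?_, fun y hy => ?_⟩
    · have := norm_le_sum y
      nlinarith [abs_nonneg (y 1)]
    · have e0 := abs_coord_le y 0
      have e1 := abs_coord_le y 1
      nlinarith [norm_nonneg y]
    · show |μ₁⁻¹ * (y 0 - a * (μ₂⁻¹ * y 1) ^ k)| + M * |μ₂⁻¹ * y 1| ≤
        (1 + β) / 2 * (|y 0| + M * |y 1|)
      have hy' : |y 0| + M * |y 1| < 1 := hy
      have h4 : |μ₂⁻¹ * y 1| = β * |y 1| := by rw [abs_mul, abs_inv]
      have h5 : |y 1| ≤ 1 := by nlinarith [abs_nonneg (y 0), abs_nonneg (y 1)]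
      have h6 : |a * (μ₂⁻¹ * y 1) ^ k| ≤ |a| * |y 1| := by
        rcases eq_or_ne a 0 with rfl | ha
        · simp
        · have hk : k ≠ 0 := by have := (h3 ha).1; omega
          rw [abs_mul, abs_pow, h4]
          refine mul_le_mul_of_nonneg_left ?_ (abs_nonneg _)
          have h7 : β * |y 1| ≤ |y 1| := mul_le_of_le_one_left (abs_nonneg _) hβ1.le
          have h8 : 0 ≤ β * |y 1| := by positivity
          exact (pow_le_of_le_one h8 (h7.trans h5) hk).trans h7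
      have h9 : |μ₁⁻¹ * (y 0 - a * (μ₂⁻¹ * y 1) ^ k)| ≤ β * |y 0| + |a| * |y 1| := by
        rw [abs_mul]
        have h10 : |y 0 - a * (μ₂⁻¹ * y 1) ^ k| ≤ |y 0| + |a * (μ₂⁻¹ * y 1) ^ k| := abs_sub _ _
        have h11 : |μ₁⁻¹| * |y 0| ≤ β * |y 0| := mul_le_mul_of_nonneg_right hα (abs_nonneg _)
        have h12 : |μ₁⁻¹| * |a * (μ₂⁻¹ * y 1) ^ k| ≤ 1 * (|a| * |y 1|) :=
          mul_le_mul hα1 h6 (abs_nonneg _) (by norm_num)
        have h13 := mul_le_mul_of_nonneg_left h10 (abs_nonneg μ₁⁻¹)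
        linarith
      rw [h4]
      have h14 : |a| ≤ (1 - β) / 2 * M := by
        have : (1 - β) / 2 * (2 * |a| / (1 - β)) = |a| := by field_simp
        rw [hM, mul_add, this]
        linarith
      nlinarith [abs_nonneg (y 0), abs_nonneg (y 1),
        mul_le_mul_of_nonneg_right h14 (abs_nonneg (y 1))]
  | cx c s =>
    obtain ⟨h1, h2⟩ := ok
    have hD : 0 < c ^ 2 + s ^ 2 := by linarith
    have hs : 1 < Real.sqrt (c ^ 2 + s ^ 2) := by
      rw [Real.lt_sqrt (by norm_num)]; simpa using h2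
    refine ⟨fun y => ‖y‖, (Real.sqrt (c ^ 2 + s ^ 2))⁻¹, 1, by positivity,
      inv_lt_one_of_one_lt₀ hs, by norm_num, fun y => le_rfl, fun y => by simp, fun y hy => ?_⟩
    have h3 : ‖(NF.cx c s).inv y‖ = (Real.sqrt (c ^ 2 + s ^ 2))⁻¹ * ‖y‖ := by
      rw [EuclideanSpace.norm_eq, EuclideanSpace.norm_eq, ← Real.sqrt_inv, ← Real.sqrt_mul
        (by positivity)]
      simp only [Fin.sum_univ_two, Real.norm_eq_abs, sq_abs, NF.inv_cx_zero, NF.inv_cx_one]
      refine congrArg Real.sqrt ?_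
      field_simp
      ring
    exact h3.le

/-! ### Polynomials of bounded degree -/

/-- the monomials without factorials -/
def mn (i j : ℕ) : E2 → ℝ := fun y => y 0 ^ i * y 1 ^ j

/-- polynomials of degree `< D` in both variables -/
def Pl (D : ℕ) : Submodule ℝ (E2 → ℝ) :=
  Submodule.span ℝ (Set.range fun q : Fin D × Fin D => mn q.1 q.2)

instance (D : ℕ) : FiniteDimensional ℝ (Pl D) :=
  FiniteDimensional.span_of_finite ℝ (Set.finite_range _)

theorem mn_mem {D i j : ℕ} (hi : i < D) (hj : j < D) : mn i j ∈ Pl D :=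
  Submodule.subset_span ⟨(⟨i, hi⟩, ⟨j, hj⟩), rfl⟩

theorem Pl_mono {D D' : ℕ} (h : D ≤ D') : Pl D ≤ Pl D' := by
  refine Submodule.span_le.2 ?_
  rintro _ ⟨⟨i, j⟩, rfl⟩
  exact mn_mem (i.2.trans_le h) (j.2.trans_le h)

theorem exists_coeff {D : ℕ} {g : E2 → ℝ} (hg : g ∈ Pl D) :
    ∃ c : ℕ → ℕ → ℝ, (∀ i j, D ≤ i ∨ D ≤ j → c i j = 0) ∧
      ∀ y, g y = ∑ i ∈ Finset.range D, ∑ j ∈ Finset.range D, c i j * (y 0 ^ i * y 1 ^ j) := by
  obtain ⟨c, hc⟩ := (Submodule.mem_span_range_iff_exists_fun ℝ).1 hg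
  refine ⟨fun i j => if h : i < D ∧ j < D then c (⟨i, h.1⟩, ⟨j, h.2⟩) else 0, ?_, fun y => ?_⟩
  · intro i j h
    have h' : ¬ (i < D ∧ j < D) := by omega
    exact dif_neg h'
  · have h1 := congrFun hc y
    rw [← h1, Fintype.sum_apply, Fintype.sum_prod_type, Finset.sum_range]
    refine Finset.sum_congr rfl fun i _ => ?_
    rw [Finset.sum_range]
    refine Finset.sum_congr rfl fun j _ => ?_
    have h2 : (i : ℕ) < D ∧ (j : ℕ) < D := ⟨i.2, j.2⟩
    simp only [h2, and_self, dif_pos]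
    rfl

theorem mem_Pl_of_coeff {D : ℕ} (c : ℕ → ℕ → ℝ) :
    (fun y : E2 => ∑ i ∈ Finset.range D, ∑ j ∈ Finset.range D, c i j * (y 0 ^ i * y 1 ^ j)) ∈
      Pl D := by
  have h1 : (fun y : E2 => ∑ i ∈ Finset.range D, ∑ j ∈ Finset.range D,
      c i j * (y 0 ^ i * y 1 ^ j)) =
      ∑ i ∈ Finset.range D, ∑ j ∈ Finset.range D, c i j • mn i j := by
    funext y
    simp [Finset.sum_apply, mn]
  rw [h1]
  exact Submodule.sum_mem _ fun i hi => Submodule.sum_mem _ fun j hj =>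
    Submodule.smul_mem _ _ (mn_mem (Finset.mem_range.1 hi) (Finset.mem_range.1 hj))

theorem tay_mem (K : ℕ) (c : ℕ → ℕ → ℝ) : Jet.tay K c ∈ Pl K := by
  have h1 : Jet.tay K c = ∑ i ∈ Finset.range K, ∑ j ∈ Finset.range (K - i),
      (c i j / (i.factorial * j.factorial)) • mn i j := by
    funext y
    simp only [Jet.tay, Finset.sum_apply, Pi.smul_apply, smul_eq_mul, mn, Jet.mono]
    refine Finset.sum_congr rfl fun i _ => Finset.sum_congr rfl fun j _ => ?_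
    ring
  rw [h1]
  refine Submodule.sum_mem _ fun i hi => Submodule.sum_mem _ fun j hj =>
    Submodule.smul_mem _ _ (mn_mem (Finset.mem_range.1 hi) ?_)
  have := Finset.mem_range.1 hj
  omega

/-- the maps `(A y₀ + B y₁^k, C y₀ + E y₁)` -/
def Gm (A B C E : ℝ) (k : ℕ) : E2 → E2 := fun y => !₂[A * y 0 + B * y 1 ^ k, C * y 0 + E * y 1]

theorem mn_comp_mem {K i j k : ℕ} (hi : i < K) (hj : j < K) (A B C E : ℝ) :
    (fun y => mn i j (Gm A B C E k y)) ∈ Pl (K * (k + 2)) := by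
  have h1 : (fun y => mn i j (Gm A B C E k y)) = ∑ m ∈ Finset.range (i + 1),
      ∑ l ∈ Finset.range (j + 1),
      (A ^ m * B ^ (i - m) * (i.choose m) * (C ^ l * E ^ (j - l) * (j.choose l))) •
        mn (m + l) (k * (i - m) + (j - l)) := by
    funext y
    simp only [Finset.sum_apply, Pi.smul_apply, smul_eq_mul, mn]
    show (A * y 0 + B * y 1 ^ k) ^ i * (C * y 0 + E * y 1) ^ j = _
    rw [add_pow, add_pow, Finset.sum_mul_sum]
    refine Finset.sum_congr rfl fun m _ => Finset.sum_congr rfl fun l _ => ?_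
    rw [mul_pow, mul_pow, mul_pow, mul_pow, ← pow_mul, pow_add, pow_add]
    ring
  rw [h1]
  refine Submodule.sum_mem _ fun m hm => Submodule.sum_mem _ fun l hl =>
    Submodule.smul_mem _ _ (mn_mem ?_ ?_)
  · have := Finset.mem_range.1 hm
    have := Finset.mem_range.1 hl
    nlinarith [Nat.zero_le (K * k)]
  · have h2 := Finset.mem_range.1 hm
    have h3 := Finset.mem_range.1 hl
    have h4 : k * (i - m) ≤ k * K := Nat.mul_le_mul_left k (by omega)
    have h5 : K * (k + 2) = k * K + 2 * K := by ring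
    omega

theorem comp_mem {K k : ℕ} {g : E2 → ℝ} (hg : g ∈ Pl K) (A B C E : ℝ) :
    (fun y => g (Gm A B C E k y)) ∈ Pl (K * (k + 2)) := by
  have h1 : Pl K ≤ (Pl (K * (k + 2))).comap (LinearMap.funLeft ℝ ℝ (Gm A B C E k)) := by
    refine Submodule.span_le.2 ?_
    rintro _ ⟨⟨i, j⟩, rfl⟩
    exact mn_comp_mem i.2 j.2 A B C E
  exact h1 hg

/-- the exponent of the iterates -/
def kap : NF → ℕ
  | .tri _ _ _ k => k
  | .cx _ _ => 1

theorem iter_inv (N : NF) (n : ℕ) : ∃ A B C E : ℝ, N.inv^[n] = Gm A B C E (kap N) := by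
  cases N with
  | tri μ₁ μ₂ a k =>
    suffices h : ∃ A B E : ℝ, (NF.tri μ₁ μ₂ a k).inv^[n] = Gm A B 0 E k by
      obtain ⟨A, B, E, h⟩ := h
      exact ⟨A, B, 0, E, h⟩
    induction n with
    | zero =>
      refine ⟨1, 0, 1, ?_⟩
      funext y
      refine NF.ext2 ?_ ?_
      · show y 0 = 1 * y 0 + 0 * y 1 ^ k
        ring
      · show y 1 = 0 * y 0 + 1 * y 1
        ring
    | succ n ih =>
      obtain ⟨A, B, E, h⟩ := ih
      refine ⟨μ₁⁻¹ * A, μ₁⁻¹ * (B - a * (μ₂⁻¹ * E) ^ k), μ₂⁻¹ * E, ?_⟩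
      funext y
      rw [Function.iterate_succ_apply', h]
      refine NF.ext2 ?_ ?_
      · show μ₁⁻¹ * ((A * y 0 + B * y 1 ^ k) - a * (μ₂⁻¹ * (0 * y 0 + E * y 1)) ^ k) =
          μ₁⁻¹ * A * y 0 + μ₁⁻¹ * (B - a * (μ₂⁻¹ * E) ^ k) * y 1 ^ k
        rw [zero_mul, zero_add, ← mul_assoc μ₂⁻¹, mul_pow (μ₂⁻¹ * E)]
        ring
      · show μ₂⁻¹ * (0 * y 0 + E * y 1) = 0 * y 0 + μ₂⁻¹ * E * y 1
        ring
  | cx c s =>
    induction n with
    | zero =>
      refine ⟨1, 0, 0, 1, ?_⟩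
      funext y
      refine NF.ext2 ?_ ?_
      · show y 0 = 1 * y 0 + 0 * y 1 ^ 1
        ring
      · show y 1 = 0 * y 0 + 1 * y 1
        ring
    | succ n ih =>
      obtain ⟨A, B, C, E, h⟩ := ih
      refine ⟨(c ^ 2 + s ^ 2)⁻¹ * (c * A + s * C), (c ^ 2 + s ^ 2)⁻¹ * (c * B + s * E),
        (c ^ 2 + s ^ 2)⁻¹ * (-s * A + c * C), (c ^ 2 + s ^ 2)⁻¹ * (-s * B + c * E), ?_⟩
      funext y
      rw [Function.iterate_succ_apply', h]
      refine NF.ext2 ?_ ?_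
      · show (c ^ 2 + s ^ 2)⁻¹ * (c * (A * y 0 + B * y 1 ^ 1) + s * (C * y 0 + E * y 1)) =
          (c ^ 2 + s ^ 2)⁻¹ * (c * A + s * C) * y 0 +
            (c ^ 2 + s ^ 2)⁻¹ * (c * B + s * E) * y 1 ^ 1
        ring
      · show (c ^ 2 + s ^ 2)⁻¹ * (-s * (A * y 0 + B * y 1 ^ 1) + c * (C * y 0 + E * y 1)) =
          (c ^ 2 + s ^ 2)⁻¹ * (-s * A + c * C) * y 0 +
            (c ^ 2 + s ^ 2)⁻¹ * (-s * B + c * E) * y 1
        ring

/-- `u` is a polynomial near `0` -/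
def IsPl (u : E2 → ℝ) : Prop := ∃ D : ℕ, ∃ g ∈ Pl D, ∀ᶠ y in 𝓝 (0 : E2), u y = g y

/-- (A3): a smooth solution of `u (N y) = μ u y + v y`, `v` polynomial, is a polynomial near `0` -/
theorem isPl_of_coh {N : NF} (ok : N.OK) {u v : E2 → ℝ} {μ : ℝ} (hu : ContDiffAt ℝ ∞ u 0)
    (hv : IsPl v) (h : ∀ᶠ y in 𝓝 (0 : E2), u (N.fn y) = μ * u y + v y) : IsPl u := by
  obtain ⟨p, θ, A, hC⟩ := exists_CT ok
  obtain ⟨D, g, hg, hvg⟩ := hv
  have hinv : Tendsto N.inv (𝓝 0) (𝓝 0) := by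
    have := N.contDiff_inv.continuous.tendsto 0
    rwa [NF.inv_zero ok] at this
  have he : ∀ᶠ y in 𝓝 (0 : E2), u y = μ * u (N.inv y) + v (N.inv y) := by
    filter_upwards [hinv.eventually h] with y hy
    rwa [NF.fn_inv ok] at hy
  obtain ⟨K, hK⟩ : ∃ K : ℕ, |μ| * θ ^ K < 1 := by
    have h1 : Tendsto (fun K : ℕ => |μ| * θ ^ K) atTop (𝓝 (|μ| * 0)) :=
      (tendsto_pow_atTop_nhds_zero_of_lt_one hC.θ0 hC.θ1).const_mul _
    rw [mul_zero] at h1
    exact (h1.eventually (gt_mem_nhds one_pos)).exists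
  set D' : ℕ := max K D * (kap N + 2) with hD'
  obtain ⟨g', hg', he'⟩ := hC.mem_of_coh hu he hK (Pl D')
    (fun n => by
      obtain ⟨A, B, C, E, h⟩ := iter_inv N n
      simp only [h]
      exact comp_mem (Pl_mono (le_max_left K D) (tay_mem K _)) A B C E)
    (fun y => g (N.inv y)) (hinv.eventually hvg)
    (fun n => by
      obtain ⟨A, B, C, E, h⟩ := iter_inv N (n + 1)
      simp only [← Function.iterate_succ_apply', h]
      exact comp_mem (Pl_mono (le_max_right K D) hg) A B C E)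
  exact ⟨D', g', hg', he'⟩

theorem isPl_of_eig {N : NF} (ok : N.OK) {u : E2 → ℝ} {μ : ℝ} (hu : ContDiffAt ℝ ∞ u 0)
    (h : ∀ᶠ y in 𝓝 (0 : E2), u (N.fn y) = μ * u y) : IsPl u :=
  isPl_of_coh ok hu (v := fun _ => 0) ⟨0, 0, Submodule.zero_mem _, by simp⟩ (by simpa using h)

end Vale.Agent.P207.N3.H684
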