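import Vale.Agent.P207.N3.H684.Eig

/-!
# P207, line N3, P10W: which monomials occur in an eigenfunction of the normal form
-/

open Set Filter Topology Metric Asymptotics
open scoped ContDiff

noncomputable section

namespace Vale.Agent.P207.N3.H684

open H790 (NF)

/-! ### Uniqueness of coefficients -/

theorem coeff_zero1 {D : ℕ} {c : ℕ → ℝ}
    (h : ∀ᶠ s in 𝓝 (0 : ℝ), ∑ j ∈ Finset.range D, c j * s ^ j = 0) : ∀ j < D, c j = 0 := by
  set P : Polynomial ℝ := ∑ j ∈ Finset.range D, Polynomial.monomial j (c j) with hP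
  have h1 : ∀ s, P.eval s = ∑ j ∈ Finset.range D, c j * s ^ j := by
    intro s
    rw [hP, Polynomial.eval_finsetSum]
    simp
  have h2 : P = 0 := by
    refine Polynomial.eq_zero_of_infinite_isRoot P ?_
    refine Set.Infinite.mono (s := {s : ℝ | ∑ j ∈ Finset.range D, c j * s ^ j = 0}) ?_ ?_
    · intro s hs
      show P.eval s = 0
      rw [h1]; exact hs
    · exact infinite_of_mem_nhds (0 : ℝ) h
  intro j hj
  have h3 : P.coeff j = c j := by
    rw [hP, Polynomial.finsetSum_coeff, Finset.sum_eq_single j]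
    · simp
    · intro i _ hi
      rw [Polynomial.coeff_monomial, if_neg hi]
    · intro h
      exact absurd (Finset.mem_range.2 hj) h
  rw [← h3, h2, Polynomial.coeff_zero]

theorem ev_prod {q : ℝ → ℝ → Prop} (h : ∀ᶠ y in 𝓝 (0 : E2), q (y 0) (y 1)) :
    ∀ᶠ s in 𝓝 (0 : ℝ), ∀ᶠ t in 𝓝 (0 : ℝ), q s t := by
  obtain ⟨δ, hδ, hb⟩ := Metric.eventually_nhds_iff_ball.1 h
  have h1 : ∀ᶠ s in 𝓝 (0 : ℝ), |s| < δ / 2 := by
    filter_upwards [Metric.ball_mem_nhds (0 : ℝ) (half_pos hδ)] with s hs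
    rwa [mem_ball_zero_iff] at hs
  filter_upwards [h1] with s hs
  filter_upwards [h1] with t ht
  have h2 : pt s t ∈ ball (0 : E2) δ := by
    rw [mem_ball_zero_iff]
    refine (norm_le_sum _).trans_lt ?_
    rw [pt_zero, pt_one]
    linarith
  have := hb _ h2
  rwa [pt_zero, pt_one] at this

theorem coeff_zero2 {D : ℕ} {c : ℕ → ℕ → ℝ}
    (h : ∀ᶠ y in 𝓝 (0 : E2),
      ∑ i ∈ Finset.range D, ∑ j ∈ Finset.range D, c i j * (y 0 ^ i * y 1 ^ j) = 0) :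
    ∀ i < D, ∀ j < D, c i j = 0 := by
  have h1 := ev_prod (q := fun s t =>
    ∑ i ∈ Finset.range D, ∑ j ∈ Finset.range D, c i j * (s ^ i * t ^ j) = 0) h
  have h2 : ∀ j < D, ∀ᶠ s in 𝓝 (0 : ℝ), ∑ i ∈ Finset.range D, c i j * s ^ i = 0 := by
    intro j hj
    filter_upwards [h1] with s hs
    refine coeff_zero1 (D := D) (c := fun j => ∑ i ∈ Finset.range D, c i j * s ^ i) ?_ j hj
    filter_upwards [hs] with t ht
    rw [← ht, Finset.sum_comm]
    refine Finset.sum_congr rfl fun j _ => ?_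
    rw [Finset.sum_mul]
    refine Finset.sum_congr rfl fun i _ => ?_
    ring
  intro i hi j hj
  exact coeff_zero1 (h2 j hj) i hi

/-! ### The diagonal case -/

/-- an eigenfunction of a diagonal normal form: only the monomials of the right weight -/
theorem eig_diag {μ₁ μ₂ : ℝ} {k : ℕ} (ok : (NF.tri μ₁ μ₂ 0 k).OK) {u : E2 → ℝ} {μ : ℝ}
    (hu : ContDiffAt ℝ ∞ u 0)
    (h : ∀ᶠ y in 𝓝 (0 : E2), u ((NF.tri μ₁ μ₂ 0 k).fn y) = μ * u y) :
    ∃ D : ℕ, ∃ c : ℕ → ℕ → ℝ, (∀ i j, c i j ≠ 0 → i < D ∧ j < D ∧ μ₁ ^ i * μ₂ ^ j = μ) ∧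
      ∀ᶠ y in 𝓝 (0 : E2), u y =
        ∑ i ∈ Finset.range D, ∑ j ∈ Finset.range D, c i j * (y 0 ^ i * y 1 ^ j) := by
  obtain ⟨D, g, hg, hug⟩ := isPl_of_eig ok hu h
  obtain ⟨c, hc0, hc⟩ := exists_coeff hg
  have hfn : Tendsto (NF.tri μ₁ μ₂ 0 k).fn (𝓝 0) (𝓝 0) := by
    have := (NF.tri μ₁ μ₂ 0 k).contDiff_fn.continuous.tendsto 0
    rwa [NF.fn_zero ok] at this
  have h1 := coeff_zero2 (D := D) (c := fun i j => c i j * (μ₁ ^ i * μ₂ ^ j - μ)) (by
    filter_upwards [h, hug, hfn.eventually hug] with y h1 h2 h3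
    rw [h2, h3, hc, hc] at h1
    simp only [NF.fn_tri_zero, NF.fn_tri_one, zero_mul, add_zero] at h1
    have h4 : ∑ i ∈ Finset.range D, ∑ j ∈ Finset.range D,
        c i j * (μ₁ ^ i * μ₂ ^ j - μ) * (y 0 ^ i * y 1 ^ j) =
        ∑ i ∈ Finset.range D, ∑ j ∈ Finset.range D, c i j * ((μ₁ * y 0) ^ i * (μ₂ * y 1) ^ j) -
        μ * ∑ i ∈ Finset.range D, ∑ j ∈ Finset.range D, c i j * (y 0 ^ i * y 1 ^ j) := by
      rw [Finset.mul_sum, ← Finset.sum_sub_distrib]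
      refine Finset.sum_congr rfl fun i _ => ?_
      rw [Finset.mul_sum, ← Finset.sum_sub_distrib]
      refine Finset.sum_congr rfl fun j _ => ?_
      rw [mul_pow, mul_pow]; ring
    rw [h4, h1, sub_self])
  refine ⟨D, c, fun i j hij => ?_, ?_⟩
  · have hi : i < D := by
      by_contra h; exact hij (hc0 i j (Or.inl (not_lt.1 h)))
    have hj : j < D := by
      by_contra h; exact hij (hc0 i j (Or.inr (not_lt.1 h)))
    refine ⟨hi, hj, ?_⟩
    rcases mul_eq_zero.1 (h1 i hi j hj) with h2 | h2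
    · exact absurd h2 hij
    · linarith
  · filter_upwards [hug] with y hy
    rw [hy, hc]

/-! ### The resonant case and small weights -/

theorem fn_line (μ₁ μ₂ a : ℝ) (k : ℕ) (y : E2) (t : ℝ) :
    (NF.tri μ₁ μ₂ a k).fn (y + t • b0) = (NF.tri μ₁ μ₂ a k).fn y + (μ₁ * t) • b0 := by
  refine NF.ext2 ?_ ?_
  · show μ₁ * (y + t • b0) 0 + a * (y + t • b0) 1 ^ k =
      (μ₁ * y 0 + a * y 1 ^ k) + ((μ₁ * t) • b0) 0
    simp [b0]; ring
  · show μ₂ * (y + t • b0) 1 = μ₂ * y 1 + ((μ₁ * t) • b0) 1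
    simp [b0]

/-- the first partial derivative of an eigenfunction -/
theorem eig_deriv {μ₁ μ₂ a : ℝ} {k : ℕ} (ok : (NF.tri μ₁ μ₂ a k).OK) {u : E2 → ℝ} {μ : ℝ}
    (hu : ContDiffAt ℝ ∞ u 0)
    (h : ∀ᶠ y in 𝓝 (0 : E2), u ((NF.tri μ₁ μ₂ a k).fn y) = μ * u y) :
    ∀ᶠ y in 𝓝 (0 : E2), fderiv ℝ u ((NF.tri μ₁ μ₂ a k).fn y) b0 = μ / μ₁ * fderiv ℝ u y b0 := by
  have hfn : Tendsto (NF.tri μ₁ μ₂ a k).fn (𝓝 0) (𝓝 0) := by
    have := (NF.tri μ₁ μ₂ a k).contDiff_fn.continuous.tendsto 0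
    rwa [NF.fn_zero ok] at this
  have hd : ∀ᶠ y in 𝓝 (0 : E2), DifferentiableAt ℝ u y := by
    have := (hu.of_le (m := 1) (by norm_cast)).eventually (by simp)
    filter_upwards [this] with y hy
    exact hy.differentiableAt (by simp)
  have hμ : μ₁ ≠ 0 := (NF.ne_of_OK ok).1
  filter_upwards [hd, hfn.eventually hd, h.eventually_nhds] with y h1 h2 h3
  have hl : ∀ z v : E2, HasDerivAt (fun t : ℝ => z + t • v) v 0 := by
    intro z v
    have := ((hasDerivAt_id (0 : ℝ)).smul_const v).const_add z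
    simpa using this
  have hc : Tendsto (fun t : ℝ => y + t • b0) (𝓝 0) (𝓝 y) := by
    have := (hl y b0).continuousAt.tendsto
    simpa using this
  have e1 : HasDerivAt (fun t : ℝ => u (y + t • b0)) (fderiv ℝ u y b0) 0 := by
    have h4 : HasFDerivAt u (fderiv ℝ u y) (y + (0 : ℝ) • b0) := by simpa using h1.hasFDerivAt
    exact h4.comp_hasDerivAt (0 : ℝ) (hl y b0)
  have e2 : HasDerivAt (fun t : ℝ => u ((NF.tri μ₁ μ₂ a k).fn y + t • (μ₁ • b0)))
      (fderiv ℝ u ((NF.tri μ₁ μ₂ a k).fn y) (μ₁ • b0)) 0 := by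
    have h4 : HasFDerivAt u (fderiv ℝ u ((NF.tri μ₁ μ₂ a k).fn y))
        ((NF.tri μ₁ μ₂ a k).fn y + (0 : ℝ) • (μ₁ • b0)) := by simpa using h2.hasFDerivAt
    exact h4.comp_hasDerivAt (0 : ℝ) (hl _ _)
  have e3 : (fun t : ℝ => u ((NF.tri μ₁ μ₂ a k).fn y + t • (μ₁ • b0))) =ᶠ[𝓝 0]
      fun t => μ * u (y + t • b0) := by
    filter_upwards [hc.eventually h3] with t ht
    rw [← ht, fn_line, smul_smul, mul_comm]
  have e4 := (e2.congr_of_eventuallyEq e3.symm).unique (e1.const_mul μ)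
  rw [map_smul, smul_eq_mul] at e4
  rw [div_mul_eq_mul_div, ← e4]
  field_simp

/-- if the first partial derivative vanishes near `0`, then the function depends on `y 1` only -/
theorem dep_one {u : E2 → ℝ} (hu : ContDiffAt ℝ ∞ u 0)
    (h : ∀ᶠ y in 𝓝 (0 : E2), fderiv ℝ u y b0 = 0) :
    ∀ᶠ y in 𝓝 (0 : E2), u y = u (pt 0 (y 1)) := by
  have hd : ∀ᶠ y in 𝓝 (0 : E2), DifferentiableAt ℝ u y := by
    have := (hu.of_le (m := 1) (by norm_cast)).eventually (by simp)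
    filter_upwards [this] with y hy
    exact hy.differentiableAt (by simp)
  obtain ⟨δ, hδ, hb⟩ := Metric.eventually_nhds_iff_ball.1 (h.and hd)
  filter_upwards [Metric.ball_mem_nhds (0 : E2) hδ] with y hy
  have hm : ∀ t ∈ Icc (0 : ℝ) 1, pt (t * y 0) (y 1) ∈ ball (0 : E2) δ := by
    intro t ht
    have := pt_scale_mem hy ht (t := t) (s := 1) (by norm_num)
    rw [one_mul] at this
    exact this
  have hder : ∀ t ∈ Icc (0 : ℝ) 1, HasDerivAt (fun t : ℝ => u (pt (t * y 0) (y 1))) 0 t := by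
    intro t ht
    have h1 := hb _ (hm t ht)
    have h2 : HasDerivAt (fun t : ℝ => pt (t * y 0) (y 1)) (y 0 • b0) t := by
      have h3 : (fun t : ℝ => pt (t * y 0) (y 1)) = fun t => pt 0 (y 1) + t • (y 0 • b0) := by
        funext t
        refine NF.ext2 ?_ ?_
        · rw [pt_zero]; simp [pt_zero, b0]
        · rw [pt_one]; simp [pt_one, b0]
      rw [h3]
      have h4 := ((hasDerivAt_id t).smul_const (y 0 • b0)).const_add (pt 0 (y 1))
      simpa using h4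
    have h5 := h1.2.hasFDerivAt.comp_hasDerivAt t h2
    rw [map_smul, h1.1, smul_zero] at h5
    exact h5
  have h6 := constant_of_has_deriv_right_zero (a := 0) (b := 1)
    (f := fun t : ℝ => u (pt (t * y 0) (y 1)))
    (fun t ht => (hder t ht).continuousAt.continuousWithinAt)
    (fun t ht => (hder t ⟨ht.1, ht.2.le⟩).hasDerivWithinAt) 1 (by norm_num)
  simp only [one_mul, zero_mul, pt_self] at h6
  exact h6

theorem tendsto_fn {N : NF} (ok : N.OK) : Tendsto N.fn (𝓝 0) (𝓝 0) := by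
  have := N.contDiff_fn.continuous.tendsto 0
  rwa [NF.fn_zero ok] at this

theorem tendsto_inv {N : NF} (ok : N.OK) : Tendsto N.inv (𝓝 0) (𝓝 0) := by
  have := N.contDiff_inv.continuous.tendsto 0
  rwa [NF.inv_zero ok] at this

theorem tendsto_pt0 : Tendsto (fun s : ℝ => pt 0 s) (𝓝 0) (𝓝 0) := by
  have h : Continuous fun s : ℝ => pt 0 s :=
    continuous_pt.comp (by fun_prop : Continuous fun s : ℝ => ((0 : ℝ), s))
  have h0 : pt 0 0 = 0 := NF.ext2 (by simp) (by simp)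
  have := h.tendsto 0
  rwa [h0] at this

theorem tendsto_c1 : Tendsto (fun y : E2 => y 1) (𝓝 0) (𝓝 0) := by
  have := (continuous_coord 1).tendsto (0 : E2)
  simpa using this

/-- a smooth function of one variable which is a polynomial near `0` -/
theorem exists_coeff1 {D : ℕ} {g : E2 → ℝ} (hg : g ∈ Pl D) :
    ∃ c : ℕ → ℝ, ∀ s, g (pt 0 s) = ∑ j ∈ Finset.range D, c j * s ^ j := by
  obtain ⟨c, -, hc⟩ := exists_coeff hg
  refine ⟨c 0, fun s => ?_⟩
  rw [hc]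
  rcases Nat.eq_zero_or_pos D with rfl | hD
  · simp
  · rw [Finset.sum_eq_single 0]
    · refine Finset.sum_congr rfl fun j _ => ?_
      simp
    · intro i _ hi
      refine Finset.sum_eq_zero fun j _ => ?_
      simp [hi]
    · intro h
      exact absurd (Finset.mem_range.2 hD) h

/-- at most one power of `μ₂` is equal to `μ` -/
theorem pow_inj {μ₂ : ℝ} (h : 1 < |μ₂|) {i j : ℕ} (hij : μ₂ ^ i = μ₂ ^ j) : i = j := by
  have h1 : |μ₂| ^ i = |μ₂| ^ j := by rw [← abs_pow, ← abs_pow, hij]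
  exact pow_right_injective₀ (by linarith) h.ne' h1

/-- if `∂₀ u = 0` near `0`, an eigenfunction is `c y₁^j` -/
theorem eig_of_dep {μ₁ μ₂ a : ℝ} {k : ℕ} (ok : (NF.tri μ₁ μ₂ a k).OK) {u : E2 → ℝ} {μ : ℝ}
    (hu : ContDiffAt ℝ ∞ u 0)
    (h : ∀ᶠ y in 𝓝 (0 : E2), u ((NF.tri μ₁ μ₂ a k).fn y) = μ * u y)
    (h0 : ∀ᶠ y in 𝓝 (0 : E2), fderiv ℝ u y b0 = 0) :
    ∃ (c : ℝ) (j : ℕ), (c ≠ 0 → μ₂ ^ j = μ) ∧ ∀ᶠ y in 𝓝 (0 : E2), u y = c * y 1 ^ j := by
  have hdep := dep_one hu h0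
  obtain ⟨D, g, hg, hug⟩ := isPl_of_eig ok hu h
  obtain ⟨c, hc⟩ := exists_coeff1 hg
  have e1 : ∀ᶠ s in 𝓝 (0 : ℝ), u (pt 0 s) = ∑ j ∈ Finset.range D, c j * s ^ j := by
    filter_upwards [tendsto_pt0.eventually hug] with s hs
    rw [hs, hc]
  have hμ2 : Tendsto (fun s : ℝ => μ₂ * s) (𝓝 0) (𝓝 0) := by
    have := (continuous_const_mul μ₂).tendsto (0 : ℝ)
    rwa [mul_zero] at this
  have e2 : ∀ᶠ s in 𝓝 (0 : ℝ), ∑ j ∈ Finset.range D, (c j * (μ₂ ^ j - μ)) * s ^ j = 0 := by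
    filter_upwards [tendsto_pt0.eventually h, ((tendsto_fn ok).comp tendsto_pt0).eventually hdep,
      e1, hμ2.eventually e1] with s h1 h2 h3 h4
    have h5 : (NF.tri μ₁ μ₂ a k).fn (pt 0 s) 1 = μ₂ * s := by
      rw [NF.fn_tri_one, pt_one]
    simp only [Function.comp_apply] at h2
    rw [h1, h5, h3, h4] at h2
    have h6 : ∑ j ∈ Finset.range D, (c j * (μ₂ ^ j - μ)) * s ^ j =
        ∑ j ∈ Finset.range D, c j * (μ₂ * s) ^ j - μ * ∑ j ∈ Finset.range D, c j * s ^ j := by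
      rw [Finset.mul_sum, ← Finset.sum_sub_distrib]
      refine Finset.sum_congr rfl fun j _ => ?_
      rw [mul_pow]; ring
    rw [h6, ← h2, sub_self]
  have e3 := coeff_zero1 e2
  have e4 : ∀ j < D, c j ≠ 0 → μ₂ ^ j = μ := by
    intro j hj hcj
    rcases mul_eq_zero.1 (e3 j hj) with h1 | h1
    · exact absurd h1 hcj
    · linarith
  have e5 : ∀ᶠ y in 𝓝 (0 : E2), u y = ∑ j ∈ Finset.range D, c j * y 1 ^ j := by
    filter_upwards [hdep, tendsto_c1.eventually e1] with y h1 h2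
    rw [h1, h2]
  by_cases hex : ∃ j < D, c j ≠ 0
  · obtain ⟨j, hj, hcj⟩ := hex
    refine ⟨c j, j, fun _ => e4 j hj hcj, ?_⟩
    filter_upwards [e5] with y hy
    rw [hy, Finset.sum_eq_single j]
    · intro i hi hij
      have : c i = 0 := by
        by_contra hne
        exact hij (pow_inj ok.1 ((e4 i (Finset.mem_range.1 hi) hne).trans (e4 j hj hcj).symm))
      rw [this, zero_mul]
    · intro h
      exact absurd (Finset.mem_range.2 hj) h
  · push Not at hex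
    refine ⟨0, 0, fun h => absurd rfl h, ?_⟩
    filter_upwards [e5] with y hy
    rw [hy, zero_mul]
    exact Finset.sum_eq_zero fun j hj => by rw [hex j (Finset.mem_range.1 hj), zero_mul]

/-- solutions with `|μ| < 1` vanish near `0` -/
theorem eig_lt_one {N : NF} (ok : N.OK) {u : E2 → ℝ} {μ : ℝ}
    (hu : ContinuousAt u 0) (hμ : |μ| < 1)
    (h : ∀ᶠ y in 𝓝 (0 : E2), u (N.fn y) = μ * u y) : ∀ᶠ y in 𝓝 (0 : E2), u y = 0 := by
  obtain ⟨p, θ, A, hC⟩ := exists_CT ok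
  have hb : ∀ᶠ y in 𝓝 (0 : E2), |u y| ≤ |u 0| + 1 := by
    have := hu.abs.tendsto.eventually (ge_mem_nhds (lt_add_one (|u 0|)))
    exact this
  refine hC.eq_zero hb hμ ?_
  filter_upwards [(tendsto_inv ok).eventually h] with y hy
  rwa [NF.fn_inv ok] at hy

/-- (A3), small weights: `|μ| < |μ₁|` implies `u = c y₁^j` near `0` with `μ₂^j = μ` -/
theorem eig_low {μ₁ μ₂ a : ℝ} {k : ℕ} (ok : (NF.tri μ₁ μ₂ a k).OK) {u : E2 → ℝ} {μ : ℝ}
    (hu : ContDiffAt ℝ ∞ u 0) (hμ : |μ| < |μ₁|)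
    (h : ∀ᶠ y in 𝓝 (0 : E2), u ((NF.tri μ₁ μ₂ a k).fn y) = μ * u y) :
    ∃ (c : ℝ) (j : ℕ), (c ≠ 0 → μ₂ ^ j = μ) ∧ ∀ᶠ y in 𝓝 (0 : E2), u y = c * y 1 ^ j := by
  refine eig_of_dep ok hu h ?_
  have hμ1 : μ₁ ≠ 0 := (NF.ne_of_OK ok).1
  have h1 : ContDiffAt ℝ ∞ (fun y => fderiv ℝ u y b0) 0 :=
    (hu.fderiv_right (m := ∞) (by norm_cast)).clm_apply contDiffAt_const
  refine eig_lt_one ok h1.continuousAt ?_ (eig_deriv ok hu h)
  rw [abs_div, div_lt_one (abs_pos.2 hμ1)]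
  exact hμ

/-- one step of the induction in the resonant case -/
theorem res_step {μ₁ μ₂ a : ℝ} {k : ℕ} (ok : (NF.tri μ₁ μ₂ a k).OK) (ha : a ≠ 0) {u : E2 → ℝ}
    {μ : ℝ} (hu : ContDiffAt ℝ ∞ u 0)
    (h : ∀ᶠ y in 𝓝 (0 : E2), u ((NF.tri μ₁ μ₂ a k).fn y) = μ * u y) {c : ℝ} {m : ℕ}
    (hc : c ≠ 0 → μ₂ ^ m = μ / μ₁) (hw : ∀ᶠ y in 𝓝 (0 : E2), fderiv ℝ u y b0 = c * y 1 ^ m) :
    ∀ᶠ y in 𝓝 (0 : E2), fderiv ℝ u y b0 = 0 := by
  by_cases hc0 : c = 0
  · filter_upwards [hw] with y hy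
    rw [hy, hc0, zero_mul]
  exfalso
  have hμ1 : μ₁ ≠ 0 := (NF.ne_of_OK ok).1
  have hμ2 : μ₂ ≠ 0 := (NF.ne_of_OK ok).2
  have hk : μ₁ = μ₂ ^ k := (ok.2.2 ha).2
  have hk1 : 1 ≤ k := (ok.2.2 ha).1
  have hμ : μ = μ₂ ^ (k + m) := by
    have := hc hc0
    rw [pow_add, ← hk, this]
    field_simp
  -- `u y = u (0, y 1) + c y 0 (y 1)^m`
  set v : E2 → ℝ := fun y => u y - c * (y 0 * y 1 ^ m) with hv
  have hmon : ContDiff ℝ ∞ fun y : E2 => c * (y 0 * y 1 ^ m) :=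
    contDiff_const.mul ((contDiff_coord 0).mul ((contDiff_coord 1).pow m))
  have hvs : ContDiffAt ℝ ∞ v 0 := hu.sub hmon.contDiffAt
  have hd : ∀ᶠ y in 𝓝 (0 : E2), DifferentiableAt ℝ u y := by
    have := (hu.of_le (m := 1) (by norm_cast)).eventually (by simp)
    filter_upwards [this] with y hy
    exact hy.differentiableAt (by simp)
  have hv0 : ∀ᶠ y in 𝓝 (0 : E2), fderiv ℝ v y b0 = 0 := by
    filter_upwards [hd, hw] with y h1 h2
    have h3 : HasFDerivAt (fun y : E2 => y 0) (EuclideanSpace.proj 0 : E2 →L[ℝ] ℝ) y :=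
      (EuclideanSpace.proj 0 : E2 →L[ℝ] ℝ).hasFDerivAt
    have h4 : HasFDerivAt (fun y : E2 => y 1) (EuclideanSpace.proj 1 : E2 →L[ℝ] ℝ) y :=
      (EuclideanSpace.proj 1 : E2 →L[ℝ] ℝ).hasFDerivAt
    have h5 := (h3.mul (h4.pow m)).const_mul c
    have h6 : HasFDerivAt v _ y := h1.hasFDerivAt.sub h5
    rw [h6.fderiv, sub_apply, h2]
    simp [b0]
  have hdep := dep_one hvs hv0
  have hform : ∀ᶠ y in 𝓝 (0 : E2), u y = u (pt 0 (y 1)) + c * (y 0 * y 1 ^ m) := by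
    filter_upwards [hdep] with y hy
    simp only [hv, pt_zero, pt_one, zero_mul, mul_zero, sub_zero] at hy
    linarith
  obtain ⟨D, g, hg, hug⟩ := isPl_of_eig ok hu h
  obtain ⟨q, hq⟩ := exists_coeff1 (Pl_mono (le_max_left D (k + m + 1)) hg)
  set D' := max D (k + m + 1) with hD'
  have e1 : ∀ᶠ s in 𝓝 (0 : ℝ), u (pt 0 s) = ∑ j ∈ Finset.range D', q j * s ^ j := by
    filter_upwards [tendsto_pt0.eventually hug] with s hs
    rw [hs, hq]
  have hs2 : Tendsto (fun s : ℝ => μ₂ * s) (𝓝 0) (𝓝 0) := by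
    have := (continuous_const_mul μ₂).tendsto (0 : ℝ)
    rwa [mul_zero] at this
  have hlt : k + m < D' := lt_of_lt_of_le (Nat.lt_succ_self _) (le_max_right D (k + m + 1))
  have e2 : ∀ᶠ s in 𝓝 (0 : ℝ), ∑ j ∈ Finset.range D',
      (q j * (μ₂ ^ j - μ) + if j = k + m then c * a * μ₂ ^ m else 0) * s ^ j = 0 := by
    filter_upwards [tendsto_pt0.eventually h, ((tendsto_fn ok).comp tendsto_pt0).eventually hform,
      e1, hs2.eventually e1] with s h1 h2 h3 h4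
    have h5 : (NF.tri μ₁ μ₂ a k).fn (pt 0 s) 1 = μ₂ * s := by
      rw [NF.fn_tri_one, pt_one]
    have h5' : (NF.tri μ₁ μ₂ a k).fn (pt 0 s) 0 = a * s ^ k := by
      rw [NF.fn_tri_zero, pt_one, pt_zero, mul_zero, zero_add]
    simp only [Function.comp_apply] at h2
    rw [h1, h5, h5', h3, h4] at h2
    have h6 : ∑ j ∈ Finset.range D',
        (q j * (μ₂ ^ j - μ) + if j = k + m then c * a * μ₂ ^ m else 0) * s ^ j =
        ∑ j ∈ Finset.range D', q j * (μ₂ * s) ^ j - μ * ∑ j ∈ Finset.range D', q j * s ^ j +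
        ∑ j ∈ Finset.range D', (if j = k + m then c * a * μ₂ ^ m else 0) * s ^ j := by
      rw [Finset.mul_sum, ← Finset.sum_sub_distrib, ← Finset.sum_add_distrib]
      refine Finset.sum_congr rfl fun j _ => ?_
      rw [mul_pow]; ring
    have h7 : ∑ j ∈ Finset.range D', (if j = k + m then c * a * μ₂ ^ m else 0) * s ^ j =
        c * a * μ₂ ^ m * s ^ (k + m) := by
      rw [Finset.sum_eq_single (k + m)]
      · rw [if_pos rfl]
      · intro i _ hi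
        rw [if_neg hi, zero_mul]
      · intro h
        exact absurd (Finset.mem_range.2 hlt) h
    rw [h6, h7, h2]
    ring
  have e3 := coeff_zero1 e2 (k + m) hlt
  rw [if_pos rfl, hμ, sub_self, mul_zero, zero_add] at e3
  have := pow_ne_zero m hμ2
  simp_all

/-- (A3), resonant case: all eigenfunctions are `c y₁^j` -/
theorem eig_res {μ₁ μ₂ a : ℝ} {k : ℕ} (ok : (NF.tri μ₁ μ₂ a k).OK) (ha : a ≠ 0) {u : E2 → ℝ}
    {μ : ℝ} (hu : ContDiffAt ℝ ∞ u 0)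
    (h : ∀ᶠ y in 𝓝 (0 : E2), u ((NF.tri μ₁ μ₂ a k).fn y) = μ * u y) :
    ∃ (c : ℝ) (j : ℕ), (c ≠ 0 → μ₂ ^ j = μ) ∧ ∀ᶠ y in 𝓝 (0 : E2), u y = c * y 1 ^ j := by
  have hμ1 : 1 < |μ₁| := ok.1.trans_le ok.2.1
  obtain ⟨n, hn⟩ : ∃ n : ℕ, |μ| < |μ₁| ^ n := pow_unbounded_of_one_lt _ hμ1
  induction n generalizing u μ with
  | zero =>
    rw [pow_zero] at hn
    refine ⟨0, 0, fun h => absurd rfl h, ?_⟩
    filter_upwards [eig_lt_one ok hu.continuousAt hn h] with y hy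
    rw [hy, zero_mul]
  | succ n ih =>
    have h1 : ContDiffAt ℝ ∞ (fun y => fderiv ℝ u y b0) 0 :=
      (hu.fderiv_right (m := ∞) (by norm_cast)).clm_apply contDiffAt_const
    have h2 : |μ / μ₁| < |μ₁| ^ n := by
      rw [abs_div, div_lt_iff₀ (by linarith)]
      rwa [pow_succ] at hn
    obtain ⟨c, m, hc, hw⟩ := ih h1 (eig_deriv ok hu h) h2
    exact eig_of_dep ok hu h (res_step ok ha hu h hc hw)

end Vale.Agent.P207.N3.H684
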