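import Vale.Agent.P207.N3.H684.Divi
import Vale.Agent.P207.N3.H80.Form

/-!
# P207, line N3: from `DivIn` to the input of START (3.4 in the normal coordinate)
-/

open Set Filter Topology Metric MeasureTheory
open scoped ContDiff

noncomputable section

namespace Vale.Agent.P207.N3.H684

open H790 (NF)
open H503 (SN SN_of_coord SN_of_bas SN_of_smNear pr EE EE_apply bas_apply inner_bas wdiv link_SN Mz)
open H80 (XX XX_apply)

variable {Γ X B : Type} [Group Γ] [MetricSpace X] [ProperSpace X] [MulAction Γ X]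
  [IsIsometricSMul Γ X] [TopologicalSpace B] [CompactSpace B] [T2Space B] [MulAction Γ B]
  [ContinuousConstSMul Γ B]

variable {L : Leaf Γ X B} {o : Orb L} {n : Nor L o} {T : Tens L}

/-- the division lemma of 503 -/
theorem divLemma : H503.DivLemma := fun _ i m h1 h2 => ev_smooth_of_pow_mul i h1 m h2

/-- **(3.4) in the normal coordinate**: if `T'₂₂` is smooth, then `T'₁₂ = -a(x₂)`,
`T'₁₁ = a'(x₂) x₁ + B(x₂)` up to smooth functions -/
theorem start_form (D : DivIn T n) (hs : n.N.Split)
    (h22 : SmNear fun z => D.Tp z (bas 1) 1) :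
    ∃ (a a' b : ℝ → ℝ) (d : ℝ), 0 < d ∧ Continuous a ∧ Continuous a' ∧ Continuous b ∧
      (∀ s, |s| < d → HasDerivAt a (a' s) s) ∧
      SN (fun z => Mz T n z - ((a' (z 1) * z 0 + b (z 1)) • EE 0 - a (z 1) • XX)) := by
  have hcont : ∀ j l, ContinuousOn (fun z => D.Tp z (bas j) l) (ball 0 D.r) := by
    intro j l
    have h1 : ContinuousOn (fun z => D.Tp z (bas j)) (ball 0 D.r) :=
      D.Tp_cont.clm_apply continuousOn_const
    exact (pr l).continuous.comp_continuousOn h1
  have hsymm : ∀ z ∈ ball (0 : E2) D.r, ∀ j l, D.Tp z (bas j) l = D.Tp z (bas l) j := by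
    intro z hz j l
    have := D.Tp_symm z hz (bas j) (bas l)
    rw [inner_bas, real_inner_comm, inner_bas] at this
    exact this
  have s22 : SmN (fun z => D.Tp z (bas 1) 1) := h22
  have sx2 : SmN (fun z => D.Xp z 1) := D.R0 hs
  have sx1 : SmN (fun z => D.Xp z 0) := D.R2 hs h22
  -- `WDiv` with the symmetric entries
  have w0 : WDiv D.r (fun y => D.Tp y (bas 0) 0) (fun y => D.Tp y (bas 0) 1)
      (fun y => D.Xp y 0) := by
    intro f hf hc hsup
    have h := wdiv D 0 f hf hc hsup
    rw [← h]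
    refine integral_congr_ae (Eventually.of_forall fun y => ?_)
    simp only
    by_cases hy : y ∈ tsupport f
    · rw [hsymm y (hsup hy) 0 1]
    · have h0 : fderiv ℝ f y = 0 := by
        have : f =ᶠ[𝓝 y] fun _ => 0 := by
          filter_upwards [(isClosed_tsupport f).isOpen_compl.mem_nhds hy] with z hz
          exact image_eq_zero_of_notMem_tsupport hz
        rw [this.fderiv_eq]
        exact fderiv_const_apply 0
      simp [h0]
  obtain ⟨d, hd, a, a', b, ha, ha', hb, hder, P, Q, hP, hQ, hPQ⟩ :=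
    type34 D.r_pos (hcont 0 0) (hcont 0 1) w0 (wdiv D 1) s22 sx1 sx2
  refine ⟨a, a', b, d, hd, ha, ha', hb, hder, ?_⟩
  have hlink : ∀ j l, SN (fun z => D.Tp z (bas j) l - Mz T n z (bas j) l) := by
    intro j l
    have h1 := (link_SN D).clm (SN.of_contDiff (contDiff_const (c := bas j)))
    refine (h1.lin (pr l)).congr (Eventually.of_forall fun z => ?_)
    rfl
  have hball : ∀ᶠ z in 𝓝 (0 : E2), z ∈ ball (0 : E2) d ∧ z ∈ ball (0 : E2) D.r := by
    filter_upwards [ball_mem_nhds (0 : E2) hd, ball_mem_nhds (0 : E2) D.r_pos] with z h1 h2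
    exact ⟨h1, h2⟩
  have sP : SN P := SN.of_on hd hP
  have sQ : SN Q := SN.of_on hd hQ
  have s22' : SN (fun z => D.Tp z (bas 1) 1) := SN_of_smNear h22
  refine SN_of_bas (SN_of_coord fun l => ?_) (SN_of_coord fun l => ?_)
  · fin_cases l
    · refine (sQ.sub (hlink 0 0)).congr ?_
      filter_upwards [hball] with z hz
      have h1 := (hPQ z hz.1).2
      show (Mz T n z (bas 0) - ((a' (z 1) * z 0 + b (z 1)) • EE 0 (bas 0) -
        a (z 1) • XX (bas 0))) 0 = Q z - (D.Tp z (bas 0) 0 - Mz T n z (bas 0) 0)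
      rw [h1]
      simp [EE_apply, XX_apply, bas]
      ring
    · refine (sP.sub (hlink 0 1)).congr ?_
      filter_upwards [hball] with z hz
      have h1 := (hPQ z hz.1).1
      show (Mz T n z (bas 0) - ((a' (z 1) * z 0 + b (z 1)) • EE 0 (bas 0) -
        a (z 1) • XX (bas 0))) 1 = P z - (D.Tp z (bas 0) 1 - Mz T n z (bas 0) 1)
      rw [h1]
      simp [EE_apply, XX_apply, bas]
      ring
  · fin_cases l
    · refine (sP.sub (hlink 1 0)).congr ?_
      filter_upwards [hball] with z hz
      have h1 := (hPQ z hz.1).1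
      rw [hsymm z hz.2 0 1] at h1
      show (Mz T n z (bas 1) - ((a' (z 1) * z 0 + b (z 1)) • EE 0 (bas 1) -
        a (z 1) • XX (bas 1))) 0 = P z - (D.Tp z (bas 1) 0 - Mz T n z (bas 1) 0)
      rw [h1]
      simp [EE_apply, XX_apply, bas]
      ring
    · refine (s22'.sub (hlink 1 1)).congr (Eventually.of_forall fun z => ?_)
      show (Mz T n z (bas 1) - ((a' (z 1) * z 0 + b (z 1)) • EE 0 (bas 1) -
        a (z 1) • XX (bas 1))) 1 = D.Tp z (bas 1) 1 - (D.Tp z (bas 1) 1 - Mz T n z (bas 1) 1)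
      simp [EE_apply, XX_apply, bas]

end Vale.Agent.P207.N3.H684
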