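import Mathlib
import Vale.Agent.P207.N3.H254.XY
import Vale.Agent.P207.N3.H254.Bil

/-!
# P207, line N3, P10: (R0), the lowest order of the product formula

The image of the product formula in `ℝ[δ, δ']`, `δ² = δ'² = 0`.
-/

open Finset Sum

set_option linter.unusedSectionVars false

namespace Vale.Agent.P207.N3.H684

open H254

/-- the ring `ℝ[δ, δ']` -/
abbrev DD := DualNumber (DualNumber ℝ)

/-- the generators -/
noncomputable def d1 : DD := TrivSqZeroExt.inl DualNumber.eps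
noncomputable def d2 : DD := DualNumber.eps

theorem d1_sq : d1 * d1 = 0 := by
  unfold d1
  rw [← TrivSqZeroExt.inl_mul, DualNumber.eps_mul_eps, TrivSqZeroExt.inl_zero]

theorem d2_sq : d2 * d2 = 0 := DualNumber.eps_mul_eps

/-- the coefficient of `δ δ'` -/
noncomputable def cD : DD →ₗ[ℝ] ℝ where
  toFun z := (z.snd).snd
  map_add' _ _ := rfl
  map_smul' _ _ := rfl

theorem cD_mul (r : ℝ) : cD (d1 * d2 * algebraMap ℝ DD r) = r := by
  have h1 : algebraMap ℝ DD r = TrivSqZeroExt.inl (TrivSqZeroExt.inl r) := rfl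
  have f1 : d1.fst = TrivSqZeroExt.inr (1 : ℝ) := rfl
  have s1 : d1.snd = 0 := rfl
  have f2 : d2.fst = 0 := rfl
  have s2 : d2.snd = 1 := rfl
  have key : (d1 * d2 * algebraMap ℝ DD r).snd = TrivSqZeroExt.inr r := by
    rw [TrivSqZeroExt.snd_mul, TrivSqZeroExt.snd_mul, TrivSqZeroExt.fst_mul, h1,
      TrivSqZeroExt.snd_inl, TrivSqZeroExt.fst_inl, f1, s1, f2, s2]
    simp only [smul_zero, add_zero, smul_eq_mul, mul_one, MulOpposite.smul_eq_mul_unop,
      MulOpposite.unop_op]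
    rw [TrivSqZeroExt.inr_mul_inl]
    simp
  show ((d1 * d2 * algebraMap ℝ DD r).snd).snd = r
  rw [key]
  rfl

theorem cD_d1 (r : ℝ) : cD (d1 * algebraMap ℝ DD r) = 0 := by
  have h1 : algebraMap ℝ DD r = TrivSqZeroExt.inl (TrivSqZeroExt.inl r) := rfl
  have f1 : d1.fst = TrivSqZeroExt.inr (1 : ℝ) := rfl
  have s1 : d1.snd = 0 := rfl
  have key : (d1 * algebraMap ℝ DD r).snd = 0 := by
    rw [TrivSqZeroExt.snd_mul, h1, TrivSqZeroExt.snd_inl, TrivSqZeroExt.fst_inl, f1, s1]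
    simp
  show ((d1 * algebraMap ℝ DD r).snd).snd = 0
  rw [key]
  rfl

theorem cD_d2 (r : ℝ) : cD (d2 * algebraMap ℝ DD r) = 0 := by
  have h1 : algebraMap ℝ DD r = TrivSqZeroExt.inl (TrivSqZeroExt.inl r) := rfl
  have s2 : d2.snd = 1 := rfl
  have key : (d2 * algebraMap ℝ DD r).snd = TrivSqZeroExt.inl r := by
    rw [TrivSqZeroExt.snd_mul, h1, TrivSqZeroExt.snd_inl, TrivSqZeroExt.fst_inl, s2]
    simp
  show ((d2 * algebraMap ℝ DD r).snd).snd = 0
  rw [key]
  rfl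

theorem cD_alg (r : ℝ) : cD (algebraMap ℝ DD r) = 0 := rfl

/-! ### The image of a polynomial in `ℝ[δ, δ']` -/

/-- a ring with two elements of square zero and the coefficient of their product -/
structure Dd (R : Type) [CommRing R] [Algebra ℝ R] where
  d1 : R
  d2 : R
  h1 : d1 * d1 = 0
  h2 : d2 * d2 = 0
  c : R →ₗ[ℝ] ℝ
  c12 : ∀ r, c (d1 * d2 * algebraMap ℝ R r) = r
  c1 : ∀ r, c (d1 * algebraMap ℝ R r) = 0
  c2 : ∀ r, c (d2 * algebraMap ℝ R r) = 0
  c0 : ∀ r, c (algebraMap ℝ R r) = 0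

noncomputable def theD : Dd DD := ⟨d1, d2, d1_sq, d2_sq, cD, cD_mul, cD_d1, cD_d2, cD_alg⟩

section psi

variable {R : Type} [CommRing R] [Algebra ℝ R] (D : Dd R) {J J' : Type*} (a : J → ℝ) (b : J' → ℝ)

/-- the substitution -/
noncomputable def psi : MvPolynomial (J ⊕ J') ℝ →ₐ[ℝ] R :=
  MvPolynomial.aeval (Sum.elim (fun j => D.d1 * algebraMap ℝ R (a j))
    fun j => D.d2 * algebraMap ℝ R (b j))

/-- the degree in the first set of variables -/
noncomputable def dl (α : J ⊕ J' →₀ ℕ) : ℕ := ∑ j ∈ α.support, if j.isLeft then α j else 0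

/-- the degree in the second set of variables -/
noncomputable def dr (α : J ⊕ J' →₀ ℕ) : ℕ := ∑ j ∈ α.support, if j.isLeft then 0 else α j

theorem psi_prod (α : J ⊕ J' →₀ ℕ) :
    ∏ j ∈ α.support, (Sum.elim (fun j => D.d1 * algebraMap ℝ R (a j))
      (fun j => D.d2 * algebraMap ℝ R (b j)) j) ^ α j =
      D.d1 ^ dl α * D.d2 ^ dr α * algebraMap ℝ R (vm (Sum.elim a b) α) := by
  unfold dl dr vm
  rw [← Finset.prod_pow_eq_pow_sum, ← Finset.prod_pow_eq_pow_sum, map_prod,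
    ← Finset.prod_mul_distrib, ← Finset.prod_mul_distrib]
  refine Finset.prod_congr rfl fun j _ => ?_
  rcases j with j | j
  · simp [mul_pow]
  · simp [mul_pow]

theorem Dd.pow1 {m : ℕ} (hm : 2 ≤ m) : D.d1 ^ m = 0 := by
  obtain ⟨k, rfl⟩ := Nat.exists_eq_add_of_le hm
  rw [pow_add, pow_two, D.h1, zero_mul]

theorem Dd.pow2 {m : ℕ} (hm : 2 ≤ m) : D.d2 ^ m = 0 := by
  obtain ⟨k, rfl⟩ := Nat.exists_eq_add_of_le hm
  rw [pow_add, pow_two, D.h2, zero_mul]

theorem Dd.term (m k : ℕ) (r : ℝ) : D.c (D.d1 ^ m * D.d2 ^ k * algebraMap ℝ R r) =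
    if m = 1 ∧ k = 1 then r else 0 := by
  by_cases hm : 2 ≤ m
  · rw [D.pow1 hm, zero_mul, zero_mul, map_zero, if_neg (by omega)]
  by_cases hk : 2 ≤ k
  · rw [D.pow2 hk, mul_zero, zero_mul, map_zero, if_neg (by omega)]
  have h1 : m = 0 ∨ m = 1 := by omega
  have h2 : k = 0 ∨ k = 1 := by omega
  rcases h1 with rfl | rfl <;> rcases h2 with rfl | rfl
  · rw [pow_zero, pow_zero, one_mul, one_mul, D.c0]; simp
  · rw [pow_zero, pow_one, one_mul, D.c2]; simp
  · rw [pow_zero, pow_one, mul_one, D.c1]; simp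
  · rw [pow_one, pow_one, D.c12]; simp

theorem c_psi (p : MvPolynomial (J ⊕ J') ℝ) : D.c (psi D a b p) =
    ∑ α ∈ p.support, p.coeff α * if dl α = 1 ∧ dr α = 1 then vm (Sum.elim a b) α else 0 := by
  unfold psi
  rw [MvPolynomial.aeval_def, MvPolynomial.eval₂_eq, map_sum]
  refine Finset.sum_congr rfl fun α _ => ?_
  rw [psi_prod, ← Algebra.smul_def, map_smul, D.term, smul_eq_mul]

end psi

/-! ### Weights -/

section wt

variable {J J' : Type*} {wt : J → ℝ} {wt' : J' → ℝ} {ℓ : ℝ} {α : J ⊕ J' →₀ ℕ}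

theorem wm_left (α : J ⊕ J' →₀ ℕ) : wm (Sum.elim wt (0 : J' → ℝ)) α =
    ∑ j ∈ α.support, (if j.isLeft then (α j : ℝ) else 0) * Sum.elim wt wt' j := by
  unfold wm
  refine Finset.sum_congr rfl fun j _ => ?_
  rcases j with j | j <;> simp

theorem wm_right (α : J ⊕ J' →₀ ℕ) : wm (Sum.elim (0 : J → ℝ) wt') α =
    ∑ j ∈ α.support, (if j.isLeft then 0 else (α j : ℝ)) * Sum.elim wt wt' j := by
  unfold wm
  refine Finset.sum_congr rfl fun j _ => ?_
  rcases j with j | j <;> simp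

theorem dl_cast (α : J ⊕ J' →₀ ℕ) :
    (dl α : ℝ) = ∑ j ∈ α.support, if j.isLeft then (α j : ℝ) else 0 := by
  unfold dl
  push_cast
  refine Finset.sum_congr rfl fun j _ => ?_
  split_ifs <;> rfl

theorem dr_cast (α : J ⊕ J' →₀ ℕ) :
    (dr α : ℝ) = ∑ j ∈ α.support, if j.isLeft then 0 else (α j : ℝ) := by
  unfold dr
  push_cast
  refine Finset.sum_congr rfl fun j _ => ?_
  split_ifs <;> rfl

/-- weights `(ℓ, ℓ)` means: one variable of weight `ℓ` on each side -/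
theorem wt_iff (hℓ : 0 < ℓ) (h : ∀ j ∈ α.support, ℓ ≤ Sum.elim wt wt' j) :
    (wm (Sum.elim wt (0 : J' → ℝ)) α = ℓ ∧ wm (Sum.elim (0 : J → ℝ) wt') α = ℓ) ↔
      dl α = 1 ∧ dr α = 1 ∧ ∀ j ∈ α.support, Sum.elim wt wt' j = ℓ := by
  classical
  have h1 : (dl α : ℝ) * ℓ ≤ wm (Sum.elim wt (0 : J' → ℝ)) α := by
    rw [wm_left (wt' := wt'), dl_cast, Finset.sum_mul]
    refine Finset.sum_le_sum fun j hj => mul_le_mul_of_nonneg_left (h j hj) ?_
    split_ifs
    · exact Nat.cast_nonneg _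
    · exact le_rfl
  have h2 : (dr α : ℝ) * ℓ ≤ wm (Sum.elim (0 : J → ℝ) wt') α := by
    rw [wm_right (wt := wt), dr_cast, Finset.sum_mul]
    refine Finset.sum_le_sum fun j hj => mul_le_mul_of_nonneg_left (h j hj) ?_
    split_ifs
    · exact le_rfl
    · exact Nat.cast_nonneg _
  have hsum : wm (Sum.elim wt (0 : J' → ℝ)) α + wm (Sum.elim (0 : J → ℝ) wt') α =
      ∑ j ∈ α.support, (α j : ℝ) * Sum.elim wt wt' j := by
    rw [wm_left (wt' := wt'), wm_right (wt := wt), ← Finset.sum_add_distrib]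
    refine Finset.sum_congr rfl fun j _ => ?_
    split_ifs <;> ring
  have hd : (dl α : ℝ) + dr α = ∑ j ∈ α.support, (α j : ℝ) := by
    rw [dl_cast, dr_cast, ← Finset.sum_add_distrib]
    refine Finset.sum_congr rfl fun j _ => ?_
    split_ifs <;> ring
  constructor
  · rintro ⟨e1, e2⟩
    rw [e1] at h1
    rw [e2] at h2
    have g1 : (dl α : ℝ) ≤ 1 := by
      by_contra hc
      push Not at hc
      nlinarith
    have g2 : (dr α : ℝ) ≤ 1 := by
      by_contra hc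
      push Not at hc
      nlinarith
    have n1 : dl α ≠ 0 := by
      intro h0
      have h3 : ∀ j ∈ α.support, (if j.isLeft then α j else 0) = 0 :=
        Finset.sum_eq_zero_iff.1 h0
      have h4 : wm (Sum.elim wt (0 : J' → ℝ)) α = 0 := by
        rw [wm_left (wt' := wt')]
        refine Finset.sum_eq_zero fun j hj => ?_
        have h5 := h3 j hj
        split_ifs at h5 ⊢ with h6
        · rw [h5]; simp
        · simp
      linarith
    have n2 : dr α ≠ 0 := by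
      intro h0
      have h3 : ∀ j ∈ α.support, (if j.isLeft then 0 else α j) = 0 :=
        Finset.sum_eq_zero_iff.1 h0
      have h4 : wm (Sum.elim (0 : J → ℝ) wt') α = 0 := by
        rw [wm_right (wt := wt)]
        refine Finset.sum_eq_zero fun j hj => ?_
        have h5 := h3 j hj
        split_ifs at h5 ⊢ with h6
        · simp
        · rw [h5]; simp
      linarith
    have g1' : dl α ≤ 1 := by exact_mod_cast g1
    have g2' : dr α ≤ 1 := by exact_mod_cast g2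
    have k1 : dl α = 1 := by omega
    have k2 : dr α = 1 := by omega
    refine ⟨k1, k2, fun j hj => ?_⟩
    -- the sum of `(α j) (wt j - ℓ)` is zero
    have h5 : ∑ j ∈ α.support, (α j : ℝ) * (Sum.elim wt wt' j - ℓ) = 0 := by
      have h6 : ∑ j ∈ α.support, (α j : ℝ) * (Sum.elim wt wt' j - ℓ) =
          ∑ j ∈ α.support, (α j : ℝ) * Sum.elim wt wt' j - (∑ j ∈ α.support, (α j : ℝ)) * ℓ := by
        rw [Finset.sum_mul, ← Finset.sum_sub_distrib]
        exact Finset.sum_congr rfl fun j _ => by ring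
      rw [h6, ← hsum, ← hd, e1, e2, k1, k2]
      push_cast
      ring
    have h7 := (Finset.sum_eq_zero_iff_of_nonneg fun j hj =>
      mul_nonneg (Nat.cast_nonneg (α j)) (sub_nonneg.2 (h j hj))).1 h5 j hj
    have h8 : (α j : ℝ) ≠ 0 := Nat.cast_ne_zero.2 (Finsupp.mem_support_iff.1 hj)
    rcases mul_eq_zero.1 h7 with h9 | h9
    · exact absurd h9 h8
    · linarith
  · rintro ⟨k1, k2, h3⟩
    constructor
    · rw [wm_left (wt' := wt')]
      have : ∑ j ∈ α.support, (if j.isLeft then (α j : ℝ) else 0) * Sum.elim wt wt' j =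
          (∑ j ∈ α.support, if j.isLeft then (α j : ℝ) else 0) * ℓ := by
        rw [Finset.sum_mul]
        exact Finset.sum_congr rfl fun j hj => by rw [h3 j hj]
      rw [this, ← dl_cast, k1]; simp
    · rw [wm_right (wt := wt)]
      have : ∑ j ∈ α.support, (if j.isLeft then 0 else (α j : ℝ)) * Sum.elim wt wt' j =
          (∑ j ∈ α.support, if j.isLeft then 0 else (α j : ℝ)) * ℓ := by
        rw [Finset.sum_mul]
        exact Finset.sum_congr rfl fun j hj => by rw [h3 j hj]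
      rw [this, ← dr_cast, k2]; simp

/-- the coefficient of `δ δ'` is the part of weight `(ℓ, ℓ)` -/
theorem c_psi_wt {R : Type} [CommRing R] [Algebra ℝ R] (D : Dd R) (hℓ : 0 < ℓ)
    (p : MvPolynomial (J ⊕ J') ℝ)
    (h : ∀ α ∈ p.support, ∀ j ∈ α.support, ℓ ≤ Sum.elim wt wt' j) (v : J → ℝ) (v' : J' → ℝ) :
    D.c (psi D (fun j => if wt j = ℓ then v j else 0) (fun j => if wt' j = ℓ then v' j else 0) p) =
      ∑ α ∈ p.support.filter (fun α => wm (Sum.elim wt (0 : J' → ℝ)) α = ℓ ∧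
        wm (Sum.elim (0 : J → ℝ) wt') α = ℓ), p.coeff α * vm (Sum.elim v v') α := by
  classical
  rw [c_psi, Finset.sum_filter]
  refine Finset.sum_congr rfl fun α hα => ?_
  have key := wt_iff (α := α) hℓ (h α hα)
  by_cases hw : wm (Sum.elim wt (0 : J' → ℝ)) α = ℓ ∧ wm (Sum.elim (0 : J → ℝ) wt') α = ℓ
  · rw [if_pos hw]
    obtain ⟨k1, k2, h3⟩ := key.1 hw
    rw [if_pos ⟨k1, k2⟩]
    congr 1
    unfold vm
    refine Finset.prod_congr rfl fun j hj => ?_
    have h4 := h3 j hj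
    rcases j with j | j
    · simp only [Sum.elim_inl] at h4 ⊢
      rw [if_pos h4]
    · simp only [Sum.elim_inr] at h4 ⊢
      rw [if_pos h4]
  · rw [if_neg hw]
    by_cases hk : dl α = 1 ∧ dr α = 1
    · rw [if_pos hk]
      have h3 : ∃ j ∈ α.support, Sum.elim wt wt' j ≠ ℓ := by
        by_contra hc
        push Not at hc
        exact hw (key.2 ⟨hk.1, hk.2, hc⟩)
      obtain ⟨j, hj, h4⟩ := h3
      have h5 : vm (Sum.elim (fun j => if wt j = ℓ then v j else 0)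
          (fun j => if wt' j = ℓ then v' j else 0)) α = 0 := by
        unfold vm
        refine Finset.prod_eq_zero hj ?_
        have h6 : α j ≠ 0 := Finsupp.mem_support_iff.1 hj
        rcases j with j | j
        · simp only [Sum.elim_inl] at h4 ⊢
          rw [if_neg h4, zero_pow h6]
        · simp only [Sum.elim_inr] at h4 ⊢
          rw [if_neg h4, zero_pow h6]
      rw [h5, mul_zero]
    · rw [if_neg hk, mul_zero]

end wt

/-! ### The product formula in `ℝ[δ, δ']` -/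

section pf

variable {R : Type} [CommRing R] [Algebra ℝ R] (D : Dd R)

/-- the linear part of a polynomial -/
noncomputable def lin {J : Type*} (a : J → ℝ) (p : MvPolynomial J ℝ) : ℝ := by
  classical exact ∑ α ∈ p.support.filter (fun α => α.degree = 1), p.coeff α * vm a α

theorem aeval_d {J : Type*} (d : R) (hd : d * d = 0) (a : J → ℝ) (p : MvPolynomial J ℝ)
    (h0 : ∀ α ∈ p.support, α ≠ 0) :
    MvPolynomial.aeval (fun j => d * algebraMap ℝ R (a j)) p = d * algebraMap ℝ R (lin a p) := by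
  classical
  unfold lin
  rw [MvPolynomial.aeval_def, MvPolynomial.eval₂_eq, map_sum, Finset.mul_sum, Finset.sum_filter]
  refine Finset.sum_congr rfl fun α hα => ?_
  have h1 : ∏ j ∈ α.support, (d * algebraMap ℝ R (a j)) ^ α j =
      d ^ α.degree * algebraMap ℝ R (vm a α) := by
    unfold vm
    rw [Finsupp.degree_apply, ← Finset.prod_pow_eq_pow_sum, map_prod, ← Finset.prod_mul_distrib]
    exact Finset.prod_congr rfl fun j _ => by rw [mul_pow, map_pow]
  rw [h1]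
  have h2 : α.degree ≠ 0 := fun h => h0 α hα ((Finsupp.degree_eq_zero_iff α).1 h)
  by_cases h3 : α.degree = 1
  · rw [if_pos h3, h3, pow_one, map_mul]; ring
  · rw [if_neg h3]
    obtain ⟨k, hk⟩ := Nat.exists_eq_add_of_le (show 2 ≤ α.degree by omega)
    rw [hk, pow_add, pow_two, hd, zero_mul, zero_mul, mul_zero]

theorem psi_inl {J J' : Type*} (a : J → ℝ) (b : J' → ℝ) (p : MvPolynomial J ℝ)
    (h0 : ∀ α ∈ p.support, α ≠ 0) :
    psi D a b (MvPolynomial.rename inl p) = D.d1 * algebraMap ℝ R (lin a p) := by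
  unfold psi
  rw [MvPolynomial.aeval_rename]
  exact aeval_d D.d1 D.h1 a p h0

theorem psi_inr {J J' : Type*} (a : J → ℝ) (b : J' → ℝ) (p : MvPolynomial J' ℝ)
    (h0 : ∀ α ∈ p.support, α ≠ 0) :
    psi D a b (MvPolynomial.rename inr p) = D.d2 * algebraMap ℝ R (lin b p) := by
  unfold psi
  rw [MvPolynomial.aeval_rename]
  exact aeval_d D.d2 D.h2 b p h0

theorem lin_zero {J : Type*} (a : J → ℝ) : lin a (0 : MvPolynomial J ℝ) = 0 := by
  unfold lin
  simp

variable {K : ℕ} {Y X : Type*} (S : Side K Y) (S' : Side K X)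

/-- the bilinear part of the product formula -/
theorem c_pK (hK : 2 ≤ K) (h : ℝ) (a b : Lb → ℝ) :
    D.c (psi D a b (pK h S S')) =
      lin a (S.Q (1, 0)) * lin b (S'.P (1, 0)) + lin a (S.Q (0, 1)) * lin b (S'.P (0, 1)) +
      lin b (S'.Q (1, 0)) * lin a (S.P (1, 0)) + lin b (S'.Q (0, 1)) * lin a (S.P (0, 1)) -
      h * (lin a (S.P (1, 0)) * lin b (S'.P (1, 0)) + lin a (S.P (0, 1)) * lin b (S'.P (0, 1))) +
      (lin a (S.P (2, 0)) * lin b (S'.P (2, 0)) + lin a (S.P (1, 1)) * lin b (S'.P (1, 1)) +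
        lin a (S.P (1, 1)) * lin b (S'.P (1, 1)) + lin a (S.P (0, 2)) * lin b (S'.P (0, 2))) := by
  have e1 : psi D a b (pK h S S') =
      EK K h (fun c => D.d1 * algebraMap ℝ R (lin a (S.P c)))
        (fun c => D.d1 * algebraMap ℝ R (lin a (S.Q c)))
        (fun c => D.d2 * algebraMap ℝ R (lin b (S'.P c)))
        (fun c => D.d2 * algebraMap ℝ R (lin b (S'.Q c))) := by
    unfold pK
    rw [EK_map]
    congr 1
    · funext c; exact psi_inl D a b _ fun α hα => S.P_ne hα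
    · funext c; exact psi_inl D a b _ fun α hα => S.Q_ne hα
    · funext c; exact psi_inr D a b _ fun α hα => S'.P_ne hα
    · funext c; exact psi_inr D a b _ fun α hα => S'.Q_ne hα
  have hz : ∀ (u : Lb → ℝ), algebraMap ℝ R (lin u (0 : MvPolynomial Lb ℝ)) = 0 := fun u => by
    rw [lin_zero, map_zero]
  rw [e1, EK_bil (t := fun c => algebraMap ℝ R (lin a (S.P c)))
    (x := fun c => algebraMap ℝ R (lin a (S.Q c)))
    (t' := fun c => algebraMap ℝ R (lin b (S'.P c)))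
    (x' := fun c => algebraMap ℝ R (lin b (S'.Q c))) D.h1 D.h2 hK h
    (by rw [S.P_zero]; exact hz a) (by rw [S.Q_zero]; exact hz a)
    (by rw [S'.P_zero]; exact hz b) (by rw [S'.Q_zero]; exact hz b)]
  rw [Algebra.smul_def]
  simp only [← map_mul, ← map_add, ← map_sub]
  rw [D.c12]

end pf

/-! ### The bi-weight `(ℓ, ℓ)` -/

section r0

variable {K : ℕ} {Y X : Type*} {κ ℓ h W : ℝ} {S : Side K Y} {S' : Side K X}

theorem pK_good (hℓ : 0 < ℓ) (hκ : ℓ ≤ κ) (h : ℝ) :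
    ∀ α ∈ (pK h S S').support, ∀ j ∈ α.support, ℓ ≤ Sum.elim (wtl κ ℓ) (wtl κ ℓ) j := by
  classical
  set G : Set (Lb ⊕ Lb) := {j | ℓ ≤ Sum.elim (wtl κ ℓ) (wtl κ ℓ) j} with hG
  have hl : ∀ p : MvPolynomial Lb ℝ, (∀ α ∈ p.support, ∀ j ∈ α.support, ℓ ≤ wtl κ ℓ j) →
      MvPolynomial.rename inl p ∈ MvPolynomial.supported ℝ G := by
    intro p hp
    rw [MvPolynomial.mem_supported]
    intro j hj
    have h1 := MvPolynomial.vars_rename (inl : Lb → Lb ⊕ Lb) p hj
    rw [Finset.mem_image] at h1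
    obtain ⟨i, hi, rfl⟩ := h1
    obtain ⟨α, hα, hiα⟩ := (MvPolynomial.mem_vars_iff_mem_support i).1 hi
    exact hp α hα i hiα
  have hr : ∀ p : MvPolynomial Lb ℝ, (∀ α ∈ p.support, ∀ j ∈ α.support, ℓ ≤ wtl κ ℓ j) →
      MvPolynomial.rename inr p ∈ MvPolynomial.supported ℝ G := by
    intro p hp
    rw [MvPolynomial.mem_supported]
    intro j hj
    have h1 := MvPolynomial.vars_rename (inr : Lb → Lb ⊕ Lb) p hj
    rw [Finset.mem_image] at h1
    obtain ⟨i, hi, rfl⟩ := h1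
    obtain ⟨α, hα, hiα⟩ := (MvPolynomial.mem_vars_iff_mem_support i).1 hi
    exact hp α hα i hiα
  have h2 : pK h S S' ∈ MvPolynomial.supported ℝ G :=
    EK_memS _ h (fun a => hl _ fun α hα j hj => S.P_wt hℓ hκ hα hj)
      (fun a => hl _ fun α hα j hj => S.Q_wt hℓ hκ hα hj)
      (fun a => hr _ fun α hα j hj => S'.P_wt hℓ hκ hα hj)
      (fun a => hr _ fun α hα j hj => S'.Q_wt hℓ hκ hα hj)
  rw [MvPolynomial.mem_supported] at h2
  intro α hα j hj
  exact h2 ((MvPolynomial.mem_vars_iff_mem_support j).2 ⟨α, hα, hj⟩)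

/-- restriction to the labels of weight `ℓ` -/
noncomputable def cut (κ ℓ : ℝ) (v : Lb → ℝ) : Lb → ℝ := fun j =>
  if wtl κ ℓ j = ℓ then v j else 0

theorem lin_P1 (hK : 1 ≤ K) (a : Lb → ℝ) (i : Fin 2) : lin a (S.P (e i)) = a (inl (e i)) := by
  classical
  unfold lin
  have h1 : ∀ α ∈ (S.P (e i)).support, α = Finsupp.single (inl (e i)) 1 := by
    intro α hα
    rcases S.P_supp _ α hα with h1 | ⟨h1, h2⟩
    · exact h1
    · exfalso
      have h3 : α ≠ 0 := S.P_ne hα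
      obtain ⟨j, hj⟩ := Finsupp.support_nonempty_iff.2 h3
      obtain ⟨b, -, h4, h5⟩ := h2 j hj
      rw [len_e] at h5
      omega
  have hc : (S.P (e i)).coeff (Finsupp.single (inl (e i)) 1) = 1 :=
    S.P_one _ (by rw [len_e]) (by rw [len_e]; exact hK)
  have hmem : Finsupp.single (inl (e i)) 1 ∈ (S.P (e i)).support := by
    rw [MvPolynomial.mem_support_iff, hc]; exact one_ne_zero
  rw [Finset.sum_filter, Finset.sum_eq_single (Finsupp.single (inl (e i)) 1)]
  · rw [if_pos (by simp), hc, vm_single, one_mul]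
  · intro α hα hne
    exact absurd (h1 α hα) hne
  · intro h2
    exact absurd hmem h2

theorem lin_P2 (hℓ : 0 < ℓ) (hκ : ℓ ≤ κ) (v : Lb → ℝ) {c : ℕ × ℕ} (hc : 2 ≤ len c) :
    lin (cut κ ℓ v) (S.P c) = 0 := by
  classical
  unfold lin
  refine Finset.sum_eq_zero fun α hα => ?_
  rw [Finset.mem_filter] at hα
  rcases S.P_supp _ α hα.1 with h1 | ⟨h1, -⟩
  · rw [h1, vm_single]
    unfold cut
    rw [if_neg, mul_zero]
    have h2 := wtl_ge2 hℓ hκ hc
    intro h3
    rw [wtl_inl] at h3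
    linarith
  · rw [hα.2] at h1
    omega

theorem lin_Q1 (hK : 1 ≤ K) (a : Lb → ℝ) (i : Fin 2) : lin a (S.Q (e i)) = a (inr (e i)) +
    ((S.Q (e i)).coeff (Finsupp.single (inl (e 0)) 1) * a (inl (e 0)) +
      (S.Q (e i)).coeff (Finsupp.single (inl (e 1)) 1) * a (inl (e 1))) := by
  classical
  unfold lin
  set F : Finset (Lb →₀ ℕ) := {Finsupp.single (inr (e i)) 1, Finsupp.single (inl (e 0)) 1,
    Finsupp.single (inl (e 1)) 1} with hF
  have h1 : ∀ α ∈ (S.Q (e i)).support.filter (fun α => α.degree = 1), α ∈ F := by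
    intro α hα
    rw [Finset.mem_filter] at hα
    rcases S.Q_supp _ α hα.1 with h1 | ⟨h0, h1⟩
    · rw [h1, hF]; simp
    · obtain ⟨j, hj⟩ := Finsupp.support_nonempty_iff.2 h0
      have hs := eq_single_of_degree hα.2 hj
      rcases h1 j hj with ⟨b, rfl, h2, h3⟩ | ⟨b, rfl, h2, h3⟩
      · rw [len_e] at h3
        have hb : b = e 0 ∨ b = e 1 := by
          obtain ⟨b1, b2⟩ := b
          unfold len at h2 h3
          simp only at h2 h3
          have : (b1 = 1 ∧ b2 = 0) ∨ (b1 = 0 ∧ b2 = 1) := by omega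
          rcases this with ⟨rfl, rfl⟩ | ⟨rfl, rfl⟩
          · exact Or.inl rfl
          · exact Or.inr rfl
        rcases hb with rfl | rfl
        · rw [hs, hF]; simp
        · rw [hs, hF]; simp
      · rw [len_e] at h3
        omega
  have h2 : ∑ α ∈ (S.Q (e i)).support.filter (fun α => α.degree = 1),
      (S.Q (e i)).coeff α * vm a α = ∑ α ∈ F, (S.Q (e i)).coeff α * vm a α := by
    refine Finset.sum_subset h1 fun α hα hn => ?_
    have h3 : α.degree = 1 := by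
      rw [hF] at hα
      simp only [Finset.mem_insert, Finset.mem_singleton] at hα
      rcases hα with rfl | rfl | rfl <;> simp
    have h4 : α ∉ (S.Q (e i)).support := fun h => hn (Finset.mem_filter.2 ⟨h, h3⟩)
    rw [MvPolynomial.notMem_support_iff.1 h4, zero_mul]
  have hne : (Finsupp.single (inl (e 0)) 1 : Lb →₀ ℕ) ≠ Finsupp.single (inl (e 1)) 1 := by
    intro h
    have h3 := (Finsupp.single_eq_single_iff _ _ _ _).1 h
    rcases h3 with ⟨h4, -⟩ | ⟨h4, -⟩
    · have h5 : e 0 = e 1 := by simpa using h4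
      rw [e_zero, e_one] at h5
      simp at h5
    · exact one_ne_zero h4
  have hne' : ∀ k : Fin 2, (Finsupp.single (inr (e i)) 1 : Lb →₀ ℕ) ≠
      Finsupp.single (inl (e k)) 1 := by
    intro k h
    have h3 := (Finsupp.single_eq_single_iff _ _ _ _).1 h
    rcases h3 with ⟨h4, -⟩ | ⟨h4, -⟩
    · simp at h4
    · exact one_ne_zero h4
  rw [h2, hF, Finset.sum_insert (by
    rw [Finset.mem_insert, Finset.mem_singleton, not_or]; exact ⟨hne' 0, hne' 1⟩),
    Finset.sum_insert (by rw [Finset.mem_singleton]; exact hne), Finset.sum_singleton,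
    vm_single, vm_single, vm_single, S.Q_one _ (by rw [len_e]) (by rw [len_e]; exact hK), one_mul]

/-- the identity of bi-weight `(ℓ, ℓ)` -/
theorem id_ll (hK : 2 ≤ K) (hℓ : 0 < ℓ) (hκ : ℓ ≤ κ) (H : TwoId κ ℓ h W S S') (hW : 2 * ℓ < W)
    (y : Y) (x : X) :
    let a := cut κ ℓ fun j => S.v j y
    let b := cut κ ℓ fun j => S'.v j x
    lin a (S.Q (e 0)) * b (inl (e 0)) + lin a (S.Q (e 1)) * b (inl (e 1)) +
      lin b (S'.Q (e 0)) * a (inl (e 0)) + lin b (S'.Q (e 1)) * a (inl (e 1)) -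
      h * (a (inl (e 0)) * b (inl (e 0)) + a (inl (e 1)) * b (inl (e 1))) = 0 := by
  intro a b
  have h1 := H ℓ ℓ (by linarith) y x
  have h2 := c_psi_wt theD hℓ (pK h S S') (pK_good hℓ hκ h) (fun j => S.v j y)
    fun j => S'.v j x
  have h3 : theD.c (psi theD a b (pK h S S')) = 0 := h2.trans h1
  rw [c_pK theD S S' hK h a b] at h3
  have p0 : lin a (S.P (1, 0)) = a (inl (e 0)) := lin_P1 (by omega) a 0
  have p1 : lin a (S.P (0, 1)) = a (inl (e 1)) := lin_P1 (i := 1) (by omega) a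
  have p0' : lin b (S'.P (1, 0)) = b (inl (e 0)) := lin_P1 (by omega) b 0
  have p1' : lin b (S'.P (0, 1)) = b (inl (e 1)) := lin_P1 (i := 1) (by omega) b
  have q1 : lin a (S.P (2, 0)) = 0 := lin_P2 hℓ hκ _ (by decide)
  have q2 : lin a (S.P (1, 1)) = 0 := lin_P2 hℓ hκ _ (by decide)
  have q3 : lin a (S.P (0, 2)) = 0 := lin_P2 hℓ hκ _ (by decide)
  rw [p0, p1, p0', p1', q1, q2, q3] at h3
  have r0 : S.Q (1, 0) = S.Q (e 0) := rfl
  have r1 : S.Q (0, 1) = S.Q (e 1) := rfl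
  have r0' : S'.Q (1, 0) = S'.Q (e 0) := rfl
  have r1' : S'.Q (0, 1) = S'.Q (e 1) := rfl
  rw [r0, r1, r0', r1'] at h3
  linarith

theorem cut_self {j : Lb} (hj : wtl κ ℓ j = ℓ) (v : Lb → ℝ) : cut κ ℓ v j = v j := if_pos hj

theorem cut_ne {j : Lb} (hj : wtl κ ℓ j ≠ ℓ) (v : Lb → ℝ) : cut κ ℓ v j = 0 := if_neg hj

theorem wt_e1 (κ ℓ : ℝ) : wtl κ ℓ (inl (e 1)) = ℓ := by
  rw [wtl_inl, e_one]; simp

theorem wt_e1' (κ ℓ : ℝ) : wtl κ ℓ (inr (e 1)) = ℓ := by
  rw [wtl_inr, e_one]; simp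

theorem wt_e0 (κ ℓ : ℝ) : wtl κ ℓ (inl (e 0)) = κ := by
  rw [wtl_inl, e_zero]; simp

theorem wt_e0' (κ ℓ : ℝ) : wtl κ ℓ (inr (e 0)) = κ := by
  rw [wtl_inr, e_zero]; simp

/-- **(R0)**, `r > 1`: `X^_2` is a multiple of `y₂` -/
theorem R0 (hK : 2 ≤ K) (hℓ : 0 < ℓ) (hκ : ℓ < κ) (H : TwoId κ ℓ h W S S') (hW : 2 * ℓ < W)
    (hx : ∃ x, S'.v (inl (0, 1)) x ≠ 0) :
    ∃ c : ℝ, ∀ y, S.v (inr (0, 1)) y = c * S.v (inl (0, 1)) y := by
  obtain ⟨x, hx⟩ := hx
  have hx' : S'.v (inl (e 1)) x ≠ 0 := hx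
  set c0 := (S.Q (e 1)).coeff (Finsupp.single (inl (e 1)) 1) with hc0
  refine ⟨h - c0 - (lin (cut κ ℓ fun j => S'.v j x) (S'.Q (e 1))) / S'.v (inl (e 1)) x,
    fun y => ?_⟩
  have h1 := id_ll hK hℓ hκ.le H hW y x
  simp only at h1
  rw [cut_ne (j := inl (e 0)) (by rw [wt_e0]; exact hκ.ne'),
    cut_ne (j := inl (e 0)) (by rw [wt_e0]; exact hκ.ne'),
    cut_self (wt_e1 κ ℓ), cut_self (wt_e1 κ ℓ), lin_Q1 (S := S) (by omega) _ 1,
    cut_ne (j := inl (e 0)) (by rw [wt_e0]; exact hκ.ne'), cut_self (wt_e1 κ ℓ),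
    cut_self (wt_e1' κ ℓ)] at h1
  show S.v (inr (e 1)) y = _ * S.v (inl (e 1)) y
  set B := lin (cut κ ℓ fun j => S'.v j x) (S'.Q (e 1)) with hB
  have h2 : (S.v (inr (e 1)) y) * S'.v (inl (e 1)) x =
      ((h - c0) * S'.v (inl (e 1)) x - B) * S.v (inl (e 1)) y := by
    linear_combination h1
  field_simp
  linear_combination h2

/-- **(R0')**, `r = 1`: the `X^_i` are linear functions of `y` -/
theorem R0' (hK : 2 ≤ K) (hℓ : 0 < ℓ) (hκ : κ = ℓ) (H : TwoId κ ℓ h W S S') (hW : 2 * ℓ < W)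
    (hx : ∃ x x', S'.v (inl (1, 0)) x * S'.v (inl (0, 1)) x' -
      S'.v (inl (0, 1)) x * S'.v (inl (1, 0)) x' ≠ 0) :
    ∃ c : Fin 2 → Fin 2 → ℝ, ∀ y i, S.v (inr (e i)) y = ∑ j, c i j * S.v (inl (e j)) y := by
  obtain ⟨x, x', hx⟩ := hx
  have hx1 : S'.v (inl (e 0)) x * S'.v (inl (e 1)) x' -
    S'.v (inl (e 1)) x * S'.v (inl (e 0)) x' ≠ 0 := hx
  set Δ := S'.v (inl (e 0)) x * S'.v (inl (e 1)) x' -
    S'.v (inl (e 1)) x * S'.v (inl (e 0)) x' with hΔ
  set q : Fin 2 → Fin 2 → ℝ := fun i j => (S.Q (e i)).coeff (Finsupp.single (inl (e j)) 1) with hq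
  set B : X → Fin 2 → ℝ := fun x i => lin (cut κ ℓ fun j => S'.v j x) (S'.Q (e i)) with hB
  -- the linear forms `M x j = h x_j - B x j`
  set M : X → Fin 2 → ℝ := fun x j => h * S'.v (inl (e j)) x - B x j with hM
  have key : ∀ y x, (S.v (inr (e 0)) y + (q 0 0 * S.v (inl (e 0)) y + q 0 1 * S.v (inl (e 1)) y)) *
      S'.v (inl (e 0)) x +
      (S.v (inr (e 1)) y + (q 1 0 * S.v (inl (e 0)) y + q 1 1 * S.v (inl (e 1)) y)) *
      S'.v (inl (e 1)) x = M x 0 * S.v (inl (e 0)) y + M x 1 * S.v (inl (e 1)) y := by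
    intro y x
    have h1 := id_ll hK hℓ hκ.ge H hW y x
    simp only at h1
    have w0 : wtl κ ℓ (inl (e 0)) = ℓ := by rw [wt_e0, hκ]
    have w0' : wtl κ ℓ (inr (e 0)) = ℓ := by rw [wt_e0', hκ]
    rw [lin_Q1 (S := S) (by omega) _ 0, lin_Q1 (S := S) (by omega) _ 1, cut_self w0, cut_self w0,
      cut_self w0', cut_self (wt_e1 κ ℓ), cut_self (wt_e1 κ ℓ), cut_self (wt_e1' κ ℓ)] at h1
    simp only [hM, hB, hq]
    linear_combination h1
  set c : Fin 2 → Fin 2 → ℝ := fun i j =>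
    if i = 0 then (M x j * S'.v (inl (e 1)) x' - M x' j * S'.v (inl (e 1)) x) / Δ - q 0 j
    else (M x' j * S'.v (inl (e 0)) x - M x j * S'.v (inl (e 0)) x') / Δ - q 1 j with hc
  refine ⟨c, fun y i => ?_⟩
  have k1 := key y x
  have k2 := key y x'
  rw [Fin.sum_univ_two]
  have hi : i = 0 ∨ i = 1 := by fin_cases i <;> simp
  rcases hi with rfl | rfl
  · have h2 : c 0 0 = (M x 0 * S'.v (inl (e 1)) x' - M x' 0 * S'.v (inl (e 1)) x) / Δ - q 0 0 :=
      rfl
    have h3 : c 0 1 = (M x 1 * S'.v (inl (e 1)) x' - M x' 1 * S'.v (inl (e 1)) x) / Δ - q 0 1 :=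
      rfl
    rw [h2, h3]
    field_simp
    linear_combination S'.v (inl (e 1)) x' * k1 - S'.v (inl (e 1)) x * k2
  · have h2 : c 1 0 = (M x' 0 * S'.v (inl (e 0)) x - M x 0 * S'.v (inl (e 0)) x') / Δ - q 1 0 :=
      rfl
    have h3 : c 1 1 = (M x' 1 * S'.v (inl (e 0)) x - M x 1 * S'.v (inl (e 0)) x') / Δ - q 1 1 :=
      rfl
    rw [h2, h3]
    field_simp
    linear_combination S'.v (inl (e 0)) x * k2 - S'.v (inl (e 0)) x' * k1

end r0

end Vale.Agent.P207.N3.H684
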