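import Vale.Agent.P207.N3.Spec

/-!
# P207, line N3, P10W: the weak divergence equation and the rectangle identity

`WDiv R u v g` : `∂₀ u + ∂₁ v = g` in the sense of distributions on the ball of radius `R`.
`Rect ρ u v g` : the flux identity for all coordinate rectangles in the square of half side `ρ`.
For continuous functions the first implies the second (`rect_of_weak`).
-/

open Set Filter Topology Metric MeasureTheory
open scoped ContDiff Convolution

noncomputable section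

namespace Vale.Agent.P207.N3.H684

/-- The first basis vector. -/
def b0 : E2 := EuclideanSpace.single 0 1

/-- The second basis vector. -/
def b1 : E2 := EuclideanSpace.single 1 1

/-- The coordinates as a linear map. -/
def ptL : ℝ × ℝ →L[ℝ] E2 :=
  (ContinuousLinearMap.fst ℝ ℝ ℝ).smulRight b0 + (ContinuousLinearMap.snd ℝ ℝ ℝ).smulRight b1

/-- The point with coordinates `a`, `s`. -/
def pt (a s : ℝ) : E2 := ptL (a, s)

@[simp] theorem pt_zero (a s : ℝ) : pt a s 0 = a := by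
  simp [pt, ptL, b0, b1]

@[simp] theorem pt_one (a s : ℝ) : pt a s 1 = s := by
  simp [pt, ptL, b0, b1]

theorem pt_self (y : E2) : pt (y 0) (y 1) = y := by
  ext i; fin_cases i <;> simp

theorem ptL_b0 : ptL (1, 0) = b0 := by simp [ptL]

theorem ptL_b1 : ptL (0, 1) = b1 := by simp [ptL]

theorem norm_pt_le (a s : ℝ) : ‖pt a s‖ ≤ |a| + |s| := by
  have h : pt a s = a • b0 + s • b1 := by simp [pt, ptL]
  rw [h]
  refine (norm_add_le _ _).trans ?_
  rw [norm_smul, norm_smul]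
  simp [b0, b1]

theorem abs_coord_le (y : E2) (i : Fin 2) : |y i| ≤ ‖y‖ := by
  have := EuclideanSpace.norm_eq y
  rw [this]
  refine Real.abs_le_sqrt ?_
  have h := Finset.single_le_sum (f := fun j => ‖y j‖ ^ 2) (fun j _ => by positivity)
    (Finset.mem_univ i)
  simpa using h

theorem continuous_pt : Continuous fun z : ℝ × ℝ => pt z.1 z.2 := ptL.continuous

theorem contDiff_pt {n : WithTop ℕ∞} : ContDiff ℝ n fun z : ℝ × ℝ => pt z.1 z.2 := ptL.contDiff

theorem pt_mem {R ρ : ℝ} (h : 2 * ρ < R) {a s : ℝ} (ha : |a| ≤ ρ) (hs : |s| ≤ ρ) :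
    pt a s ∈ ball (0 : E2) R := by
  rw [mem_ball_zero_iff]
  linarith [norm_pt_le a s]

/-- The flux identity for rectangles. -/
def Rect (ρ : ℝ) (u v g : E2 → ℝ) : Prop :=
  ∀ a b c d : ℝ, |a| ≤ ρ → |b| ≤ ρ → |c| ≤ ρ → |d| ≤ ρ →
    (∫ s in c..d, (u (pt b s) - u (pt a s))) + (∫ t in a..b, (v (pt t d) - v (pt t c)))
      = ∫ t in a..b, ∫ s in c..d, g (pt t s)

theorem abs_le_of_uIcc {ρ a b t : ℝ} (ha : |a| ≤ ρ) (hb : |b| ≤ ρ) (ht : t ∈ uIcc a b) :
    |t| ≤ ρ := by
  rw [mem_uIcc] at ht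
  rw [abs_le] at ha hb ⊢
  rcases ht with ht | ht <;> constructor <;> linarith

section

variable {R ρ : ℝ} {u v g : E2 → ℝ}

theorem cont_sec1 (hρ : 2 * ρ < R) (hu : ContinuousOn u (ball 0 R)) {a : ℝ} (ha : |a| ≤ ρ)
    {c d : ℝ} (hc : |c| ≤ ρ) (hd : |d| ≤ ρ) :
    ContinuousOn (fun s => u (pt a s)) (uIcc c d) := by
  refine hu.comp (f := fun s => pt a s) ?_ ?_
  · exact (continuous_pt.comp (by fun_prop : Continuous fun s : ℝ => (a, s))).continuousOn
  · intro s hs
    exact pt_mem hρ ha (abs_le_of_uIcc hc hd hs)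

theorem cont_sec0 (hρ : 2 * ρ < R) (hu : ContinuousOn u (ball 0 R)) {s : ℝ} (hs : |s| ≤ ρ)
    {c d : ℝ} (hc : |c| ≤ ρ) (hd : |d| ≤ ρ) :
    ContinuousOn (fun a => u (pt a s)) (uIcc c d) := by
  refine hu.comp (f := fun a => pt a s) ?_ ?_
  · exact (continuous_pt.comp (by fun_prop : Continuous fun a : ℝ => (a, s))).continuousOn
  · intro a ha
    exact pt_mem hρ (abs_le_of_uIcc hc hd ha) hs

theorem cont_prod (hρ : 2 * ρ < R) (hu : ContinuousOn u (ball 0 R)) {a b c d : ℝ}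
    (ha : |a| ≤ ρ) (hb : |b| ≤ ρ) (hc : |c| ≤ ρ) (hd : |d| ≤ ρ) :
    ContinuousOn (fun z : ℝ × ℝ => u (pt z.1 z.2)) (uIcc a b ×ˢ uIcc c d) := by
  refine hu.comp (f := fun z : ℝ × ℝ => pt z.1 z.2) continuous_pt.continuousOn ?_
  intro z hz
  exact pt_mem hρ (abs_le_of_uIcc ha hb hz.1) (abs_le_of_uIcc hc hd hz.2)

/-- the divergence theorem -/
theorem rect_of_contDiff (hρ : 2 * ρ < R) (hu : ContDiffOn ℝ 1 u (ball 0 R))
    (hv : ContDiffOn ℝ 1 v (ball 0 R))
    (hg : ∀ y ∈ ball (0 : E2) R, fderiv ℝ u y b0 + fderiv ℝ v y b1 = g y) : Rect ρ u v g := by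
  intro a b c d ha hb hc hd
  have hdu : ∀ z : ℝ × ℝ, z ∈ uIcc a b ×ˢ uIcc c d →
      HasFDerivAt (fun z : ℝ × ℝ => u (pt z.1 z.2)) ((fderiv ℝ u (pt z.1 z.2)).comp ptL) z := by
    intro z hz
    have hm := pt_mem hρ (abs_le_of_uIcc ha hb hz.1) (abs_le_of_uIcc hc hd hz.2)
    have h1 : HasFDerivAt u (fderiv ℝ u (pt z.1 z.2)) (pt z.1 z.2) :=
      ((hu.contDiffAt (isOpen_ball.mem_nhds hm)).differentiableAt one_ne_zero).hasFDerivAt
    exact HasFDerivAt.comp z h1 ptL.hasFDerivAt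
  have hdv : ∀ z : ℝ × ℝ, z ∈ uIcc a b ×ˢ uIcc c d →
      HasFDerivAt (fun z : ℝ × ℝ => v (pt z.1 z.2)) ((fderiv ℝ v (pt z.1 z.2)).comp ptL) z := by
    intro z hz
    have hm := pt_mem hρ (abs_le_of_uIcc ha hb hz.1) (abs_le_of_uIcc hc hd hz.2)
    have h1 : HasFDerivAt v (fderiv ℝ v (pt z.1 z.2)) (pt z.1 z.2) :=
      ((hv.contDiffAt (isOpen_ball.mem_nhds hm)).differentiableAt one_ne_zero).hasFDerivAt
    exact HasFDerivAt.comp z h1 ptL.hasFDerivAt
  have hsub : Ioo (min a b) (max a b) ×ˢ Ioo (min c d) (max c d) ⊆ uIcc a b ×ˢ uIcc c d :=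
    prod_mono Ioo_subset_Icc_self Ioo_subset_Icc_self
  have hcg : ContinuousOn (fun z : ℝ × ℝ =>
      ((fderiv ℝ u (pt z.1 z.2)).comp ptL) (1, 0) + ((fderiv ℝ v (pt z.1 z.2)).comp ptL) (0, 1))
      (uIcc a b ×ˢ uIcc c d) := by
    have h1 : ContinuousOn (fderiv ℝ u) (ball 0 R) :=
      hu.continuousOn_fderiv_of_isOpen isOpen_ball le_rfl
    have h2 : ContinuousOn (fderiv ℝ v) (ball 0 R) :=
      hv.continuousOn_fderiv_of_isOpen isOpen_ball le_rfl
    have h3 : MapsTo (fun z : ℝ × ℝ => pt z.1 z.2) (uIcc a b ×ˢ uIcc c d) (ball 0 R) :=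
      fun z hz => pt_mem hρ (abs_le_of_uIcc ha hb hz.1) (abs_le_of_uIcc hc hd hz.2)
    have h4 := h1.comp continuous_pt.continuousOn h3
    have h5 := h2.comp continuous_pt.continuousOn h3
    have h6 := (h4.clm_apply (continuousOn_const (c := ptL (1, 0)))).add
      (h5.clm_apply (continuousOn_const (c := ptL (0, 1))))
    exact h6
  have key := integral2_divergence_prod_of_hasFDerivAt_off_countable
    (fun z : ℝ × ℝ => u (pt z.1 z.2)) (fun z : ℝ × ℝ => v (pt z.1 z.2))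
    (fun z => (fderiv ℝ u (pt z.1 z.2)).comp ptL) (fun z => (fderiv ℝ v (pt z.1 z.2)).comp ptL)
    a c b d ∅ countable_empty
    (fun z hz => (hdu z hz).continuousAt.continuousWithinAt)
    (fun z hz => (hdv z hz).continuousAt.continuousWithinAt)
    (fun z hz => hdu z (hsub hz.1)) (fun z hz => hdv z (hsub hz.1))
    (hcg.integrableOn_compact (isCompact_uIcc.prod isCompact_uIcc))
  have hcg' : (∫ t in a..b, ∫ s in c..d, g (pt t s)) = ∫ t in a..b, ∫ s in c..d,
      (((fderiv ℝ u (pt t s)).comp ptL) (1, 0) + ((fderiv ℝ v (pt t s)).comp ptL) (0, 1)) := by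
    refine intervalIntegral.integral_congr fun t ht => ?_
    refine intervalIntegral.integral_congr fun s hs => ?_
    have hm := pt_mem hρ (abs_le_of_uIcc ha hb ht) (abs_le_of_uIcc hc hd hs)
    simp only [ContinuousLinearMap.comp_apply, ptL_b0, ptL_b1]
    exact (hg _ hm).symm
  rw [hcg']
  simp only at key
  rw [key]
  have hucont := hu.continuousOn
  have hvcont := hv.continuousOn
  rw [intervalIntegral.integral_sub ((cont_sec1 hρ hucont hb hc hd).intervalIntegrable)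
      ((cont_sec1 hρ hucont ha hc hd).intervalIntegrable),
    intervalIntegral.integral_sub ((cont_sec0 hρ hvcont hd ha hb).intervalIntegrable)
      ((cont_sec0 hρ hvcont hc ha hb).intervalIntegrable)]
  ring

end

end Vale.Agent.P207.N3.H684
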