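import Vale.Agent.P207.N3.H684.Weak
import Vale.Agent.P267.H734.ParInt

/-!
# P207, line N3, P10W: consequences of the weak divergence equation (3.4 and 4.2)
-/

open Set Filter Topology Metric MeasureTheory
open scoped ContDiff

noncomputable section

namespace Vale.Agent.P207.N3.H684

/-! ### Elementary lemmas -/

theorem WDiv.mono {R R' : ℝ} {u v g : E2 → ℝ} (h : WDiv R u v g) (hR : R' ≤ R) :
    WDiv R' u v g := fun f h1 h2 h3 => h f h1 h2 (h3.trans (ball_subset_ball hR))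

theorem norm_pt_sq (a s : ℝ) : ‖pt a s‖ ^ 2 = a ^ 2 + s ^ 2 := by
  rw [EuclideanSpace.norm_eq, Real.sq_sqrt (by positivity)]
  simp

theorem norm_sq (y : E2) : ‖y‖ ^ 2 = y 0 ^ 2 + y 1 ^ 2 := by
  rw [← norm_pt_sq, pt_self]

theorem pt_scale_mem {R : ℝ} {y : E2} (hy : y ∈ ball (0 : E2) R) {t s : ℝ}
    (ht : t ∈ Icc (0 : ℝ) 1) (hs : s ∈ Icc (0 : ℝ) 1) :
    pt (t * y 0) (s * y 1) ∈ ball (0 : E2) R := by
  rw [mem_ball_zero_iff] at hy ⊢
  have h1 : ‖pt (t * y 0) (s * y 1)‖ ^ 2 ≤ ‖y‖ ^ 2 := by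
    rw [norm_pt_sq, norm_sq, mul_pow, mul_pow]
    have ht2 : t ^ 2 ≤ 1 := pow_le_one₀ ht.1 ht.2
    have hs2 : s ^ 2 ≤ 1 := pow_le_one₀ hs.1 hs.2
    have := mul_le_mul_of_nonneg_right ht2 (sq_nonneg (y 0))
    have := mul_le_mul_of_nonneg_right hs2 (sq_nonneg (y 1))
    linarith
  have h2 : ‖pt (t * y 0) (s * y 1)‖ ≤ ‖y‖ := by
    exact (pow_le_pow_iff_left₀ (norm_nonneg _) (norm_nonneg _) two_ne_zero).1 h1
  linarith

theorem contDiff_coord (i : Fin 2) {n : WithTop ℕ∞} : ContDiff ℝ n fun y : E2 => y i :=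
  (EuclideanSpace.proj (𝕜 := ℝ) i : E2 →L[ℝ] ℝ).contDiff

theorem continuous_coord (i : Fin 2) : Continuous fun y : E2 => y i :=
  (EuclideanSpace.proj (𝕜 := ℝ) i : E2 →L[ℝ] ℝ).continuous

/-- smooth primitive in the first variable -/
theorem exists_prim0 {R : ℝ} {g : E2 → ℝ} (hg : ContDiffOn ℝ ∞ g (ball 0 R)) :
    ∃ G : E2 → ℝ, ContDiffOn ℝ ∞ G (ball 0 R) ∧ ∀ y ∈ ball (0 : E2) R, fderiv ℝ G y b0 = g y := by
  set F : E2 × ℝ → ℝ := fun z => z.1 0 * g (pt (z.2 * z.1 0) (z.1 1)) with hF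
  set W : Set (E2 × ℝ) := {z | pt (z.2 * z.1 0) (z.1 1) ∈ ball (0 : E2) R} with hWd
  have hm : ContDiff ℝ ∞ fun z : E2 × ℝ => pt (z.2 * z.1 0) (z.1 1) := by
    refine contDiff_pt.comp (g := fun w : ℝ × ℝ => pt w.1 w.2)
      (f := fun z : E2 × ℝ => ((z.2 * z.1 0, z.1 1) : ℝ × ℝ)) ?_
    exact (contDiff_snd.mul ((contDiff_coord 0).comp contDiff_fst)).prodMk
      ((contDiff_coord 1).comp contDiff_fst)
  have hWo : IsOpen W := isOpen_ball.preimage hm.continuous
  have hFs : ContDiffOn ℝ ∞ F W :=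
    (((contDiff_coord 0).comp contDiff_fst).contDiffOn).mul
      (hg.comp hm.contDiffOn fun z hz => hz)
  have hG : ContDiffOn ℝ ∞ (fun y => ∫ t in (0 : ℝ)..1, F (y, t)) (ball 0 R) := by
    refine P267.H734.contDiffOn_integral hWo isOpen_ball (fun y hy t ht => ?_) hFs
    have := pt_scale_mem hy ht (s := 1) (by norm_num)
    rw [one_mul] at this
    exact this
  refine ⟨_, hG, fun y hy => ?_⟩
  set G : E2 → ℝ := fun y => ∫ t in (0 : ℝ)..1, F (y, t) with hGd
  -- along the first axis `G` is the integral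
  have h1 : ∀ a, G (pt a (y 1)) = ∫ x in (0 : ℝ)..a, g (pt x (y 1)) := by
    intro a
    simp only [hGd, hF, pt_zero, pt_one]
    rw [intervalIntegral.integral_const_mul]
    have := intervalIntegral.smul_integral_comp_mul_right (a := 0) (b := 1)
      (fun x => g (pt x (y 1))) a
    simp only [smul_eq_mul, zero_mul, one_mul] at this
    exact this
  have hline : ∀ x ∈ uIcc 0 (y 0), pt x (y 1) ∈ ball (0 : E2) R := by
    intro x hx
    by_cases hy0 : y 0 = 0
    · rw [hy0, uIcc_self, mem_singleton_iff] at hx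
      rw [hx, ← hy0, pt_self]; exact hy
    · have h2 : x = (x / y 0) * y 0 := by field_simp
      have h3 : x / y 0 ∈ Icc (0 : ℝ) 1 := by
        rw [mem_uIcc] at hx
        rcases hx with hx | hx
        · have : 0 < y 0 := lt_of_le_of_ne (hx.1.trans hx.2) (Ne.symm hy0)
          exact ⟨div_nonneg hx.1 this.le, by rw [div_le_one this]; exact hx.2⟩
        · have : y 0 < 0 := lt_of_le_of_ne (hx.1.trans hx.2) hy0
          exact ⟨div_nonneg_of_nonpos hx.2 this.le, by rw [div_le_one_of_neg this]; exact hx.1⟩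
      have h4 := pt_scale_mem hy h3 (s := 1) (by norm_num)
      rw [one_mul, ← h2] at h4
      exact h4
  have hgc : ContinuousOn g (ball 0 R) := hg.continuousOn
  have hopen : IsOpen {x : ℝ | pt x (y 1) ∈ ball (0 : E2) R} :=
    isOpen_ball.preimage (continuous_pt.comp (by fun_prop : Continuous fun x : ℝ => (x, y 1)))
  have hsec : ContinuousOn (fun x => g (pt x (y 1))) {x : ℝ | pt x (y 1) ∈ ball (0 : E2) R} :=
    hgc.comp (continuous_pt.comp (by fun_prop : Continuous fun x : ℝ => (x, y 1))).continuousOn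
      fun x hx => hx
  have hy0 : y 0 ∈ {x : ℝ | pt x (y 1) ∈ ball (0 : E2) R} := by
    show pt (y 0) (y 1) ∈ ball (0 : E2) R
    rw [pt_self]; exact hy
  have h5 : HasDerivAt (fun a => G (pt a (y 1))) (g (pt (y 0) (y 1))) (y 0) := by
    have h6 := intervalIntegral.integral_hasDerivAt_right (f := fun x => g (pt x (y 1)))
      (a := 0) (b := y 0) ((hsec.mono hline).intervalIntegrable)
      (hsec.stronglyMeasurableAtFilter hopen _ hy0) (hsec.continuousAt (hopen.mem_nhds hy0))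
    refine h6.congr_of_eventuallyEq (Eventually.of_forall fun a => h1 a)
  have h7 : HasFDerivAt G (fderiv ℝ G y) (pt (y 0) (y 1)) := by
    rw [pt_self]
    exact ((hG.contDiffAt (isOpen_ball.mem_nhds hy)).differentiableAt (by norm_num)).hasFDerivAt
  have h8 : HasDerivAt (fun a : ℝ => pt a (y 1)) b0 (y 0) := by
    have h9 : HasFDerivAt (fun a : ℝ => ptL (a, y 1)) (ptL.comp (ContinuousLinearMap.inl ℝ ℝ ℝ))
        (y 0) := HasFDerivAt.comp (y 0) ptL.hasFDerivAt (hasFDerivAt_prodMk_left (y 0) (y 1))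
    have h10 := h9.hasDerivAt
    simpa [ptL_b0, pt] using h10
  have h11 := h7.comp_hasDerivAt (y 0) h8
  have h12 := h11.unique h5
  rw [pt_self] at h12
  exact h12

/-- exchange of the coordinates -/
def sw : E2 →L[ℝ] E2 :=
  (EuclideanSpace.proj (𝕜 := ℝ) 1 : E2 →L[ℝ] ℝ).smulRight b0
    + (EuclideanSpace.proj (𝕜 := ℝ) 0 : E2 →L[ℝ] ℝ).smulRight b1

theorem sw_zero (y : E2) : sw y 0 = y 1 := by simp [sw, b0, b1]

theorem sw_one (y : E2) : sw y 1 = y 0 := by simp [sw, b0, b1]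

theorem sw_sw (y : E2) : sw (sw y) = y := by
  ext i; fin_cases i
  · show sw (sw y) 0 = y 0
    rw [sw_zero, sw_one]
  · show sw (sw y) 1 = y 1
    rw [sw_one, sw_zero]

theorem sw_b1 : sw b1 = b0 := by
  ext i; fin_cases i
  · show sw b1 0 = b0 0
    rw [sw_zero]; simp [b0, b1]
  · show sw b1 1 = b0 1
    rw [sw_one]; simp [b0, b1]

theorem sw_mem {R : ℝ} {y : E2} (hy : y ∈ ball (0 : E2) R) : sw y ∈ ball (0 : E2) R := by
  rw [mem_ball_zero_iff] at hy ⊢
  have h1 : ‖sw y‖ ^ 2 = ‖y‖ ^ 2 := by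
    rw [norm_sq, norm_sq, sw_zero, sw_one]; ring
  have h2 : ‖sw y‖ = ‖y‖ := (pow_left_inj₀ (norm_nonneg _) (norm_nonneg _) two_ne_zero).1 h1
  linarith

/-- smooth primitive in the second variable -/
theorem exists_prim1 {R : ℝ} {g : E2 → ℝ} (hg : ContDiffOn ℝ ∞ g (ball 0 R)) :
    ∃ G : E2 → ℝ, ContDiffOn ℝ ∞ G (ball 0 R) ∧ ∀ y ∈ ball (0 : E2) R, fderiv ℝ G y b1 = g y := by
  obtain ⟨G, hG, h⟩ := exists_prim0 (g := fun y => g (sw y))
    (hg.comp sw.contDiff.contDiffOn fun y hy => sw_mem hy)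
  refine ⟨fun y => G (sw y), hG.comp sw.contDiff.contDiffOn fun y hy => sw_mem hy,
    fun y hy => ?_⟩
  have h1 : HasFDerivAt G (fderiv ℝ G (sw y)) (sw y) :=
    ((hG.contDiffAt (isOpen_ball.mem_nhds (sw_mem hy))).differentiableAt (by norm_num)).hasFDerivAt
  have h2 : HasFDerivAt (fun y => G (sw y)) _ y := HasFDerivAt.comp y h1 sw.hasFDerivAt
  rw [h2.fderiv, ContinuousLinearMap.comp_apply, sw_b1, h _ (sw_mem hy), sw_sw]

/-- a continuous function with vanishing integrals over all intervals vanishes -/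
theorem eq_zero_of_integral {ρ : ℝ} {F : ℝ → ℝ} (hF : ContinuousOn F (Ioo (-ρ) ρ))
    (h : ∀ c d, |c| < ρ → |d| < ρ → ∫ s in c..d, F s = 0) {s : ℝ} (hs : |s| < ρ) : F s = 0 := by
  have hs' : s ∈ Ioo (-ρ) ρ := abs_lt.1 hs
  have h0 : |(0 : ℝ)| < ρ := by
    rw [abs_zero]; exact (abs_nonneg s).trans_lt hs
  have h0' : (0 : ℝ) ∈ Ioo (-ρ) ρ := abs_lt.1 h0
  have hI : IntervalIntegrable F volume 0 s := by
    refine (hF.mono ?_).intervalIntegrable
    exact (ordConnected_Ioo.uIcc_subset h0' hs')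
  have h1 := intervalIntegral.integral_hasDerivAt_right hI
    (hF.stronglyMeasurableAtFilter isOpen_Ioo s hs') (hF.continuousAt (isOpen_Ioo.mem_nhds hs'))
  have h2 : (fun d => ∫ x in (0 : ℝ)..d, F x) =ᶠ[𝓝 s] fun _ => 0 := by
    filter_upwards [isOpen_Ioo.mem_nhds hs'] with d hd
    exact h 0 d h0 (abs_lt.2 hd)
  have h3 : HasDerivAt (fun d => ∫ x in (0 : ℝ)..d, F x) 0 s :=
    (hasDerivAt_const s (0 : ℝ)).congr_of_eventuallyEq h2
  exact h1.unique h3

/-- a function with prescribed increments is a primitive -/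
theorem hasDerivAt_of_increment {ρ : ℝ} {A F : ℝ → ℝ} (hF : ContinuousOn F (Ioo (-ρ) ρ))
    (h : ∀ c d, |c| < ρ → |d| < ρ → ∫ s in c..d, F s = A d - A c) {s : ℝ} (hs : |s| < ρ) :
    HasDerivAt A (F s) s := by
  have hs' : s ∈ Ioo (-ρ) ρ := abs_lt.1 hs
  have h0 : |(0 : ℝ)| < ρ := by
    rw [abs_zero]; exact (abs_nonneg s).trans_lt hs
  have h0' : (0 : ℝ) ∈ Ioo (-ρ) ρ := abs_lt.1 h0
  have hI : IntervalIntegrable F volume 0 s := by
    refine (hF.mono ?_).intervalIntegrable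
    exact (ordConnected_Ioo.uIcc_subset h0' hs')
  have h1 := intervalIntegral.integral_hasDerivAt_right hI
    (hF.stronglyMeasurableAtFilter isOpen_Ioo s hs') (hF.continuousAt (isOpen_Ioo.mem_nhds hs'))
  have h2 : A =ᶠ[𝓝 s] fun d => (∫ x in (0 : ℝ)..d, F x) + A 0 := by
    filter_upwards [isOpen_Ioo.mem_nhds hs'] with d hd
    rw [h 0 d h0 (abs_lt.2 hd)]; ring
  exact (h1.add_const (A 0)).congr_of_eventuallyEq h2

/-! ### Reduction to one variable -/

section

variable {R ρ : ℝ} {u v w g : E2 → ℝ}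

theorem cont1 (hρ : 2 * ρ < R) (hu : ContinuousOn u (ball 0 R)) {a : ℝ} (ha : |a| ≤ ρ) :
    ContinuousOn (fun s => u (pt a s)) (Ioo (-ρ) ρ) := by
  refine hu.comp (f := fun s => pt a s) ?_ ?_
  · exact (continuous_pt.comp (by fun_prop : Continuous fun s : ℝ => (a, s))).continuousOn
  · intro s hs
    exact pt_mem hρ ha (abs_lt.2 hs).le

theorem cont0 (hρ : 2 * ρ < R) (hu : ContinuousOn u (ball 0 R)) {s : ℝ} (hs : |s| ≤ ρ) :
    ContinuousOn (fun a => u (pt a s)) (Ioo (-ρ) ρ) := by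
  refine hu.comp (f := fun a => pt a s) ?_ ?_
  · exact (continuous_pt.comp (by fun_prop : Continuous fun a : ℝ => (a, s))).continuousOn
  · intro a ha
    exact pt_mem hρ (abs_lt.2 ha).le hs

/-- two fields with the same second component and the same divergence -/
theorem dir0 (hρ : 2 * ρ < R) (hu : ContinuousOn u (ball 0 R)) (hw : ContinuousOn w (ball 0 R))
    (h1 : Rect ρ u v g) (h2 : Rect ρ w v g) {a b s : ℝ} (ha : |a| ≤ ρ) (hb : |b| ≤ ρ)
    (hs : |s| < ρ) : u (pt b s) - w (pt b s) = u (pt a s) - w (pt a s) := by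
  have key := eq_zero_of_integral (ρ := ρ)
    (F := fun s => (u (pt b s) - u (pt a s)) - (w (pt b s) - w (pt a s)))
    (((cont1 hρ hu hb).sub (cont1 hρ hu ha)).sub ((cont1 hρ hw hb).sub (cont1 hρ hw ha)))
    (fun c d hc hd => ?_) hs
  · linarith
  · have i1 := (cont_sec1 hρ hu hb hc.le hd.le).intervalIntegrable (μ := volume)
    have i2 := (cont_sec1 hρ hu ha hc.le hd.le).intervalIntegrable (μ := volume)
    have i3 := (cont_sec1 hρ hw hb hc.le hd.le).intervalIntegrable (μ := volume)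
    have i4 := (cont_sec1 hρ hw ha hc.le hd.le).intervalIntegrable (μ := volume)
    rw [intervalIntegral.integral_sub (i1.sub i2) (i3.sub i4)]
    have e1 := h1 a b c d ha hb hc.le hd.le
    have e2 := h2 a b c d ha hb hc.le hd.le
    linarith

/-- two fields with the same first component and the same divergence -/
theorem dir1 (hρ : 2 * ρ < R) (hv : ContinuousOn v (ball 0 R)) (hw : ContinuousOn w (ball 0 R))
    (h1 : Rect ρ u v g) (h2 : Rect ρ u w g) {c d t : ℝ} (hc : |c| ≤ ρ) (hd : |d| ≤ ρ)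
    (ht : |t| < ρ) : v (pt t d) - w (pt t d) = v (pt t c) - w (pt t c) := by
  have key := eq_zero_of_integral (ρ := ρ)
    (F := fun t => (v (pt t d) - v (pt t c)) - (w (pt t d) - w (pt t c)))
    (((cont0 hρ hv hd).sub (cont0 hρ hv hc)).sub ((cont0 hρ hw hd).sub (cont0 hρ hw hc)))
    (fun a b ha hb => ?_) ht
  · linarith
  · have i1 := (cont_sec0 hρ hv hd ha.le hb.le).intervalIntegrable (μ := volume)
    have i2 := (cont_sec0 hρ hv hc ha.le hb.le).intervalIntegrable (μ := volume)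
    have i3 := (cont_sec0 hρ hw hd ha.le hb.le).intervalIntegrable (μ := volume)
    have i4 := (cont_sec0 hρ hw hc ha.le hb.le).intervalIntegrable (μ := volume)
    rw [intervalIntegral.integral_sub (i1.sub i2) (i3.sub i4)]
    have e1 := h1 a b c d ha.le hb.le hc hd
    have e2 := h2 a b c d ha.le hb.le hc hd
    linarith

end

/-! ### Extension of functions of one variable -/

/-- the truncation to `[-d, d]` -/
def clampTo (d s : ℝ) : ℝ := max (-d) (min d s)

theorem clampTo_continuous (d : ℝ) : Continuous (clampTo d) := by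
  unfold clampTo; fun_prop

theorem clampTo_mem {d : ℝ} (hd : 0 ≤ d) (s : ℝ) : |clampTo d s| ≤ d := by
  unfold clampTo
  rw [abs_le]
  exact ⟨le_max_left _ _, max_le (by linarith) (min_le_left _ _)⟩

theorem clampTo_eq {d s : ℝ} (hs : |s| ≤ d) : clampTo d s = s := by
  unfold clampTo
  rw [abs_le] at hs
  rw [min_eq_right hs.2, max_eq_right hs.1]

theorem continuous_clamp {ρ d : ℝ} {A : ℝ → ℝ} (hA : ContinuousOn A (Ioo (-ρ) ρ)) (hd : 0 ≤ d)
    (hdρ : d < ρ) : Continuous fun s => A (clampTo d s) := by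
  rw [← continuousOn_univ]
  refine hA.comp (clampTo_continuous d).continuousOn fun s _ => ?_
  have := abs_le.1 (clampTo_mem hd s)
  exact ⟨by linarith [this.1], by linarith [this.2]⟩

end Vale.Agent.P207.N3.H684
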