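import Vale.Agent.P207.N3.H684.Rect

/-!
# P207, line N3, P10W: the weak divergence equation implies the rectangle identity
-/

open Set Filter Topology Metric MeasureTheory
open scoped ContDiff Convolution

noncomputable section

namespace Vale.Agent.P207.N3.H684

/-- `∂₀ u + ∂₁ v = g` in the sense of distributions on the ball of radius `R`. -/
def WDiv (R : ℝ) (u v g : E2 → ℝ) : Prop :=
  ∀ f : E2 → ℝ, ContDiff ℝ ∞ f → HasCompactSupport f → tsupport f ⊆ ball 0 R →
    ∫ y, (fderiv ℝ f y b0 * u y + fderiv ℝ f y b1 * v y) = - ∫ y, f y * g y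

section Cut

variable {R : ℝ} {u : E2 → ℝ}

/-- a function continuous on a ball agrees on a smaller closed ball with a continuous function
with compact support -/
theorem exists_cut {R1 : ℝ} (h0 : 0 < R1) (h1 : R1 < R) (hu : ContinuousOn u (ball 0 R)) :
    ∃ w : E2 → ℝ, Continuous w ∧ HasCompactSupport w ∧ ∀ y ∈ closedBall (0 : E2) R1, w y = u y := by
  let χ : ContDiffBump (0 : E2) :=
    { rIn := R1, rOut := (R1 + R) / 2, rIn_pos := h0, rIn_lt_rOut := by linarith }
  have hs : tsupport χ = closedBall 0 ((R1 + R) / 2) := χ.tsupport_eq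
  refine ⟨fun y => χ y * u y, ?_, ?_, ?_⟩
  · rw [continuous_iff_continuousAt]
    intro y
    by_cases hy : y ∈ ball (0 : E2) R
    · exact χ.continuous.continuousAt.mul (hu.continuousAt (isOpen_ball.mem_nhds hy))
    · have hy2 : y ∉ tsupport χ := by
        rw [hs]
        intro h
        rw [mem_closedBall_zero_iff] at h
        rw [mem_ball_zero_iff] at hy
        linarith
      have h3 : (χ : E2 → ℝ) =ᶠ[𝓝 y] 0 := notMem_tsupport_iff_eventuallyEq.1 hy2
      have h4 : (fun y => χ y * u y) =ᶠ[𝓝 y] fun _ => 0 := by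
        filter_upwards [h3] with z hz
        rw [hz]; simp
      exact continuousAt_const.congr h4.symm
  · exact χ.hasCompactSupport.mul_right
  · intro y hy
    show χ y * u y = u y
    rw [χ.one_of_mem_closedBall hy, one_mul]

end Cut

/-- mollification with a smooth even-free kernel: `(w * φ) x = ∫ w z φ (x - z) dz` -/
def mol (φ w : E2 → ℝ) (x : E2) : ℝ := ∫ z, w z * φ (x - z)

theorem mol_eq (φ w : E2 → ℝ) :
    mol φ w = (w ⋆[ContinuousLinearMap.mul ℝ ℝ, volume] φ) := by
  funext x
  simp only [mol, convolution, ContinuousLinearMap.mul_apply']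

theorem mol_contDiff {φ w : E2 → ℝ} (hφ : ContDiff ℝ ∞ φ) (hc : HasCompactSupport φ)
    (hw : Continuous w) : ContDiff ℝ ∞ (mol φ w) := by
  rw [mol_eq]
  exact hc.contDiff_convolution_right _ hw.locallyIntegrable hφ

theorem mol_fderiv {φ w : E2 → ℝ} (hφ : ContDiff ℝ ∞ φ) (hc : HasCompactSupport φ)
    (hw : Continuous w) (x b : E2) :
    fderiv ℝ (mol φ w) x b = ∫ z, w z * fderiv ℝ φ (x - z) b := by
  rw [mol_eq]
  have h1 := hc.hasFDerivAt_convolution_right (ContinuousLinearMap.mul ℝ ℝ)
    (μ := (volume : Measure E2)) hw.locallyIntegrable (hφ.of_le (by norm_num)) x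
  rw [h1.fderiv]
  have h2 := convolution_precompR_apply (ContinuousLinearMap.mul ℝ ℝ)
    (μ := (volume : Measure E2)) hw.locallyIntegrable (hc.fderiv ℝ)
    (hφ.continuous_fderiv (by norm_num)) x b
  rw [h2]
  simp only [convolution, ContinuousLinearMap.mul_apply']

/-- distance of the mollified function from the function -/
theorem mol_dist {w : E2 → ℝ} (χ : ContDiffBump (0 : E2)) (hw : Continuous w)
    {δ : ℝ} {x : E2} (h : ∀ y ∈ ball x χ.rOut, dist (w y) (w x) ≤ δ) :
    dist (mol (χ.normed volume) w x) (w x) ≤ δ := by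
  have h1 := χ.dist_normed_convolution_le (μ := (volume : Measure E2)) (g := w) (x₀ := x)
    hw.aestronglyMeasurable h
  have h2 : mol (χ.normed volume) w x
      = (χ.normed volume ⋆[ContinuousLinearMap.lsmul ℝ ℝ, volume] w) x := by
    rw [mol_eq, ← convolution_flip]
    simp only [convolution, ContinuousLinearMap.flip_apply, ContinuousLinearMap.mul_apply',
      ContinuousLinearMap.lsmul_apply, smul_eq_mul]
    refine integral_congr_ae (Eventually.of_forall fun t => ?_)
    exact mul_comm _ _
  rw [h2]
  exact h1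

/-- the mollified fields satisfy the equation pointwise -/
theorem mol_div {R R1 ε : ℝ} (hR1 : R1 < R) {u v g : E2 → ℝ} (hW : WDiv R u v g)
    {φ : E2 → ℝ} (hφ : ContDiff ℝ ∞ φ) (hc : HasCompactSupport φ)
    (hε : tsupport φ ⊆ closedBall 0 ε)
    {u' v' g' : E2 → ℝ} (hu' : Continuous u') (hv' : Continuous v')
    (hu : ∀ y ∈ closedBall (0 : E2) R1, u' y = u y)
    (hv : ∀ y ∈ closedBall (0 : E2) R1, v' y = v y)
    (hg : ∀ y ∈ closedBall (0 : E2) R1, g' y = g y)
    {x : E2} (hx : ‖x‖ + ε ≤ R1) :
    fderiv ℝ (mol φ u') x b0 + fderiv ℝ (mol φ v') x b1 = mol φ g' x := by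
  rw [mol_fderiv hφ hc hu', mol_fderiv hφ hc hv']
  set f : E2 → ℝ := fun z => φ (x - z) with hf
  have hfs : ContDiff ℝ ∞ f := hφ.comp (contDiff_const.sub contDiff_id)
  have hfc : HasCompactSupport f := hc.comp_homeomorph (Homeomorph.subLeft x)
  have hft : tsupport f ⊆ closedBall (0 : E2) R1 := by
    intro z hz
    have h1 : x - z ∈ tsupport φ := by
      have h2 : z ∈ closure (Function.support f) := hz
      have h3 : Function.support f = (fun z => x - z) ⁻¹' Function.support φ := rfl
      rw [h3] at h2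
      have hcz : Continuous fun z : E2 => x - z := by fun_prop
      exact hcz.closure_preimage_subset _ h2
    have h4 := hε h1
    rw [mem_closedBall_zero_iff] at h4 ⊢
    have h5 : ‖z‖ ≤ ‖x‖ + ‖x - z‖ := by
      have : z = x - (x - z) := by abel
      calc ‖z‖ = ‖x - (x - z)‖ := by rw [← this]
        _ ≤ _ := norm_sub_le _ _
    linarith
  have hfd : ∀ z b, fderiv ℝ f z b = - fderiv ℝ φ (x - z) b := by
    intro z b
    have h1 : HasFDerivAt φ (fderiv ℝ φ (x - z)) (x - z) :=
      (hφ.differentiable (by norm_num) _).hasFDerivAt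
    have h2 : HasFDerivAt (fun z => x - z) (-ContinuousLinearMap.id ℝ E2) z :=
      (hasFDerivAt_id z).const_sub x
    have h3 : HasFDerivAt f _ z := HasFDerivAt.comp z h1 h2
    rw [h3.fderiv]
    simp
  have key := hW f hfs hfc (hft.trans (closedBall_subset_ball hR1))
  have hz0 : ∀ z, z ∉ closedBall (0 : E2) R1 → f z = 0 ∧ fderiv ℝ f z = 0 := by
    intro z hz
    have h1 : z ∉ tsupport f := fun h => hz (hft h)
    refine ⟨image_eq_zero_of_notMem_tsupport h1, ?_⟩
    have h2 : z ∉ tsupport (fderiv ℝ f) := fun h => h1 (tsupport_fderiv_subset ℝ h)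
    exact image_eq_zero_of_notMem_tsupport h2
  have e1 : (∫ y, (fderiv ℝ f y b0 * u y + fderiv ℝ f y b1 * v y))
      = ∫ y, (-(u' y * fderiv ℝ φ (x - y) b0) + -(v' y * fderiv ℝ φ (x - y) b1)) := by
    refine integral_congr_ae (Eventually.of_forall fun y => ?_)
    by_cases hy : y ∈ closedBall (0 : E2) R1
    · simp only [hfd, ← hu y hy, ← hv y hy]; ring
    · have h0 := (hz0 y hy).2
      have h1 := hfd y b0
      have h2 := hfd y b1
      rw [h0] at h1 h2
      simp only [zero_apply] at h1 h2
      have h3 : fderiv ℝ φ (x - y) b0 = 0 := by linarith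
      have h4 : fderiv ℝ φ (x - y) b1 = 0 := by linarith
      simp only [h0, h3, h4, zero_apply]; ring
  have e2 : (∫ y, f y * g y) = ∫ z, g' z * φ (x - z) := by
    refine integral_congr_ae (Eventually.of_forall fun y => ?_)
    by_cases hy : y ∈ closedBall (0 : E2) R1
    · simp only [hf, ← hg y hy]; ring
    · have h0 := (hz0 y hy).1
      have h1 : φ (x - y) = 0 := h0
      simp only [h0, h1]; ring
  rw [e1, e2] at key
  have hcont : ∀ b, Continuous fun z => fderiv ℝ φ (x - z) b := fun b =>
    ((hφ.continuous_fderiv (by norm_num)).comp (continuous_const.sub continuous_id)).clm_apply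
      continuous_const
  have hsup : ∀ b, HasCompactSupport fun z => fderiv ℝ φ (x - z) b := by
    intro b
    have h1 : HasCompactSupport (fderiv ℝ f) := hfc.fderiv ℝ
    have h2 : HasCompactSupport fun z => fderiv ℝ f z b :=
      h1.comp_left (g := fun L : E2 →L[ℝ] ℝ => L b) rfl
    have h3 : (fun z => fderiv ℝ φ (x - z) b) = fun z => -(fderiv ℝ f z b) := by
      funext z; rw [hfd]; ring
    rw [h3]
    exact h2.neg
  have i1 : Integrable fun y => u' y * fderiv ℝ φ (x - y) b0 :=
    (hu'.mul (hcont b0)).integrable_of_hasCompactSupport ((hsup b0).mul_left)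
  have i2 : Integrable fun y => v' y * fderiv ℝ φ (x - y) b1 :=
    (hv'.mul (hcont b1)).integrable_of_hasCompactSupport ((hsup b1).mul_left)
  have key2 : (∫ y, (-(u' y * fderiv ℝ φ (x - y) b0) + -(v' y * fderiv ℝ φ (x - y) b1)))
      = -(∫ y, u' y * fderiv ℝ φ (x - y) b0) + -∫ y, v' y * fderiv ℝ φ (x - y) b1 := by
    rw [← integral_neg, ← integral_neg]
    exact integral_add i1.neg i2.neg
  rw [key2] at key
  simp only [mol]
  linarith

/-- weak equation for continuous fields ⟹ flux identity -/
theorem rect_of_weak {R ρ : ℝ} (h0 : 0 < ρ) (hρ : 2 * ρ < R) {u v g : E2 → ℝ}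
    (hu : ContinuousOn u (ball 0 R)) (hv : ContinuousOn v (ball 0 R))
    (hg : ContinuousOn g (ball 0 R)) (hW : WDiv R u v g) : Rect ρ u v g := by
  set R1 : ℝ := (2 * ρ + R) / 2 with hR1
  have hR1' : R1 < R := by rw [hR1]; linarith
  have hR10 : 0 < R1 := by rw [hR1]; linarith
  obtain ⟨u', cu, su, eu⟩ := exists_cut hR10 hR1' hu
  obtain ⟨v', cv, sv, ev⟩ := exists_cut hR10 hR1' hv
  obtain ⟨g', cg, sg, eg⟩ := exists_cut hR10 hR1' hg
  have uu : UniformContinuous u' := su.uniformContinuous_of_continuous cu
  have uv : UniformContinuous v' := sv.uniformContinuous_of_continuous cv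
  have ug : UniformContinuous g' := sg.uniformContinuous_of_continuous cg
  intro a b c d ha hb hc hd
  -- the defect
  set D : (E2 → ℝ) → (E2 → ℝ) → (E2 → ℝ) → ℝ := fun u v g =>
    (∫ s in c..d, (u (pt b s) - u (pt a s))) + (∫ t in a..b, (v (pt t d) - v (pt t c)))
      - ∫ t in a..b, ∫ s in c..d, g (pt t s) with hD
  have hball : ∀ a s : ℝ, |a| ≤ ρ → |s| ≤ ρ → pt a s ∈ closedBall (0 : E2) R1 := by
    intro a s ha hs
    rw [mem_closedBall_zero_iff]
    have := norm_pt_le a s
    rw [hR1]; linarith
  have hDeq : D u v g = D u' v' g' := by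
    have e1 : (∫ s in c..d, (u (pt b s) - u (pt a s)))
        = ∫ s in c..d, (u' (pt b s) - u' (pt a s)) := by
      refine intervalIntegral.integral_congr fun s hs => ?_
      have := abs_le_of_uIcc hc hd hs
      simp only [eu _ (hball b s hb this), eu _ (hball a s ha this)]
    have e2 : (∫ t in a..b, (v (pt t d) - v (pt t c)))
        = ∫ t in a..b, (v' (pt t d) - v' (pt t c)) := by
      refine intervalIntegral.integral_congr fun s hs => ?_
      have := abs_le_of_uIcc ha hb hs
      simp only [ev _ (hball s d this hd), ev _ (hball s c this hc)]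
    have e3 : (∫ t in a..b, ∫ s in c..d, g (pt t s))
        = ∫ t in a..b, ∫ s in c..d, g' (pt t s) := by
      refine intervalIntegral.integral_congr fun t ht => ?_
      refine intervalIntegral.integral_congr fun s hs => ?_
      have h1 := abs_le_of_uIcc ha hb ht
      have h2 := abs_le_of_uIcc hc hd hs
      exact (eg _ (hball t s h1 h2)).symm
    simp only [hD, e1, e2, e3]
  -- approximation
  have happ : ∀ δ > 0, |D u' v' g'| ≤ (2 * |d - c| + 2 * |b - a| + |d - c| * |b - a|) * δ := by
    intro δ hδ
    obtain ⟨e1, he1, H1⟩ := Metric.uniformContinuous_iff.1 uu δ hδ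
    obtain ⟨e2, he2, H2⟩ := Metric.uniformContinuous_iff.1 uv δ hδ
    obtain ⟨e3, he3, H3⟩ := Metric.uniformContinuous_iff.1 ug δ hδ
    set ε : ℝ := min (min e1 e2) (min e3 (R1 - 2 * ρ)) with hε
    have hR12 : 0 < R1 - 2 * ρ := by rw [hR1]; linarith
    have hε0 : 0 < ε := lt_min (lt_min he1 he2) (lt_min he3 hR12)
    let χ : ContDiffBump (0 : E2) :=
      { rIn := ε / 4, rOut := ε / 2, rIn_pos := by linarith, rIn_lt_rOut := by linarith }
    set φ : E2 → ℝ := χ.normed volume with hφ
    have hφs : ContDiff ℝ ∞ φ := χ.contDiff_normed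
    have hφc : HasCompactSupport φ := χ.hasCompactSupport_normed
    have hφt : tsupport φ ⊆ closedBall 0 (ε / 2) := (χ.tsupport_normed_eq).subset
    have hdist : ∀ {w : E2 → ℝ} {e : ℝ}, Continuous w → ε ≤ e →
        (∀ ⦃x y : E2⦄, dist x y < e → dist (w x) (w y) < δ) → ∀ x, |mol φ w x - w x| ≤ δ := by
      intro w e hw hee H x
      have h1 : ∀ y ∈ ball x χ.rOut, dist (w y) (w x) ≤ δ := by
        intro y hy
        refine (H ?_).le
        have h2 : dist y x < ε / 2 := hy
        linarith
      exact mol_dist χ hw h1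
    have d1 := hdist cu ((min_le_left _ _).trans (min_le_left _ _)) (fun x y h => H1 h)
    have d2 := hdist cv ((min_le_left _ _).trans (min_le_right _ _)) (fun x y h => H2 h)
    have d3 := hdist cg ((min_le_right _ _).trans (min_le_left _ _)) (fun x y h => H3 h)
    have hε1 : ε ≤ R1 - 2 * ρ := (min_le_right _ _).trans (min_le_right _ _)
    have su' := mol_contDiff hφs hφc cu
    have sv' := mol_contDiff hφs hφc cv
    have sg' := mol_contDiff hφs hφc cg
    have hrect : Rect ρ (mol φ u') (mol φ v') (mol φ g') := by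
      refine rect_of_contDiff (R := R1 - ε / 2) (by linarith)
        (su'.of_le (by norm_num)).contDiffOn (sv'.of_le (by norm_num)).contDiffOn ?_
      intro y hy
      rw [mem_ball_zero_iff] at hy
      exact mol_div hR1' hW hφs hφc hφt cu cv eu ev eg (by linarith)
    have hr0 : D (mol φ u') (mol φ v') (mol φ g') = 0 := by
      simp only [hD]
      rw [hrect a b c d ha hb hc hd]; ring
    -- compare
    have c1 : ∀ {w : E2 → ℝ}, Continuous w → ∀ a c d, IntervalIntegrable (fun s => w (pt a s))
        volume c d := fun hw a c d =>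
      (hw.comp (continuous_pt.comp (by fun_prop : Continuous fun s : ℝ => (a, s)))).intervalIntegrable
        _ _
    have c2 : ∀ {w : E2 → ℝ}, Continuous w → ∀ s c d, IntervalIntegrable (fun a => w (pt a s))
        volume c d := fun hw s c d =>
      (hw.comp (continuous_pt.comp (by fun_prop : Continuous fun a : ℝ => (a, s)))).intervalIntegrable
        _ _
    have c3 : ∀ {w : E2 → ℝ}, Continuous w → ∀ c d, Continuous fun t => ∫ s in c..d, w (pt t s) := by
      intro w hw c d
      have h1 : Continuous (Function.uncurry fun (t s : ℝ) => w (pt t s)) :=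
        hw.comp continuous_pt
      exact intervalIntegral.continuous_parametric_intervalIntegral_of_continuous' h1 c d
    have t1 : |(∫ s in c..d, (u' (pt b s) - u' (pt a s)))
        - ∫ s in c..d, (mol φ u' (pt b s) - mol φ u' (pt a s))| ≤ (2 * δ) * |d - c| := by
      rw [← intervalIntegral.integral_sub ((c1 cu b c d).sub (c1 cu a c d))
        ((c1 su'.continuous b c d).sub (c1 su'.continuous a c d))]
      rw [← Real.norm_eq_abs]
      refine intervalIntegral.norm_integral_le_of_norm_le_const fun s _ => ?_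
      have q1 := d1 (pt b s)
      have q2 := d1 (pt a s)
      rw [abs_le] at q1 q2
      rw [Real.norm_eq_abs, abs_le]
      constructor <;> linarith [q1.1, q1.2, q2.1, q2.2]
    have t2 : |(∫ t in a..b, (v' (pt t d) - v' (pt t c)))
        - ∫ t in a..b, (mol φ v' (pt t d) - mol φ v' (pt t c))| ≤ (2 * δ) * |b - a| := by
      rw [← intervalIntegral.integral_sub ((c2 cv d a b).sub (c2 cv c a b))
        ((c2 sv'.continuous d a b).sub (c2 sv'.continuous c a b))]
      rw [← Real.norm_eq_abs]
      refine intervalIntegral.norm_integral_le_of_norm_le_const fun s _ => ?_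
      have q1 := d2 (pt s d)
      have q2 := d2 (pt s c)
      rw [abs_le] at q1 q2
      rw [Real.norm_eq_abs, abs_le]
      constructor <;> linarith [q1.1, q1.2, q2.1, q2.2]
    have t3 : |(∫ t in a..b, ∫ s in c..d, g' (pt t s))
        - ∫ t in a..b, ∫ s in c..d, mol φ g' (pt t s)| ≤ (δ * |d - c|) * |b - a| := by
      rw [← intervalIntegral.integral_sub ((c3 cg c d).intervalIntegrable _ _)
        ((c3 sg'.continuous c d).intervalIntegrable _ _)]
      rw [← Real.norm_eq_abs]
      refine intervalIntegral.norm_integral_le_of_norm_le_const fun t _ => ?_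
      rw [← intervalIntegral.integral_sub (c1 cg t c d) (c1 sg'.continuous t c d)]
      refine intervalIntegral.norm_integral_le_of_norm_le_const fun s _ => ?_
      have q1 := d3 (pt t s)
      rw [Real.norm_eq_abs, abs_sub_comm]
      exact q1
    have hfin : D u' v' g' = D u' v' g' - D (mol φ u') (mol φ v') (mol φ g') := by
      rw [hr0]; ring
    rw [hfin]
    rw [abs_le] at t1 t2 t3 ⊢
    simp only [hD]
    constructor <;> nlinarith [t1.1, t1.2, t2.1, t2.2, t3.1, t3.2]
  have hzero : D u' v' g' = 0 := by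
    by_contra hne
    have hpos : 0 < |D u' v' g'| := abs_pos.2 hne
    set K : ℝ := 2 * |d - c| + 2 * |b - a| + |d - c| * |b - a| with hK
    have hK0 : 0 ≤ K := by positivity
    have h1 := happ (|D u' v' g'| / (2 * (K + 1))) (by positivity)
    have h2 : K * (|D u' v' g'| / (2 * (K + 1))) < |D u' v' g'| := by
      rw [mul_div_assoc', div_lt_iff₀ (by positivity)]
      nlinarith
    linarith
  rw [← hDeq] at hzero
  simp only [hD] at hzero
  linarith

end Vale.Agent.P207.N3.H684
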